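import Mathlib
import Crest.Prelude.Def_TruncExpWeight

/-!
Shared definitions for S0423 (row 280). Interface fixed by the row lead (helper22).
Every module of the S0423 team imports this file and uses exactly these names.

Notation of the blueprint: `c = 4/3`, `s0 = 1 - c = -1/3`.
-/

namespace Crest.Agent.S0423

open MeasureTheory

/-- The test function of the statement: `psi w = g (4/3 + w)` with `g = truncExpWeight`. -/
noncomputable def psi (w : ℝ) : ℝ := Crest.AlgGeometry.truncExpWeight (4 / 3 + w)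

/-- The kernel `omega s = (s + 4/3) * exp (-(s + 4/3))` for `s > -4/3`, and `0` otherwise.
It is `-psi'`; it is nonnegative, has integral one, is nondecreasing on `Iic (-1/3)` and
nonincreasing on `Ici (-1/3)`. -/
noncomputable def omega (s : ℝ) : ℝ :=
  if -(4 / 3 : ℝ) < s then (s + 4 / 3) * Real.exp (-(s + 4 / 3)) else 0

/-- Tail `s ↦ P (t * (X - 1) > s)` of the mean-zero exponential law (`X` mean-one exponential),
for `t > 0`: it is `1` for `s ≤ -t` and `exp (-(s + t) / t)` for `s ≥ -t`. -/
noncomputable def expTail (t s : ℝ) : ℝ := min 1 (Real.exp (-(s + t) / t))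

/-- Four-point form of log-concavity (no logarithms, no positivity needed). -/
def PF2 (G : ℝ → ℝ) : Prop :=
  ∀ u u' d : ℝ, u ≤ u' → 0 ≤ d → G u * G (u' + d) ≤ G (u + d) * G u'

/-- `G` looks like a tail function: antitone with values in `[0, 1]`. -/
def IsTail (G : ℝ → ℝ) : Prop :=
  Antitone G ∧ (∀ s, 0 ≤ G s) ∧ (∀ s, G s ≤ 1)

/-- Tail of the constant random variable `0`: `tail0 s = 1` for `s < 0`, and `0` for `s ≥ 0`. -/
noncomputable def tail0 (s : ℝ) : ℝ := if s < 0 then 1 else 0

/-- One exponential coordinate: if `S` is the tail of `D`, then `tailStep a S` is the tail of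
`D + a * X` with `X` an independent mean-one exponential variable. -/
noncomputable def tailStep (a : ℝ) (S : ℝ → ℝ) (s : ℝ) : ℝ :=
  ∫ y in Set.Ioi (0 : ℝ), S (s - a * y) * Real.exp (-y)

/-- The functional of the statement:
`J N a F = ∫_{(0,∞)^N} F (∑ a_i x_i) * exp (-∑ x_i) dx`. -/
noncomputable def J (N : ℕ) (a : Fin N → ℝ) (F : ℝ → ℝ) : ℝ :=
  ∫ x in Set.pi Set.univ (fun _ : Fin N => Set.Ioi (0 : ℝ)),
    F (∑ i, a i * x i) * Real.exp (-∑ i, x i)

/-- Tail of `∑ a_i X_i`: `tailN N a s = P (∑ a_i X_i > s)`. -/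
noncomputable def tailN (N : ℕ) (a : Fin N → ℝ) (s : ℝ) : ℝ :=
  J N a (fun w => if s < w then 1 else 0)

end Crest.Agent.S0423
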