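import Mathlib
import Crest.Agent.Lib.S0423.Defs

/-!
S0423 (row 280), package P8: elementary facts on `expTail` and `omega` (helper43).
Interface theorems have the exact names fixed by the row lead; auxiliary lemmas are `h43_*`.
-/

set_option autoImplicit false

namespace Crest.Agent.S0423

open MeasureTheory Set

theorem expTail_of_le {t s : ℝ} (ht : 0 < t) (h : s ≤ -t) : expTail t s = 1 := by
  unfold expTail
  apply min_eq_left
  rw [Real.one_le_exp_iff]
  apply div_nonneg _ ht.le
  linarith

theorem expTail_of_ge {t s : ℝ} (ht : 0 < t) (h : -t ≤ s) :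
    expTail t s = Real.exp (-(s + t) / t) := by
  unfold expTail
  apply min_eq_right
  rw [Real.exp_le_one_iff]
  apply div_nonpos_of_nonpos_of_nonneg _ ht.le
  linarith

theorem isTail_expTail {t : ℝ} (ht : 0 < t) : IsTail (expTail t) := by
  refine ⟨?_, fun s => ?_, fun s => min_le_left _ _⟩
  · intro u v huv
    show min 1 (Real.exp (-(v + t) / t)) ≤ min 1 (Real.exp (-(u + t) / t))
    apply min_le_min le_rfl
    apply Real.exp_le_exp.mpr
    apply div_le_div_of_nonneg_right _ ht.le
    linarith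
  · exact le_min zero_le_one (Real.exp_pos _).le

theorem continuous_expTail {t : ℝ} (ht : 0 < t) : Continuous (expTail t) := by
  have _h := ht
  show Continuous (fun s => min 1 (Real.exp (-(s + t) / t)))
  exact continuous_const.min (Real.continuous_exp.comp (by fun_prop))

theorem expTail_pos (t s : ℝ) : 0 < expTail t s :=
  lt_min one_pos (Real.exp_pos _)

theorem h43_hasDerivAt_prim {t : ℝ} (ht : 0 < t) (x : ℝ) :
    HasDerivAt (fun s : ℝ => s + t * Real.exp (-(s + t) / t))
      (1 - Real.exp (-(x + t) / t)) x := by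
  have h1 : HasDerivAt (fun s : ℝ => -(s + t) / t) (-1 / t) x := by
    have := ((hasDerivAt_id x).add_const t).neg.div_const t
    simpa using this
  have h2 := (h1.exp).const_mul t
  have h3 : HasDerivAt (fun s : ℝ => s + t * Real.exp (-(s + t) / t))
      (1 + t * (Real.exp (-(x + t) / t) * (-1 / t))) x := (hasDerivAt_id' x).add h2
  have htne : t ≠ 0 := ht.ne'
  have h4 : t * (Real.exp (-(x + t) / t) * (-1 / t)) = -Real.exp (-(x + t) / t) := by
    field_simp
  rw [h4] at h3
  have h5 : (1 : ℝ) + -Real.exp (-(x + t) / t) = 1 - Real.exp (-(x + t) / t) := by ring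
  rw [h5] at h3
  exact h3

theorem expTail_integral_Iic {t b : ℝ} (ht : 0 < t) (hb : -t ≤ b) :
    MeasureTheory.IntegrableOn (fun s => 1 - expTail t s) (Set.Iic b) ∧
      ∫ s in Set.Iic b, (1 - expTail t s) = b + t * Real.exp (-(b + t) / t) := by
  have hcont : Continuous (fun s => 1 - expTail t s) :=
    continuous_const.sub (continuous_expTail ht)
  have hzero : EqOn (fun _ : ℝ => (0 : ℝ)) (fun s => 1 - expTail t s) (Iic (-t)) := by
    intro s hs
    simp only
    rw [expTail_of_le ht hs, sub_self]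
  have hint1 : IntegrableOn (fun s => 1 - expTail t s) (Iic (-t)) :=
    (integrableOn_zero).congr_fun hzero measurableSet_Iic
  have hint2 : IntegrableOn (fun s => 1 - expTail t s) (Ioc (-t) b) :=
    (hcont.intervalIntegrable (-t) b).1
  have hunion : Iic b = Iic (-t) ∪ Ioc (-t) b := (Iic_union_Ioc_eq_Iic hb).symm
  have hdisj : Disjoint (Iic (-t)) (Ioc (-t) b) := Iic_disjoint_Ioc le_rfl
  refine ⟨by rw [hunion]; exact hint1.union hint2, ?_⟩
  rw [hunion, setIntegral_union hdisj measurableSet_Ioc hint1 hint2]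
  have e1 : ∫ s in Iic (-t), (1 - expTail t s) = 0 := by
    rw [← setIntegral_congr_fun measurableSet_Iic hzero]
    simp
  have e2 : ∫ s in Ioc (-t) b, (1 - expTail t s) = b + t * Real.exp (-(b + t) / t) := by
    rw [← intervalIntegral.integral_of_le hb]
    have hcongr : ∫ s in (-t)..b, (1 - expTail t s) =
        ∫ s in (-t)..b, (1 - Real.exp (-(s + t) / t)) := by
      apply intervalIntegral.integral_congr
      intro s hs
      rw [uIcc_of_le hb] at hs
      simp only
      rw [expTail_of_ge ht hs.1]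
    rw [hcongr]
    rw [intervalIntegral.integral_eq_sub_of_hasDerivAt
      (f := fun s : ℝ => s + t * Real.exp (-(s + t) / t))
      (fun x _ => h43_hasDerivAt_prim ht x)
      ((by fun_prop : Continuous (fun s : ℝ => 1 - Real.exp (-(s + t) / t))).intervalIntegrable _ _)]
    simp
  rw [e1, e2, zero_add]

theorem expTail_mean {t : ℝ} (ht : 0 < t) :
    MeasureTheory.Integrable (fun s => expTail t s - tail0 s) ∧
      ∫ s, (expTail t s - tail0 s) = 0 := by
  obtain ⟨hI, hval⟩ := expTail_integral_Iic ht (b := 0) (by linarith)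
  have hneg : EqOn (fun s => -(1 - expTail t s)) (fun s => expTail t s - tail0 s) (Iio (0:ℝ)) := by
    intro s hs
    have h1 : tail0 s = 1 := if_pos hs
    simp only [h1]
    ring
  have hpos : EqOn (fun s => Real.exp (-t⁻¹ * s) * Real.exp (-1))
      (fun s => expTail t s - tail0 s) (Ici (0:ℝ)) := by
    intro s hs
    have h0 : tail0 s = 0 := if_neg (not_lt.mpr hs)
    have h1 : expTail t s = Real.exp (-(s + t) / t) :=
      expTail_of_ge ht (by linarith [mem_Ici.mp hs])
    simp only [h0, h1, sub_zero]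
    rw [← Real.exp_add]
    congr 1
    have htne : t ≠ 0 := ht.ne'
    field_simp
    ring
  have hIo : IntegrableOn (fun s => -(1 - expTail t s)) (Iio 0) :=
    (Iff.mp integrableOn_Iic_iff_integrableOn_Iio hI).neg
  have hI1 : IntegrableOn (fun s => expTail t s - tail0 s) (Iio 0) :=
    hIo.congr_fun hneg measurableSet_Iio
  have ha : -t⁻¹ < 0 := neg_lt_zero.mpr (inv_pos.mpr ht)
  have hE : IntegrableOn (fun s => Real.exp (-t⁻¹ * s) * Real.exp (-1)) (Ioi 0) :=
    (integrableOn_exp_mul_Ioi ha 0).mul_const _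
  have hI2 : IntegrableOn (fun s => expTail t s - tail0 s) (Ici 0) :=
    (Iff.mpr integrableOn_Ici_iff_integrableOn_Ioi hE).congr_fun hpos measurableSet_Ici
  have hint : Integrable (fun s => expTail t s - tail0 s) := by
    rw [← integrableOn_univ, ← Iio_union_Ici (a := (0:ℝ))]
    exact hI1.union hI2
  refine ⟨hint, ?_⟩
  have hdisj : Disjoint (Iio (0:ℝ)) (Ici 0) := Iio_disjoint_Ici le_rfl
  rw [← setIntegral_univ, ← Iio_union_Ici (a := (0:ℝ)),
    setIntegral_union hdisj measurableSet_Ici hI1 hI2]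
  rw [← setIntegral_congr_fun measurableSet_Iio hneg,
    ← setIntegral_congr_fun measurableSet_Ici hpos]
  rw [integral_neg, ← integral_Iic_eq_integral_Iio, hval, integral_Ici_eq_integral_Ioi,
    integral_mul_const, integral_exp_mul_Ioi ha 0]
  have htne : t ≠ 0 := ht.ne'
  have h1 : -(0 + t) / t = -1 := by
    field_simp
    ring
  rw [h1]
  simp

theorem h43_omega_nonneg (s : ℝ) : 0 ≤ omega s := by
  unfold omega
  split_ifs with h
  · exact mul_nonneg (by linarith) (Real.exp_pos _).le
  · exact le_rfl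

theorem h43_omega_of_lt {s : ℝ} (h : -(4 / 3 : ℝ) < s) :
    omega s = (s + 4 / 3) * Real.exp (-(s + 4 / 3)) := if_pos h

theorem omega_monotoneOn : MonotoneOn omega (Set.Iic (-(1/3))) := by
  intro u hu v hv huv
  by_cases h : -(4 / 3 : ℝ) < u
  · have hv' : -(4 / 3 : ℝ) < v := lt_of_lt_of_le h huv
    rw [h43_omega_of_lt h, h43_omega_of_lt hv']
    have hy1 : v + 4 / 3 ≤ 1 := by have := mem_Iic.mp hv; linarith
    have hd : 1 - (v - u) ≤ Real.exp (-(v - u)) := by
      have := Real.add_one_le_exp (-(v - u)); linarith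
    have hexp : Real.exp (-(v + 4 / 3)) = Real.exp (-(u + 4 / 3)) * Real.exp (-(v - u)) := by
      rw [← Real.exp_add]; congr 1; ring
    rw [hexp]
    have hpos := Real.exp_pos (-(u + 4 / 3))
    have key : (u + 4 / 3) ≤ (v + 4 / 3) * Real.exp (-(v - u)) := by
      have h1 : (v + 4 / 3) * (1 - (v - u)) ≤ (v + 4 / 3) * Real.exp (-(v - u)) :=
        mul_le_mul_of_nonneg_left hd (by linarith)
      nlinarith [mul_nonneg (sub_nonneg.mpr huv) (sub_nonneg.mpr hy1)]
    calc (u + 4 / 3) * Real.exp (-(u + 4 / 3))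
        ≤ ((v + 4 / 3) * Real.exp (-(v - u))) * Real.exp (-(u + 4 / 3)) :=
          mul_le_mul_of_nonneg_right key hpos.le
      _ = (v + 4 / 3) * (Real.exp (-(u + 4 / 3)) * Real.exp (-(v - u))) := by ring
  · have h0 : omega u = 0 := if_neg h
    rw [h0]; exact h43_omega_nonneg v

theorem omega_antitoneOn : AntitoneOn omega (Set.Ici (-(1/3))) := by
  intro u hu v hv huv
  have hu' : -(1 / 3 : ℝ) ≤ u := mem_Ici.mp hu
  have hul : -(4 / 3 : ℝ) < u := by linarith
  have hvl : -(4 / 3 : ℝ) < v := by linarith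
  rw [h43_omega_of_lt hul, h43_omega_of_lt hvl]
  have hE := Real.exp_pos (-(v - u))
  have hd : (1 + (v - u)) * Real.exp (-(v - u)) ≤ 1 := by
    have h1 : 1 + (v - u) ≤ Real.exp (v - u) := by
      have := Real.add_one_le_exp (v - u); linarith
    have h2 : Real.exp (v - u) * Real.exp (-(v - u)) = 1 := by
      rw [← Real.exp_add]; simp
    calc (1 + (v - u)) * Real.exp (-(v - u)) ≤ Real.exp (v - u) * Real.exp (-(v - u)) :=
          mul_le_mul_of_nonneg_right h1 hE.le
      _ = 1 := h2
  have hexp : Real.exp (-(v + 4 / 3)) = Real.exp (-(u + 4 / 3)) * Real.exp (-(v - u)) := by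
    rw [← Real.exp_add]; congr 1; ring
  rw [hexp]
  have hpos := Real.exp_pos (-(u + 4 / 3))
  have h1 : (v + 4 / 3) ≤ (u + 4 / 3) * (1 + (v - u)) := by
    nlinarith [mul_nonneg (sub_nonneg.mpr huv) (show (0:ℝ) ≤ u + 4 / 3 - 1 by linarith)]
  have key : (v + 4 / 3) * Real.exp (-(v - u)) ≤ (u + 4 / 3) := by
    calc (v + 4 / 3) * Real.exp (-(v - u))
        ≤ ((u + 4 / 3) * (1 + (v - u))) * Real.exp (-(v - u)) :=
          mul_le_mul_of_nonneg_right h1 hE.le
      _ = (u + 4 / 3) * ((1 + (v - u)) * Real.exp (-(v - u))) := by ring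
      _ ≤ (u + 4 / 3) * 1 := mul_le_mul_of_nonneg_left hd (by linarith)
      _ = u + 4 / 3 := mul_one _
  calc (v + 4 / 3) * (Real.exp (-(u + 4 / 3)) * Real.exp (-(v - u)))
      = ((v + 4 / 3) * Real.exp (-(v - u))) * Real.exp (-(u + 4 / 3)) := by ring
    _ ≤ (u + 4 / 3) * Real.exp (-(u + 4 / 3)) := mul_le_mul_of_nonneg_right key hpos.le

theorem omega_le_one (s : ℝ) : omega s ≤ 1 := by
  unfold omega
  split_ifs with h
  · have h1 : s + 4 / 3 ≤ Real.exp (s + 4 / 3) := by
      linarith [Real.add_one_le_exp (s + 4 / 3)]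
    have h2 : Real.exp (s + 4 / 3) * Real.exp (-(s + 4 / 3)) = 1 := by
      rw [← Real.exp_add]; simp
    calc (s + 4 / 3) * Real.exp (-(s + 4 / 3))
        ≤ Real.exp (s + 4 / 3) * Real.exp (-(s + 4 / 3)) :=
          mul_le_mul_of_nonneg_right h1 (Real.exp_pos _).le
      _ = 1 := h2
  · exact zero_le_one

end Crest.Agent.S0423
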