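import Mathlib
import Crest.Agent.Lib.S0423.Defs

/-!
Package P7 of S0423 (row 280): single-crossing integral lemmas.

If `f` has integral zero on a half-line and changes sign at most once (from nonpositive to
nonnegative as one moves towards the point `b`), and `w` is monotone towards `b`, then
`∫ w * f ≥ 0`.
-/

namespace Crest.Agent.S0423

open MeasureTheory

/-- A function of one sign (nonnegative) with zero integral: the weighted integral vanishes. -/
private theorem h47_zero_of_nonneg {f w : ℝ → ℝ} {A : Set ℝ} (hA : MeasurableSet A)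
    (hf : IntegrableOn f A) (h0 : ∫ s in A, f s = 0) (hnn : ∀ s ∈ A, 0 ≤ f s) :
    ∫ s in A, w s * f s = 0 := by
  have hae : 0 ≤ᵐ[volume.restrict A] f := by
    filter_upwards [ae_restrict_mem hA] with s hs using hnn s hs
  have hz : f =ᵐ[volume.restrict A] 0 := (integral_eq_zero_iff_of_nonneg_ae hae hf).mp h0
  have : (fun s => w s * f s) =ᵐ[volume.restrict A] fun _ => (0 : ℝ) := by
    filter_upwards [hz] with s hs
    simp [hs]
  rw [integral_congr_ae this]
  simp

/-- A function of one sign (nonpositive) with zero integral: the weighted integral vanishes. -/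
private theorem h47_zero_of_nonpos {f w : ℝ → ℝ} {A : Set ℝ} (hA : MeasurableSet A)
    (hf : IntegrableOn f A) (h0 : ∫ s in A, f s = 0) (hnp : ∀ s ∈ A, f s ≤ 0) :
    ∫ s in A, w s * f s = 0 := by
  have h1 : ∫ s in A, w s * (-f s) = 0 :=
    h47_zero_of_nonneg (f := fun s => -f s) hA hf.neg (by simp [integral_neg, h0])
      (fun s hs => neg_nonneg.mpr (hnp s hs))
  have h2 : ∫ s in A, w s * f s = -∫ s in A, w s * (-f s) := by
    rw [← integral_neg]
    congr 1
    funext s
    ring
  rw [h2, h1, neg_zero]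

/-- Pointwise sign information relative to a pivot `c` gives the inequality. -/
private theorem h47_of_pivot {f w : ℝ → ℝ} {A : Set ℝ} (hA : MeasurableSet A)
    (hf : IntegrableOn f A) (hwf : IntegrableOn (fun s => w s * f s) A)
    (h0 : ∫ s in A, f s = 0) (c : ℝ) (key : ∀ s ∈ A, 0 ≤ (w s - c) * f s) :
    0 ≤ ∫ s in A, w s * f s := by
  have h1 : 0 ≤ ∫ s in A, (w s - c) * f s := setIntegral_nonneg hA key
  have h2 : ∫ s in A, (w s - c) * f s = (∫ s in A, w s * f s) - c * ∫ s in A, f s := by
    have : (fun s => (w s - c) * f s) = fun s => w s * f s - c * f s := by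
      funext s; ring
    rw [this, integral_sub hwf (hf.const_mul c), integral_const_mul]
  rw [h2, h0, mul_zero, sub_zero] at h1
  exact h1

theorem crossing_left {f w : ℝ → ℝ} {b : ℝ} (hw : MonotoneOn w (Set.Iic b))
    (hf : MeasureTheory.IntegrableOn f (Set.Iic b))
    (hwf : MeasureTheory.IntegrableOn (fun s => w s * f s) (Set.Iic b))
    (h0 : ∫ s in Set.Iic b, f s = 0)
    (hcross : ∀ u v, u < v → v ≤ b → 0 < f u → 0 ≤ f v) :
    0 ≤ ∫ s in Set.Iic b, w s * f s := by
  classical
  by_cases hP : ∃ u, u ≤ b ∧ 0 < f u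
  · by_cases hbdd : ∃ m, ∀ u, u ≤ b → 0 < f u → m ≤ u
    · -- pivot at `θ = sInf P`
      have hne : {u | u ≤ b ∧ 0 < f u}.Nonempty := hP
      have hbd : BddBelow {u | u ≤ b ∧ 0 < f u} := by
        obtain ⟨m, hm⟩ := hbdd
        exact ⟨m, fun u hu => hm u hu.1 hu.2⟩
      obtain ⟨u₀, hu₀⟩ := hP
      have hθb : sInf {u | u ≤ b ∧ 0 < f u} ≤ b := (csInf_le hbd hu₀).trans hu₀.1
      apply h47_of_pivot measurableSet_Iic hf hwf h0 (w (sInf {u | u ≤ b ∧ 0 < f u}))
      intro s hs
      have hs' : s ≤ b := hs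
      rcases lt_trichotomy s (sInf {u | u ≤ b ∧ 0 < f u}) with h | h | h
      · have hfs : f s ≤ 0 := by
          by_contra hcon
          push Not at hcon
          exact absurd (csInf_le hbd ⟨hs', hcon⟩) (not_le.mpr h)
        have hws : w s ≤ w (sInf {u | u ≤ b ∧ 0 < f u}) := hw hs' hθb h.le
        exact mul_nonneg_of_nonpos_of_nonpos (sub_nonpos.mpr hws) hfs
      · rw [h]; simp
      · obtain ⟨u, hu, hus⟩ := exists_lt_of_csInf_lt hne h
        have hfs : 0 ≤ f s := hcross u s hus hs' hu.2
        have hws : w (sInf {u | u ≤ b ∧ 0 < f u}) ≤ w s := hw hθb hs' h.le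
        exact mul_nonneg (sub_nonneg.mpr hws) hfs
    · -- positivity points are unbounded below: `f ≥ 0` on `Iic b`
      push Not at hbdd
      have hnn : ∀ s ∈ Set.Iic b, 0 ≤ f s := by
        intro s hs
        obtain ⟨u, hub, hfu, hus⟩ := hbdd s
        exact hcross u s hus hs hfu
      exact (h47_zero_of_nonneg measurableSet_Iic hf h0 hnn).ge
  · -- no positivity point: `f ≤ 0` on `Iic b`
    push Not at hP
    exact (h47_zero_of_nonpos measurableSet_Iic hf h0 hP).ge

theorem crossing_right {f w : ℝ → ℝ} {b : ℝ} (hw : AntitoneOn w (Set.Ici b))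
    (hf : MeasureTheory.IntegrableOn f (Set.Ioi b))
    (hwf : MeasureTheory.IntegrableOn (fun s => w s * f s) (Set.Ioi b))
    (h0 : ∫ s in Set.Ioi b, f s = 0)
    (hcross : ∀ u v, b ≤ u → u < v → 0 < f v → 0 ≤ f u) :
    0 ≤ ∫ s in Set.Ioi b, w s * f s := by
  classical
  by_cases hP : ∃ v, b < v ∧ 0 < f v
  · by_cases hbdd : ∃ m, ∀ v, b < v → 0 < f v → v ≤ m
    · -- pivot at `θ = sSup P`
      have hne : {v | b < v ∧ 0 < f v}.Nonempty := hP
      have hbd : BddAbove {v | b < v ∧ 0 < f v} := by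
        obtain ⟨m, hm⟩ := hbdd
        exact ⟨m, fun v hv => hm v hv.1 hv.2⟩
      obtain ⟨v₀, hv₀⟩ := hP
      have hθb : b ≤ sSup {v | b < v ∧ 0 < f v} := hv₀.1.le.trans (le_csSup hbd hv₀)
      apply h47_of_pivot measurableSet_Ioi hf hwf h0 (w (sSup {v | b < v ∧ 0 < f v}))
      intro s hs
      have hs' : b < s := hs
      rcases lt_trichotomy s (sSup {v | b < v ∧ 0 < f v}) with h | h | h
      · obtain ⟨v, hv, hsv⟩ := exists_lt_of_lt_csSup hne h
        have hfs : 0 ≤ f s := hcross s v hs'.le hsv hv.2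
        have hws : w (sSup {v | b < v ∧ 0 < f v}) ≤ w s := hw hs'.le hθb h.le
        exact mul_nonneg (sub_nonneg.mpr hws) hfs
      · rw [h]; simp
      · have hfs : f s ≤ 0 := by
          by_contra hcon
          push Not at hcon
          exact absurd (le_csSup hbd ⟨hs', hcon⟩) (not_le.mpr h)
        have hws : w s ≤ w (sSup {v | b < v ∧ 0 < f v}) := hw hθb hs'.le h.le
        exact mul_nonneg_of_nonpos_of_nonpos (sub_nonpos.mpr hws) hfs
    · -- positivity points are unbounded above: `f ≥ 0` on `Ioi b`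
      push Not at hbdd
      have hnn : ∀ s ∈ Set.Ioi b, 0 ≤ f s := by
        intro s hs
        have hs' : b < s := hs
        obtain ⟨v, hbv, hfv, hsv⟩ := hbdd s
        exact hcross s v hs'.le hsv hfv
      exact (h47_zero_of_nonneg measurableSet_Ioi hf h0 hnn).ge
  · -- no positivity point: `f ≤ 0` on `Ioi b`
    push Not at hP
    exact (h47_zero_of_nonpos measurableSet_Ioi hf h0 hP).ge

end Crest.Agent.S0423
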