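import Mathlib
import Crest.Agent.Lib.S0423.Defs

/-!
S0423, package P2 (helper74): the layer-cake identity
`J N a psi = 1 - ∫ omega * tailN N a`, together with basic facts on `omega`.
-/

namespace Crest.Agent.S0423

open MeasureTheory Set Filter Topology

/-- An antiderivative of `omega` on `Ioi (-(4/3))`. -/
noncomputable def h74_prim (s : ℝ) : ℝ := -((s + 7 / 3) * Real.exp (-(s + 4 / 3)))

/-- The formula for `omega` on `Ioi (-(4/3))`. -/
noncomputable def h74_om (s : ℝ) : ℝ := (s + 4 / 3) * Real.exp (-(s + 4 / 3))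

lemma h74_hasDerivAt_prim (s : ℝ) : HasDerivAt h74_prim (h74_om s) s := by
  unfold h74_prim h74_om
  have h1 : HasDerivAt (fun s : ℝ => s + 7 / 3) 1 s := (hasDerivAt_id s).add_const _
  have h0 : HasDerivAt (fun s : ℝ => -(s + 4 / 3)) (-1) s := ((hasDerivAt_id s).add_const _).neg
  have h2 : HasDerivAt (fun s : ℝ => Real.exp (-(s + 4 / 3))) (Real.exp (-(s + 4 / 3)) * (-1)) s :=
    h0.exp
  have h3 := (h1.mul h2).neg
  have e : (s + 4 / 3) * Real.exp (-(s + 4 / 3))
      = -(1 * Real.exp (-(s + 4 / 3)) + (s + 7 / 3) * (Real.exp (-(s + 4 / 3)) * (-1))) := by ring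
  rw [e]
  exact h3

lemma h74_tendsto_prim : Tendsto h74_prim atTop (𝓝 0) := by
  have hshift : Tendsto (fun s : ℝ => s + 4 / 3) atTop atTop :=
    tendsto_atTop_add_const_right _ _ tendsto_id
  have h1 : Tendsto (fun s : ℝ => (s + 4 / 3) ^ 1 * Real.exp (-(s + 4 / 3))) atTop (𝓝 0) :=
    (Real.tendsto_pow_mul_exp_neg_atTop_nhds_zero 1).comp hshift
  have h2 : Tendsto (fun s : ℝ => Real.exp (-(s + 4 / 3))) atTop (𝓝 0) :=
    Real.tendsto_exp_neg_atTop_nhds_zero.comp hshift
  have h3 : Tendsto (fun s : ℝ => -((s + 4 / 3) ^ 1 * Real.exp (-(s + 4 / 3))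
      + Real.exp (-(s + 4 / 3)))) atTop (𝓝 0) := by
    simpa using (h1.add h2).neg
  refine h3.congr fun s => ?_
  unfold h74_prim
  ring

lemma h74_omega_eq_indicator : omega = (Ioi (-(4 / 3 : ℝ))).indicator h74_om := by
  funext s
  unfold omega h74_om
  by_cases h : -(4 / 3 : ℝ) < s
  · rw [if_pos h, indicator_of_mem (mem_Ioi.mpr h)]
  · rw [if_neg h, indicator_of_notMem (by simpa using h)]

lemma h74_om_nonneg {s : ℝ} (hs : s ∈ Ioi (-(4 / 3 : ℝ))) : 0 ≤ h74_om s := by
  unfold h74_om
  have : 0 ≤ s + 4 / 3 := by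
    have := mem_Ioi.mp hs
    linarith
  exact mul_nonneg this (Real.exp_pos _).le

theorem omega_nonneg (s : ℝ) : 0 ≤ omega s := by
  unfold omega
  split_ifs with h
  · exact mul_nonneg (by linarith) (Real.exp_pos _).le
  · exact le_rfl

lemma h74_integrableOn_om : IntegrableOn h74_om (Ioi (-(4 / 3 : ℝ))) :=
  integrableOn_Ioi_deriv_of_nonneg' (fun x _ => h74_hasDerivAt_prim x)
    (fun _ hx => h74_om_nonneg hx) h74_tendsto_prim

theorem integrable_omega : MeasureTheory.Integrable omega := by
  rw [h74_omega_eq_indicator, integrable_indicator_iff measurableSet_Ioi]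
  exact h74_integrableOn_om

theorem integral_omega : ∫ s, omega s = 1 := by
  rw [h74_omega_eq_indicator, integral_indicator measurableSet_Ioi,
    integral_Ioi_of_hasDerivAt_of_nonneg' (fun x _ => h74_hasDerivAt_prim x)
      (fun _ hx => h74_om_nonneg hx) h74_tendsto_prim]
  unfold h74_prim
  norm_num

lemma h74_measurable_omega : Measurable omega := by
  rw [h74_omega_eq_indicator]
  refine Measurable.indicator ?_ measurableSet_Ioi
  unfold h74_om
  fun_prop

lemma h74_continuous_om : Continuous h74_om := by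
  unfold h74_om
  fun_prop

theorem psi_eq (w : ℝ) : psi w = 1 - ∫ s, omega s * (if s < w then 1 else 0) := by
  by_cases hw : w ≤ -(4 / 3 : ℝ)
  · have h0 : (fun s => omega s * (if s < w then (1 : ℝ) else 0)) = fun _ => 0 := by
      funext s
      unfold omega
      by_cases h1 : -(4 / 3 : ℝ) < s
      · have : ¬ s < w := by
          intro h2
          linarith
        rw [if_neg this, mul_zero]
      · rw [if_neg h1, zero_mul]
    rw [h0, integral_zero, sub_zero]
    unfold psi Crest.AlgGeometry.truncExpWeight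
    rw [if_pos (by linarith)]
  · rw [not_le] at hw
    have h0 : (fun s => omega s * (if s < w then (1 : ℝ) else 0))
        = (Ioo (-(4 / 3 : ℝ)) w).indicator h74_om := by
      funext s
      unfold omega
      by_cases h1 : -(4 / 3 : ℝ) < s
      · by_cases h2 : s < w
        · rw [if_pos h1, if_pos h2, mul_one, indicator_of_mem (mem_Ioo.mpr ⟨h1, h2⟩)]
          rfl
        · rw [if_neg h2, mul_zero, indicator_of_notMem (fun h => h2 h.2)]
      · rw [if_neg h1, zero_mul, indicator_of_notMem (fun h => h1 h.1)]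
    rw [h0, integral_indicator measurableSet_Ioo, ← integral_Ioc_eq_integral_Ioo,
      ← intervalIntegral.integral_of_le hw.le,
      intervalIntegral.integral_eq_sub_of_hasDerivAt (fun x _ => h74_hasDerivAt_prim x)
        (h74_continuous_om.intervalIntegrable _ _)]
    unfold psi Crest.AlgGeometry.truncExpWeight h74_prim
    rw [if_neg (by linarith)]
    have e1 : -(-(4 / 3 : ℝ) + 4 / 3) = 0 := by ring
    have e2 : -(w + 4 / 3) = -(4 / 3 + w) := by ring
    rw [e1, Real.exp_zero, e2]
    ring

/-! ### The orthant measure and the Fubini step -/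

/-- Lebesgue measure restricted to the open orthant `(0,∞)^N`. -/
noncomputable def h74_mu (N : ℕ) : Measure (Fin N → ℝ) :=
  (volume : Measure (Fin N → ℝ)).restrict (Set.pi Set.univ fun _ => Ioi (0 : ℝ))

lemma h74_mu_eq (N : ℕ) :
    h74_mu N = Measure.pi (fun _ : Fin N => (volume : Measure ℝ).restrict (Ioi 0)) := by
  unfold h74_mu
  rw [volume_pi, Measure.restrict_pi_pi]

lemma h74_exp_sum (N : ℕ) (x : Fin N → ℝ) :
    Real.exp (-∑ i, x i) = ∏ i, Real.exp (-(x i)) := by
  rw [← Finset.sum_neg_distrib, Real.exp_sum]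

lemma h74_integrable_exp1 :
    Integrable (fun x : ℝ => Real.exp (-x)) ((volume : Measure ℝ).restrict (Ioi 0)) := by
  have := exp_neg_integrableOn_Ioi 0 one_pos
  simpa [IntegrableOn] using this

lemma h74_integrable_exp (N : ℕ) :
    Integrable (fun x : Fin N → ℝ => Real.exp (-∑ i, x i)) (h74_mu N) := by
  rw [h74_mu_eq]
  simp_rw [h74_exp_sum]
  exact Integrable.fintype_prod (fun _ => h74_integrable_exp1)

lemma h74_integral_exp (N : ℕ) :
    ∫ x, Real.exp (-∑ i, x i) ∂(h74_mu N) = 1 := by
  rw [h74_mu_eq]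
  simp_rw [h74_exp_sum]
  rw [integral_fintype_prod_eq_prod (fun _ x => Real.exp (-x)), Finset.prod_const,
    integral_exp_neg_Ioi_zero, one_pow]

theorem J_psi (N : ℕ) (a : Fin N → ℝ) : J N a psi = 1 - ∫ s, omega s * tailN N a s := by
  have : SFinite (h74_mu N) := by
    unfold h74_mu
    infer_instance
  set w : (Fin N → ℝ) → ℝ := fun x => ∑ i, a i * x i with hw
  set e : (Fin N → ℝ) → ℝ := fun x => Real.exp (-∑ i, x i) with he
  have hwm : Measurable w := by
    rw [hw]
    fun_prop
  have hem : Measurable e := by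
    rw [he]
    fun_prop
  let F : (Fin N → ℝ) → ℝ → ℝ := fun x s => omega s * (if s < w x then 1 else 0) * e x
  have hFm : Measurable (Function.uncurry F) := by
    have h1 : Measurable (fun z : (Fin N → ℝ) × ℝ => omega z.2) :=
      h74_measurable_omega.comp measurable_snd
    have h2 : Measurable (fun z : (Fin N → ℝ) × ℝ => if z.2 < w z.1 then (1 : ℝ) else 0) :=
      Measurable.ite (measurableSet_lt measurable_snd (hwm.comp measurable_fst))
        measurable_const measurable_const
    have h3 : Measurable (fun z : (Fin N → ℝ) × ℝ => e z.1) := hem.comp measurable_fst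
    exact (h1.mul h2).mul h3
  have hFint : Integrable (Function.uncurry F) ((h74_mu N).prod volume) := by
    have hdom : Integrable (fun z : (Fin N → ℝ) × ℝ => e z.1 * omega z.2)
        ((h74_mu N).prod volume) := (h74_integrable_exp N).mul_prod integrable_omega
    refine hdom.mono' hFm.aestronglyMeasurable (Filter.Eventually.of_forall fun z => ?_)
    have h1 : 0 ≤ omega z.2 := omega_nonneg _
    have h2 : 0 ≤ e z.1 := (Real.exp_pos _).le
    show ‖omega z.2 * (if z.2 < w z.1 then 1 else 0) * e z.1‖ ≤ e z.1 * omega z.2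
    split_ifs
    · rw [mul_one, Real.norm_eq_abs, abs_of_nonneg (mul_nonneg h1 h2), mul_comm]
    · rw [mul_zero, zero_mul, norm_zero]
      exact mul_nonneg h2 h1
  have hswap := integral_integral_swap hFint
  have hinner : ∀ x, ∫ s, F x s = (1 - psi (w x)) * e x := by
    intro x
    have h1 : (fun s => F x s) = fun s => (omega s * (if s < w x then 1 else 0)) * e x := rfl
    rw [h1, integral_mul_const, psi_eq (w x)]
    ring
  have houter : ∀ s, ∫ x, F x s ∂(h74_mu N) = omega s * tailN N a s := by
    intro s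
    have h1 : (fun x => F x s) = fun x => omega s * ((if s < w x then 1 else 0) * e x) := by
      funext x
      show omega s * (if s < w x then 1 else 0) * e x = _
      ring
    rw [h1, integral_const_mul]
    rfl
  have hJ : J N a psi = ∫ x, psi (w x) * e x ∂(h74_mu N) := rfl
  have hsplit : ∀ x, psi (w x) * e x = e x - ∫ s, F x s := by
    intro x
    rw [hinner x]
    ring
  have hint2 : Integrable (fun x => ∫ s, F x s) (h74_mu N) := hFint.integral_prod_left
  rw [hJ]
  simp_rw [hsplit]
  rw [integral_sub (h74_integrable_exp N) hint2, h74_integral_exp, hswap]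
  simp_rw [houter]

end Crest.Agent.S0423
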