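import Mathlib
import Crest.Agent.Lib.S0423.Defs
import Crest.Agent.Lib.S0423.Helper74Layer
import Crest.Agent.Lib.S0423.Helper47Crossing
import Crest.Agent.Lib.S0423.Helper43ExpTail

/-!
S0423, package P6: comparison of a 4-point-log-concave tail with a mean-zero exponential tail.
-/

namespace Crest.Agent.S0423

open MeasureTheory Set

/-- Midpoint form of `PF2`. -/
theorem h22_mid {G : ℝ → ℝ} (hpf : PF2 G) {x y : ℝ} (hxy : x ≤ y) :
    G x * G y ≤ G ((x + y) / 2) * G ((x + y) / 2) := by
  have h := hpf x ((x + y) / 2) ((y - x) / 2) (by linarith) (by linarith)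
  have e1 : (x + y) / 2 + (y - x) / 2 = y := by ring
  have e2 : x + (y - x) / 2 = (x + y) / 2 := by ring
  rw [e1, e2] at h
  exact h

/-- Exponential tails are log-affine on `[-t, ∞)`. -/
theorem h22_expTail_mid {t : ℝ} (ht : 0 < t) {x y : ℝ} (hx : -t ≤ x) (hy : -t ≤ y) :
    expTail t x * expTail t y = expTail t ((x + y) / 2) * expTail t ((x + y) / 2) := by
  have hm : -t ≤ (x + y) / 2 := by linarith
  rw [expTail_of_ge ht hx, expTail_of_ge ht hy, expTail_of_ge ht hm, ← Real.exp_add,
    ← Real.exp_add]
  congr 1
  field_simp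
  ring

/-- Key lemma: the set `{x ≥ -t | expTail t x ≤ G x}` is order-convex. -/
theorem h22_convex {G : ℝ → ℝ} (hG : IsTail G) (hpf : PF2 G) {t : ℝ} (ht : 0 < t)
    {u v w : ℝ} (hu : -t ≤ u) (huv : u ≤ v) (hvw : v ≤ w)
    (hGu : expTail t u ≤ G u) (hGw : expTail t w ≤ G w) : expTail t v ≤ G v := by
  obtain ⟨hanti, h0, h1⟩ := hG
  by_contra hcon
  push Not at hcon
  -- an interval to the right of `v` on which `G < expTail t`
  have hopen : ∀ᶠ x in nhds v, G v < expTail t x :=
    (continuous_expTail ht).continuousAt.eventually (lt_mem_nhds hcon)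
  obtain ⟨ε, hε, hball⟩ := Metric.eventually_nhds_iff.mp hopen
  have hbad : ∀ x, v ≤ x → x < v + ε → G x < expTail t x := by
    intro x hx1 hx2
    have h2 : G v < expTail t x := by
      apply hball
      rw [Real.dist_eq, abs_lt]
      constructor <;> linarith
    exact lt_of_le_of_lt (hanti hx1) h2
  -- bisection
  have key : ∀ n : ℕ, ∃ x y : ℝ, -t ≤ x ∧ x ≤ v ∧ v + ε ≤ y ∧ expTail t x ≤ G x ∧
      expTail t y ≤ G y ∧ y - x = (w - u) / 2 ^ n := by
    intro n
    induction n with
    | zero =>
      refine ⟨u, w, hu, huv, ?_, hGu, hGw, by simp⟩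
      by_contra hlt
      push Not at hlt
      exact absurd hGw (not_le.mpr (hbad w hvw hlt))
    | succ n ih =>
      obtain ⟨x, y, hx, hxv, hvy, hQx, hQy, hlen⟩ := ih
      have hxy : x ≤ y := by linarith
      have hmt : -t ≤ (x + y) / 2 := by linarith
      have hQm : expTail t ((x + y) / 2) ≤ G ((x + y) / 2) := by
        have h3 : expTail t x * expTail t y ≤ G x * G y :=
          mul_le_mul hQx hQy (expTail_pos t y).le (h0 x)
        have h4 := h22_mid hpf hxy
        have h5 := h22_expTail_mid ht hx (le_trans hx hxy)
        rw [h5] at h3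
        exact (mul_self_le_mul_self_iff (expTail_pos t _).le (h0 _)).mpr (le_trans h3 h4)
      have hlen' : (w - u) / 2 ^ (n + 1) = (y - x) / 2 := by
        rw [hlen, pow_succ]
        field_simp
      by_cases hm : (x + y) / 2 < v
      · exact ⟨(x + y) / 2, y, hmt, hm.le, hvy, hQm, hQy, by rw [hlen']; ring⟩
      · push Not at hm
        have hm2 : v + ε ≤ (x + y) / 2 := by
          by_contra hlt
          push Not at hlt
          exact absurd hQm (not_le.mpr (hbad _ hm hlt))
        exact ⟨x, (x + y) / 2, hx, hxv, hm2, hQx, hQm, by rw [hlen']; ring⟩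
  -- contradiction for large n
  obtain ⟨n, hn⟩ := pow_unbounded_of_one_lt ((w - u) / ε) (by norm_num : (1 : ℝ) < 2)
  obtain ⟨x, y, hx, hxv, hvy, hQx, hQy, hlen⟩ := key n
  have h2pos : (0 : ℝ) < 2 ^ n := by positivity
  have h6 : (w - u) / 2 ^ n < ε := by
    rw [div_lt_iff₀ h2pos]
    rw [div_lt_iff₀ hε] at hn
    linarith
  linarith

/-- On `Iic (-t)` the exponential tail is `1`, hence dominates. -/
theorem h22_delta_le {G : ℝ → ℝ} (hG : IsTail G) {t : ℝ} (ht : 0 < t) {s : ℝ} (hs : s ≤ -t) :
    G s - expTail t s ≤ 0 := by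
  rw [expTail_of_le ht hs]
  linarith [hG.2.2 s]

/-- **Comparison theorem.** A 4-point-log-concave tail of a mean-zero law that charges
`(-∞, -1/3)` is, against the kernel `omega`, at least as large as the tail of `t (X - 1)` for a
suitable `t > 1/3`. -/
theorem compare_expTail {G : ℝ → ℝ} (hG : IsTail G) (hpf : PF2 G)
    (hint : MeasureTheory.Integrable (fun s => G s - tail0 s))
    (hmean : ∫ s, (G s - tail0 s) = 0) (hlt : ∃ s, s < -(1/3) ∧ G s < 1) :
    ∃ t : ℝ, 1/3 < t ∧ ∫ s, omega s * expTail t s ≤ ∫ s, omega s * G s := by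
  have hanti := hG.1
  have h0 := hG.2.1
  have h1 := hG.2.2
  set b : ℝ := -(1/3) with hb
  have hGmeas : Measurable G := hanti.measurable
  -- Step 1: the left put value `A`
  have hint1 : IntegrableOn (fun s => 1 - G s) (Iic b) := by
    have h' : IntegrableOn (fun s => -(G s - tail0 s)) (Iic b) := hint.integrableOn.neg
    refine h'.congr_fun ?_ measurableSet_Iic
    intro s hs
    have hs0 : s < 0 := lt_of_le_of_lt hs (by norm_num [hb])
    simp [tail0, hs0]
  set A : ℝ := ∫ s in Iic b, (1 - G s) with hA
  have hApos : 0 < A := by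
    obtain ⟨s1, hs1, hGs1⟩ := hlt
    have h2 : (1 - G s1) * (volume.real (Icc s1 b)) ≤ ∫ s in Icc s1 b, (1 - G s) := by
      apply setIntegral_ge_of_const_le_real measurableSet_Icc (by simp)
      · intro x hx
        linarith [hanti hx.1]
      · exact hint1.mono_set Icc_subset_Iic_self
    have h3 : ∫ s in Icc s1 b, (1 - G s) ≤ A := by
      apply setIntegral_mono_set hint1
      · exact Filter.Eventually.of_forall (fun s => by simp only [Pi.zero_apply]; linarith [h1 s])
      · exact Filter.Eventually.of_forall (fun s hs => Icc_subset_Iic_self hs)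
    have h4 : volume.real (Icc s1 b) = b - s1 := by
      rw [Measure.real, Real.volume_Icc, ENNReal.toReal_ofReal (by linarith)]
    have h5 : 0 < (1 - G s1) * (b - s1) := mul_pos (by linarith) (by linarith)
    rw [h4] at h2
    linarith
  -- Step 2: choice of `t` by the intermediate value theorem
  set k : ℝ → ℝ := fun t => b + t * Real.exp (-(b + t) / t) with hk
  set T : ℝ := Real.exp 1 * (A + 1/3) with hT
  have he1 : (1 : ℝ) ≤ Real.exp 1 := Real.one_le_exp (by norm_num)
  have hT13 : (1/3 : ℝ) ≤ T := by
    have : (1 : ℝ) * (A + 1/3) ≤ Real.exp 1 * (A + 1/3) :=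
      mul_le_mul_of_nonneg_right he1 (by linarith)
    rw [hT]; linarith
  have hkcont : ContinuousOn k (Icc (1/3) T) := by
    apply ContinuousOn.add continuousOn_const
    apply ContinuousOn.mul continuousOn_id
    apply ContinuousOn.rexp
    apply ContinuousOn.div (by fun_prop) continuousOn_id
    intro x hx
    have := hx.1
    simp only [id]
    linarith
  have hk13 : k (1/3) = 0 := by
    simp only [hk, hb]
    norm_num
  have hkT : A ≤ k T := by
    have hTpos : 0 < T := by linarith
    have hexp : Real.exp (-1) ≤ Real.exp (-(b + T) / T) := by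
      apply Real.exp_le_exp.mpr
      rw [le_div_iff₀ hTpos]
      simp only [hb]
      linarith
    have h6 : T * Real.exp (-1) ≤ T * Real.exp (-(b + T) / T) :=
      mul_le_mul_of_nonneg_left hexp hTpos.le
    have h7 : T * Real.exp (-1) = A + 1/3 := by
      rw [hT, mul_comm, ← mul_assoc, ← Real.exp_add]
      simp
    simp only [hk, hb] at h6 ⊢
    linarith
  obtain ⟨t, ⟨ht1, ht2⟩, hkt⟩ := intermediate_value_Icc hT13 hkcont
    (show A ∈ Icc (k (1/3)) (k T) from ⟨by rw [hk13]; exact hApos.le, hkT⟩)
  have ht13 : 1/3 < t := by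
    rcases eq_or_lt_of_le ht1 with h | h
    · rw [← h, hk13] at hkt
      linarith
    · exact h
  have htpos : 0 < t := by linarith
  -- Step 3: the difference `Δ`
  obtain ⟨hEint, hEval⟩ := expTail_integral_Iic htpos (b := b) (by rw [hb]; linarith)
  obtain ⟨hEmI, hEm0⟩ := expTail_mean htpos
  set Δ : ℝ → ℝ := fun s => G s - expTail t s with hΔ
  have hΔint : Integrable Δ := by
    have h := hint.sub hEmI
    refine h.congr (Filter.Eventually.of_forall fun s => ?_)
    simp only [hΔ, Pi.sub_apply]
    ring
  have hΔL : ∫ s in Iic b, Δ s = 0 := by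
    have h : ∀ s, Δ s = (1 - expTail t s) - (1 - G s) := fun s => by simp only [hΔ]; ring
    simp_rw [h]
    rw [integral_sub hEint hint1, hEval, ← hA]
    have : k t = b + t * Real.exp (-(b + t) / t) := rfl
    linarith
  have hΔ0 : ∫ s, Δ s = 0 := by
    have h : ∀ s, Δ s = (G s - tail0 s) - (expTail t s - tail0 s) := fun s => by
      simp only [hΔ]; ring
    simp_rw [h]
    rw [integral_sub hint hEmI, hmean, hEm0]
    simp
  have hΔR : ∫ s in Ioi b, Δ s = 0 := by
    have h := integral_add_compl (measurableSet_Iic (a := b)) hΔint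
    rw [compl_Iic] at h
    linarith
  -- Step 4: sign pattern on the left of `b`
  have hL : ∀ u v, u < v → v ≤ b → 0 < Δ u → 0 ≤ Δ v := by
    intro u v huv hvb hu
    by_contra hv
    push Not at hv
    have hut : -t < u := by
      by_contra hcon
      push Not at hcon
      have h := h22_delta_le hG htpos hcon
      simp only [hΔ] at hu
      linarith
    have hneg : ∀ w, v ≤ w → Δ w < 0 := by
      intro w hw
      by_contra hw'
      push Not at hw'
      have h := h22_convex hG hpf htpos hut.le huv.le hw
        (by simp only [hΔ] at hu; linarith) (by simp only [hΔ] at hw'; linarith)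
      simp only [hΔ] at hv
      linarith
    have hpos : 0 < ∫ s in Ioi b, (-Δ s) := by
      rw [setIntegral_pos_iff_support_of_nonneg_ae]
      · have hsub : Ioi b ⊆ Function.support (fun s => -Δ s) ∩ Ioi b := by
          intro w hw
          refine ⟨?_, hw⟩
          have h := hneg w (le_trans hvb (le_of_lt hw))
          rw [Function.mem_support]
          linarith
        exact lt_of_lt_of_le (by simp) (measure_mono hsub)
      · refine (ae_restrict_iff' measurableSet_Ioi).mpr (Filter.Eventually.of_forall fun w hw => ?_)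
        have h := hneg w (le_trans hvb (le_of_lt hw))
        simp only [Pi.zero_apply]
        linarith
      · exact hΔint.integrableOn.neg
    rw [integral_neg, hΔR] at hpos
    simp at hpos
  -- Step 5: sign pattern on the right of `b`
  have hR : ∀ u v, b ≤ u → u < v → 0 < Δ v → 0 ≤ Δ u := by
    intro u v hbu huv hv
    by_contra hu
    push Not at hu
    have hbt : -t < b := by rw [hb]; linarith
    have hneg : ∀ w, -t ≤ w → w ≤ u → Δ w < 0 := by
      intro w hwt hwu
      by_contra hw'
      push Not at hw'
      have h := h22_convex hG hpf htpos hwt hwu huv.le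
        (by simp only [hΔ] at hw'; linarith) (by simp only [hΔ] at hv; linarith)
      simp only [hΔ] at hu
      linarith
    have hnonpos : ∀ w, w ≤ b → Δ w ≤ 0 := by
      intro w hw
      rcases le_total w (-t) with h | h
      · exact h22_delta_le hG htpos h
      · exact (hneg w h (le_trans hw hbu)).le
    have hpos : 0 < ∫ s in Iic b, (-Δ s) := by
      rw [setIntegral_pos_iff_support_of_nonneg_ae]
      · have hsub : Icc (-t) b ⊆ Function.support (fun s => -Δ s) ∩ Iic b := by
          intro w hw
          refine ⟨?_, hw.2⟩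
          have h := hneg w hw.1 (le_trans hw.2 hbu)
          rw [Function.mem_support]
          linarith
        refine lt_of_lt_of_le ?_ (measure_mono hsub)
        rw [Real.volume_Icc]
        simp only [ENNReal.ofReal_pos]
        linarith
      · refine (ae_restrict_iff' measurableSet_Iic).mpr (Filter.Eventually.of_forall fun w hw => ?_)
        have h := hnonpos w hw
        simp only [Pi.zero_apply]
        linarith
      · exact hΔint.integrableOn.neg
    rw [integral_neg, hΔL] at hpos
    simp at hpos
  -- Step 6: conclusion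
  refine ⟨t, ht13, ?_⟩
  have hωG : Integrable (fun s => omega s * G s) :=
    integrable_omega.mul_bdd (c := 1) hGmeas.aestronglyMeasurable
      (Filter.Eventually.of_forall fun s => by
        rw [Real.norm_eq_abs, abs_le]
        constructor <;> linarith [h0 s, h1 s])
  have hωE : Integrable (fun s => omega s * expTail t s) :=
    integrable_omega.mul_bdd (c := 1) (continuous_expTail htpos).aestronglyMeasurable
      (Filter.Eventually.of_forall fun s => by
        rw [Real.norm_eq_abs, abs_le]
        constructor <;> linarith [expTail_pos t s, (isTail_expTail htpos).2.2 s])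
  have hωΔ : Integrable (fun s => omega s * Δ s) := by
    have h := hωG.sub hωE
    refine h.congr (Filter.Eventually.of_forall fun s => ?_)
    simp only [hΔ, Pi.sub_apply]
    ring
  have hsplit : ∫ s, omega s * Δ s
      = (∫ s in Iic b, omega s * Δ s) + ∫ s in Ioi b, omega s * Δ s := by
    have h := integral_add_compl (measurableSet_Iic (a := b)) hωΔ
    rw [compl_Iic] at h
    linarith
  have hleft := crossing_left (f := Δ) (w := omega) (b := b) omega_monotoneOn
    hΔint.integrableOn hωΔ.integrableOn hΔL hL
  have hright := crossing_right (f := Δ) (w := omega) (b := b) omega_antitoneOn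
    hΔint.integrableOn hωΔ.integrableOn hΔR hR
  have hdiff : ∫ s, omega s * Δ s
      = (∫ s, omega s * G s) - ∫ s, omega s * expTail t s := by
    rw [← integral_sub hωG hωE]
    congr 1
    ext s
    simp only [hΔ]
    ring
  linarith

end Crest.Agent.S0423
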