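import Mathlib
import Crest.Agent.Lib.S0423.Defs

/-!
S0423, package P3 (helper2): basic facts on `tailStep` (`IsTail` is preserved, strictness),
plus reusable auxiliary lemmas (`h2_*`): integrability of the `tailStep` integrand, reflection
symmetry, and the change of variables
`tailStep a S s = a⁻¹ * exp (-s / a) * ∫ z in Iic s, S z * exp (z / a)` for `a > 0`.
-/

set_option autoImplicit false

namespace Crest.Agent.S0423

open MeasureTheory Set

theorem h2_tailStep_apply (a : ℝ) (S : ℝ → ℝ) (s : ℝ) :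
    tailStep a S s = ∫ y in Ioi (0:ℝ), S (s - a * y) * Real.exp (-y) := rfl

/-- integrability of the integrand of `tailStep` for a measurable `S` with values in `[0,1]`. -/
theorem h2_tailStep_integrable' {S : ℝ → ℝ} (hS : Measurable S) (h0 : ∀ s, 0 ≤ S s)
    (h1 : ∀ s, S s ≤ 1) (a s : ℝ) :
    IntegrableOn (fun y => S (s - a * y) * Real.exp (-y)) (Ioi (0:ℝ)) := by
  refine Integrable.mono' (integrableOn_exp_neg_Ioi 0) ?_ ?_
  · have : Measurable (fun y : ℝ => S (s - a * y) * Real.exp (-y)) :=
      (hS.comp (by fun_prop)).mul (by fun_prop)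
    exact this.aestronglyMeasurable
  · refine Filter.Eventually.of_forall (fun y => ?_)
    have hy : 0 < Real.exp (-y) := Real.exp_pos _
    rw [Real.norm_eq_abs, abs_mul, abs_of_pos hy, abs_of_nonneg (h0 _)]
    exact mul_le_of_le_one_left hy.le (h1 _)

theorem h2_isTail_measurable {S : ℝ → ℝ} (hS : IsTail S) : Measurable S := hS.1.measurable

/-- integrability of the integrand of `tailStep` for a tail function. -/
theorem h2_tailStep_integrable {S : ℝ → ℝ} (hS : IsTail S) (a s : ℝ) :
    IntegrableOn (fun y => S (s - a * y) * Real.exp (-y)) (Ioi (0:ℝ)) :=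
  h2_tailStep_integrable' hS.1.measurable hS.2.1 hS.2.2 a s

theorem h2_tailStep_zero (S : ℝ → ℝ) : tailStep 0 S = S := by
  funext s
  simp only [tailStep, zero_mul, sub_zero]
  rw [integral_const_mul, integral_exp_neg_Ioi_zero, mul_one]

/-- reflection symmetry of `tailStep`. -/
theorem h2_tailStep_neg (a : ℝ) (S : ℝ → ℝ) (s : ℝ) :
    tailStep a S s = tailStep (-a) (fun u => S (-u)) (-s) := by
  simp only [tailStep]
  congr 1
  funext y
  congr 2
  ring

/-- the kernel `z ↦ S z * exp (z / a)` is integrable on left half-lines when `a > 0`. -/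
theorem h2_kernel_integrableOn_Iic {S : ℝ → ℝ} (hS : Measurable S) (h0 : ∀ s, 0 ≤ S s)
    (h1 : ∀ s, S s ≤ 1) {a : ℝ} (ha : 0 < a) (c : ℝ) :
    IntegrableOn (fun z => S z * Real.exp (z / a)) (Iic c) := by
  have hexp : IntegrableOn (fun z : ℝ => Real.exp (a⁻¹ * z)) (Iic c) :=
    integrableOn_exp_mul_Iic (inv_pos.mpr ha) c
  refine Integrable.mono' hexp ?_ ?_
  · have : Measurable (fun z : ℝ => S z * Real.exp (z / a)) := hS.mul (by fun_prop)
    exact this.aestronglyMeasurable
  · refine Filter.Eventually.of_forall (fun z => ?_)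
    have hz : 0 < Real.exp (z / a) := Real.exp_pos _
    rw [Real.norm_eq_abs, abs_mul, abs_of_pos hz, abs_of_nonneg (h0 _)]
    have : a⁻¹ * z = z / a := by ring
    rw [this]
    exact mul_le_of_le_one_left hz.le (h1 _)

/-- closed form of `tailStep` for `a > 0` as a left half-line integral (no hypothesis on `S`). -/
theorem h2_tailStep_eq_of_pos {S : ℝ → ℝ} {a : ℝ} (ha : 0 < a) (s : ℝ) :
    tailStep a S s = a⁻¹ * Real.exp (-s / a) * ∫ z in Iic s, S z * Real.exp (z / a) := by
  have hane : a ≠ 0 := ha.ne'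
  set K : ℝ → ℝ := fun z => (Iio s).indicator (fun z => S z * Real.exp (-(s - z) / a)) z with hK
  have h1 : tailStep a S s = ∫ y, K (s - a * y) := by
    rw [h2_tailStep_apply, ← integral_indicator measurableSet_Ioi]
    congr 1
    funext y
    by_cases hy : 0 < y
    · have hmem : s - a * y ∈ Iio s := by
        simp only [mem_Iio]; nlinarith
      simp only [hK, indicator_of_mem hmem, indicator_of_mem (mem_Ioi.mpr hy)]
      congr 2
      field_simp
      ring
    · have hnmem : s - a * y ∉ Iio s := by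
        simp only [mem_Iio, not_lt]; nlinarith [not_lt.mp hy]
      have hy' : y ∉ Ioi (0:ℝ) := by simpa using hy
      simp only [hK, indicator_of_notMem hnmem, indicator_of_notMem hy']
  have h2 : ∫ y, K (s - a * y) = a⁻¹ * ∫ z, K z := by
    have := Measure.integral_comp_mul_left (fun u => K (s - u)) a
    simp only [smul_eq_mul] at this
    rw [this, integral_sub_left_eq_self K volume s, abs_of_pos (inv_pos.mpr ha)]
  have h3 : ∫ z, K z = Real.exp (-s / a) * ∫ z in Iic s, S z * Real.exp (z / a) := by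
    rw [hK, integral_indicator measurableSet_Iio, integral_Iic_eq_integral_Iio,
      ← integral_const_mul]
    congr 1
    funext z
    have : -(s - z) / a = -s / a + z / a := by ring
    rw [this, Real.exp_add]
    ring
  rw [h1, h2, h3]
  ring

theorem h2_tailStep_nonneg {S : ℝ → ℝ} (h0 : ∀ s, 0 ≤ S s) (a s : ℝ) : 0 ≤ tailStep a S s := by
  apply setIntegral_nonneg measurableSet_Ioi
  intro y _
  exact mul_nonneg (h0 _) (Real.exp_pos _).le

/-- `1 - tailStep a S s` as an integral. -/
theorem h2_one_sub_tailStep {S : ℝ → ℝ} (hS : IsTail S) (a s : ℝ) :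
    1 - tailStep a S s = ∫ y in Ioi (0:ℝ), (1 - S (s - a * y)) * Real.exp (-y) := by
  have h : ∀ y : ℝ, (1 - S (s - a * y)) * Real.exp (-y) =
      Real.exp (-y) - S (s - a * y) * Real.exp (-y) := fun y => by ring
  simp only [h]
  rw [integral_sub (integrableOn_exp_neg_Ioi 0) (h2_tailStep_integrable hS a s),
    integral_exp_neg_Ioi_zero]
  rfl

theorem h2_tailStep_le_one {S : ℝ → ℝ} (hS : IsTail S) (a s : ℝ) : tailStep a S s ≤ 1 := by
  have h := h2_one_sub_tailStep hS a s
  have hnn : 0 ≤ ∫ y in Ioi (0:ℝ), (1 - S (s - a * y)) * Real.exp (-y) := by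
    apply setIntegral_nonneg measurableSet_Ioi
    intro y _
    exact mul_nonneg (by linarith [hS.2.2 (s - a * y)]) (Real.exp_pos _).le
  linarith

theorem h2_tailStep_antitone {S : ℝ → ℝ} (hS : IsTail S) (a : ℝ) : Antitone (tailStep a S) := by
  intro s s' hss
  simp only [tailStep]
  apply setIntegral_mono_on (h2_tailStep_integrable hS a s') (h2_tailStep_integrable hS a s)
    measurableSet_Ioi
  intro y _
  exact mul_le_mul_of_nonneg_right (hS.1 (by linarith)) (Real.exp_pos _).le

/-- strictness criterion: if `S (s - a y) < 1` on a set of positive measure of `y > 0`,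
then `tailStep a S s < 1`. -/
theorem h2_tailStep_lt_one_of_set {S : ℝ → ℝ} (hS : IsTail S) (a s : ℝ) {A : Set ℝ}
    (hA : A ⊆ Ioi (0:ℝ)) (hAm : 0 < volume A) (hlt : ∀ y ∈ A, S (s - a * y) < 1) :
    tailStep a S s < 1 := by
  have h := h2_one_sub_tailStep hS a s
  have hint : IntegrableOn (fun y => (1 - S (s - a * y)) * Real.exp (-y)) (Ioi (0:ℝ)) := by
    have h' : (fun y : ℝ => (1 - S (s - a * y)) * Real.exp (-y)) =
        fun y => Real.exp (-y) - S (s - a * y) * Real.exp (-y) := by
      funext y; ring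
    rw [h']
    exact (integrableOn_exp_neg_Ioi 0).sub (h2_tailStep_integrable hS a s)
  have hpos : 0 < ∫ y in Ioi (0:ℝ), (1 - S (s - a * y)) * Real.exp (-y) := by
    rw [integral_pos_iff_support_of_nonneg_ae
      (Filter.Eventually.of_forall fun y =>
        mul_nonneg (by linarith [hS.2.2 (s - a * y)]) (Real.exp_pos _).le) hint]
    have hsub : A ⊆ Function.support (fun y => (1 - S (s - a * y)) * Real.exp (-y)) := by
      intro y hy
      simp only [Function.mem_support]
      exact (mul_pos (by linarith [hlt y hy]) (Real.exp_pos _)).ne'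
    have hle : volume A ≤ (volume.restrict (Ioi (0:ℝ)))
        (Function.support (fun y => (1 - S (s - a * y)) * Real.exp (-y))) := by
      have h1 : volume A = (volume.restrict (Ioi (0:ℝ))) A := by
        rw [Measure.restrict_eq_self _ hA]
      rw [h1]
      exact measure_mono hsub
    exact lt_of_lt_of_le hAm hle
  linarith

/-! ### Interface theorems of package P3 -/

theorem isTail_tail0 : IsTail tail0 := by
  refine ⟨?_, ?_, ?_⟩
  · intro s s' hss
    simp only [tail0]
    split_ifs with h1 h2 h2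
    · exact le_rfl
    · exact absurd (lt_of_le_of_lt hss h1) h2
    · exact zero_le_one
    · exact le_rfl
  · intro s
    simp only [tail0]
    split_ifs <;> norm_num
  · intro s
    simp only [tail0]
    split_ifs <;> norm_num

theorem isTail_tailStep (a : ℝ) {S : ℝ → ℝ} (hS : IsTail S) : IsTail (tailStep a S) :=
  ⟨h2_tailStep_antitone hS a, h2_tailStep_nonneg hS.2.1 a, h2_tailStep_le_one hS a⟩

theorem tail0_exists_lt_one : ∃ s, tail0 s < 1 := ⟨0, by simp [tail0]⟩

theorem tailStep_exists_lt_one (a : ℝ) {S : ℝ → ℝ} (hS : IsTail S) (h : ∃ s, S s < 1) :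
    ∃ s, tailStep a S s < 1 := by
  obtain ⟨s₁, hs₁⟩ := h
  refine ⟨s₁ + |a|, h2_tailStep_lt_one_of_set hS a (s₁ + |a|) (A := Ioc 0 1)
    (fun y hy => hy.1) (by simp) ?_⟩
  intro y hy
  have hy0 : 0 < y := hy.1
  have hy1 : y ≤ 1 := hy.2
  have hay : a * y ≤ |a| := by
    calc a * y ≤ |a| * y := mul_le_mul_of_nonneg_right (le_abs_self a) hy0.le
      _ ≤ |a| * 1 := mul_le_mul_of_nonneg_left hy1 (abs_nonneg a)
      _ = |a| := mul_one _
  exact lt_of_le_of_lt (hS.1 (by linarith)) hs₁

theorem tailStep_lt_one_of_neg {a : ℝ} (ha : a < 0) {S : ℝ → ℝ} (hS : IsTail S)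
    (h : ∃ s, S s < 1) : ∀ s, tailStep a S s < 1 := by
  obtain ⟨s₁, hs₁⟩ := h
  intro s
  refine h2_tailStep_lt_one_of_set hS a s (A := Ioi (max 0 ((s - s₁) / a)))
    (fun y hy => mem_Ioi.mpr (lt_of_le_of_lt (le_max_left _ _) (mem_Ioi.mp hy))) (by simp) ?_
  intro y hy
  have hy1 : (s - s₁) / a < y := lt_of_le_of_lt (le_max_right _ _) (mem_Ioi.mp hy)
  have h2 : a * y < s - s₁ := by
    have := (div_lt_iff_of_neg ha).mp hy1
    linarith
  exact lt_of_le_of_lt (hS.1 (by linarith)) hs₁

theorem tailStep_lt_one (a : ℝ) {S : ℝ → ℝ} (hS : IsTail S) (h : ∀ s, S s < 1) :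
    ∀ s, tailStep a S s < 1 := by
  intro s
  exact h2_tailStep_lt_one_of_set hS a s (A := Ioi 0) (fun y hy => hy) (by simp)
    (fun y _ => h _)

end Crest.Agent.S0423
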