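import Mathlib
import Crest.Agent.Lib.S0423.Defs
import Crest.Agent.Lib.S0423.Helper2Step

/-!
S0423, package P4 (helper2): the mean step.  If `S - tail0` is integrable with integral `m`
(i.e. the law with tail `S` has mean `m`), then `tailStep a S - tail0` is integrable with
integral `m + a`.
-/

set_option autoImplicit false

namespace Crest.Agent.S0423

open MeasureTheory Set

/-- For `c ≥ 0`, `tail0 (s - c) - tail0 s` is the indicator of `[0, c)`. -/
theorem h2_tail0_shift_nonneg {c : ℝ} (hc : 0 ≤ c) :
    (fun s => tail0 (s - c) - tail0 s) = (Ico 0 c).indicator (fun _ => (1:ℝ)) := by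
  funext s
  rcases lt_or_ge s 0 with h | h
  · have h1 : s - c < 0 := by linarith
    have h2 : s ∉ Ico 0 c := fun hs => absurd hs.1 (not_le.mpr h)
    simp only [tail0, if_pos h1, if_pos h, indicator_of_notMem h2, sub_self]
  · rcases lt_or_ge s c with h' | h'
    · have h1 : s - c < 0 := by linarith
      have h2 : s ∈ Ico 0 c := ⟨h, h'⟩
      simp only [tail0, if_pos h1, if_neg (not_lt.mpr h), indicator_of_mem h2, sub_zero]
    · have h1 : ¬ (s - c < 0) := by linarith
      have h2 : s ∉ Ico 0 c := fun hs => absurd hs.2 (not_lt.mpr h')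
      simp only [tail0, if_neg h1, if_neg (not_lt.mpr h), indicator_of_notMem h2, sub_self]

/-- For `c ≤ 0`, `tail0 (s - c) - tail0 s` is minus the indicator of `[c, 0)`. -/
theorem h2_tail0_shift_nonpos {c : ℝ} (hc : c ≤ 0) :
    (fun s => tail0 (s - c) - tail0 s) = fun s => -(Ico c 0).indicator (fun _ => (1:ℝ)) s := by
  funext s
  rcases lt_or_ge s c with h | h
  · have h1 : s - c < 0 := by linarith
    have h0 : s < 0 := by linarith
    have h2 : s ∉ Ico c 0 := fun hs => absurd hs.1 (not_le.mpr h)
    simp only [tail0, if_pos h1, if_pos h0, indicator_of_notMem h2, sub_self, neg_zero]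
  · rcases lt_or_ge s 0 with h' | h'
    · have h1 : ¬ (s - c < 0) := by linarith
      have h2 : s ∈ Ico c 0 := ⟨h, h'⟩
      simp only [tail0, if_neg h1, if_pos h', indicator_of_mem h2, zero_sub]
    · have h1 : ¬ (s - c < 0) := by linarith
      have h2 : s ∉ Ico c 0 := fun hs => absurd hs.2 (not_lt.mpr h')
      simp only [tail0, if_neg h1, if_neg (not_lt.mpr h'), indicator_of_notMem h2, sub_self,
        neg_zero]

theorem h2_integrable_indicator_Ico (p q : ℝ) :
    Integrable ((Ico p q).indicator (fun _ => (1:ℝ))) := by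
  rw [integrable_indicator_iff measurableSet_Ico]
  exact integrableOn_const (by simp [Real.volume_Ico])

theorem h2_integral_indicator_Ico {p q : ℝ} (hpq : p ≤ q) :
    ∫ s, (Ico p q).indicator (fun _ => (1:ℝ)) s = q - p := by
  rw [integral_indicator_const (1:ℝ) measurableSet_Ico]
  simp [Measure.real, Real.volume_Ico, hpq]

/-- the shifted difference of `tail0` is integrable. -/
theorem h2_tail0_shift_integrable (c : ℝ) : Integrable (fun s => tail0 (s - c) - tail0 s) := by
  rcases le_total 0 c with hc | hc
  · rw [h2_tail0_shift_nonneg hc]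
    exact h2_integrable_indicator_Ico 0 c
  · rw [h2_tail0_shift_nonpos hc]
    exact (h2_integrable_indicator_Ico c 0).neg

/-- the shifted difference of `tail0` has integral `c`. -/
theorem h2_tail0_shift_integral (c : ℝ) : ∫ s, (tail0 (s - c) - tail0 s) = c := by
  rcases le_total 0 c with hc | hc
  · rw [h2_tail0_shift_nonneg hc, h2_integral_indicator_Ico hc, sub_zero]
  · rw [h2_tail0_shift_nonpos hc, integral_neg, h2_integral_indicator_Ico hc]
    ring

/-- the shifted difference of `tail0` has `L¹` norm `|c|`. -/
theorem h2_tail0_shift_norm (c : ℝ) : ∫ s, ‖tail0 (s - c) - tail0 s‖ = |c| := by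
  rcases le_total 0 c with hc | hc
  · have h := congrFun (h2_tail0_shift_nonneg hc)
    simp only [h]
    have h2 : (fun s => ‖(Ico 0 c).indicator (fun _ => (1:ℝ)) s‖) =
        (Ico 0 c).indicator (fun _ => (1:ℝ)) := by
      funext s
      by_cases hs : s ∈ Ico 0 c
      · simp [indicator_of_mem hs]
      · simp [indicator_of_notMem hs]
    rw [h2, h2_integral_indicator_Ico hc, sub_zero, abs_of_nonneg hc]
  · have h := congrFun (h2_tail0_shift_nonpos hc)
    simp only [h]
    have h2 : (fun s => ‖-(Ico c 0).indicator (fun _ => (1:ℝ)) s‖) =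
        (Ico c 0).indicator (fun _ => (1:ℝ)) := by
      funext s
      by_cases hs : s ∈ Ico c 0
      · simp [indicator_of_mem hs]
      · simp [indicator_of_notMem hs]
    rw [h2, h2_integral_indicator_Ico hc, abs_of_nonpos hc]
    ring

theorem h2_integrableOn_id_mul_exp_neg :
    IntegrableOn (fun y : ℝ => y * Real.exp (-y)) (Ioi 0) := by
  have h := Real.GammaIntegral_convergent (s := 2) (by norm_num)
  refine h.congr_fun (fun y _ => ?_) measurableSet_Ioi
  have : (2:ℝ) - 1 = 1 := by norm_num
  simp only [this, Real.rpow_one]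
  ring

theorem h2_integral_id_mul_exp_neg : ∫ y in Ioi (0:ℝ), y * Real.exp (-y) = 1 := by
  have h := Real.Gamma_eq_integral (s := 2) (by norm_num)
  rw [Real.Gamma_two] at h
  rw [h]
  refine setIntegral_congr_fun measurableSet_Ioi (fun y _ => ?_)
  have : (2:ℝ) - 1 = 1 := by norm_num
  simp only [this, Real.rpow_one]
  ring

/-- **Package P4**: the mean step for `tailStep`. -/
theorem tailStep_mean (a : ℝ) {S : ℝ → ℝ} (hS : IsTail S)
    (hint : MeasureTheory.Integrable (fun s => S s - tail0 s)) :
    MeasureTheory.Integrable (fun s => tailStep a S s - tail0 s) ∧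
      ∫ s, (tailStep a S s - tail0 s) = (∫ s, (S s - tail0 s)) + a := by
  set ν : Measure ℝ := volume.restrict (Ioi (0:ℝ)) with hν
  set D : ℝ → ℝ := fun s => S s - tail0 s with hD
  have hSm : Measurable S := hS.1.measurable
  have hT0m : Measurable tail0 := isTail_tail0.1.measurable
  have hDm : Measurable D := hSm.sub hT0m
  -- the two pieces on the product space, variables `(y, s)`
  set F₁ : ℝ × ℝ → ℝ := fun p => D (p.2 - a * p.1) * Real.exp (-p.1) with hF₁
  set F₂ : ℝ × ℝ → ℝ := fun p => (tail0 (p.2 - a * p.1) - tail0 p.2) * Real.exp (-p.1) with hF₂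
  have hF₁m : Measurable F₁ := (hDm.comp (by fun_prop)).mul (by fun_prop)
  have hF₂m : Measurable F₂ :=
    ((hT0m.comp (by fun_prop)).sub (hT0m.comp measurable_snd)).mul (by fun_prop)
  have hexpν : Integrable (fun y : ℝ => Real.exp (-y)) ν := integrableOn_exp_neg_Ioi 0
  -- integrability of F₁
  have hF₁i : Integrable F₁ (ν.prod volume) := by
    rw [integrable_prod_iff hF₁m.aestronglyMeasurable]
    refine ⟨Filter.Eventually.of_forall fun y => ?_, ?_⟩
    · show Integrable (fun s => D (s - a * y) * Real.exp (-y)) volume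
      exact (hint.comp_sub_right (a * y)).mul_const _
    · have h : (fun y => ∫ s, ‖F₁ (y, s)‖) = fun y => (∫ s, ‖D s‖) * Real.exp (-y) := by
        funext y
        simp only [hF₁, norm_mul, Real.norm_eq_abs, abs_of_pos (Real.exp_pos _)]
        rw [integral_mul_const]
        congr 1
        exact integral_sub_right_eq_self (fun s => |D s|) (a * y)
      rw [h]
      exact hexpν.const_mul _
  -- integrability of F₂
  have hF₂i : Integrable F₂ (ν.prod volume) := by
    rw [integrable_prod_iff hF₂m.aestronglyMeasurable]
    refine ⟨Filter.Eventually.of_forall fun y => ?_, ?_⟩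
    · show Integrable (fun s => (tail0 (s - a * y) - tail0 s) * Real.exp (-y)) volume
      exact (h2_tail0_shift_integrable (a * y)).mul_const _
    · have h : (fun y => ∫ s, ‖F₂ (y, s)‖) = fun y => |a * y| * Real.exp (-y) := by
        funext y
        simp only [hF₂, norm_mul, Real.norm_eq_abs (Real.exp (-y)), abs_of_pos (Real.exp_pos _)]
        rw [integral_mul_const, h2_tail0_shift_norm]
      rw [h]
      have h2 : (fun y : ℝ => |a * y| * Real.exp (-y)) =ᵐ[ν]
          fun y => |a| * (y * Real.exp (-y)) := by
        filter_upwards [ae_restrict_mem measurableSet_Ioi] with y hy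
        have hy0 : (0:ℝ) < y := hy
        rw [abs_mul, abs_of_pos hy0]
        ring
      exact (h2_integrableOn_id_mul_exp_neg.const_mul |a|).congr h2.symm
  have hFi : Integrable (fun p => F₁ p + F₂ p) (ν.prod volume) := hF₁i.add hF₂i
  -- pointwise identification
  have hpt : ∀ s, tailStep a S s - tail0 s = ∫ y, (F₁ (y, s) + F₂ (y, s)) ∂ν := by
    intro s
    have e : ∀ y, F₁ (y, s) + F₂ (y, s) =
        S (s - a * y) * Real.exp (-y) - tail0 s * Real.exp (-y) := by
      intro y
      simp only [hF₁, hF₂, hD]
      ring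
    simp only [e]
    rw [integral_sub (h2_tailStep_integrable hS a s) (hexpν.const_mul _), integral_const_mul,
      integral_exp_neg_Ioi_zero, mul_one]
    rfl
  have hfun : (fun s => tailStep a S s - tail0 s) = fun s => ∫ y, (F₁ (y, s) + F₂ (y, s)) ∂ν :=
    funext hpt
  refine ⟨?_, ?_⟩
  · rw [hfun]
    exact hFi.integral_prod_right
  · rw [hfun]
    have hswap := integral_integral_swap (μ := ν) (ν := (volume : Measure ℝ))
      (f := fun y s => F₁ (y, s) + F₂ (y, s)) hFi
    rw [← hswap]
    have hinner : ∀ y, ∫ s, (F₁ (y, s) + F₂ (y, s)) =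
        (∫ s, D s) * Real.exp (-y) + a * (y * Real.exp (-y)) := by
      intro y
      show ∫ s, (D (s - a * y) * Real.exp (-y) +
        (tail0 (s - a * y) - tail0 s) * Real.exp (-y)) = _
      rw [integral_add ((hint.comp_sub_right (a * y)).mul_const _)
        ((h2_tail0_shift_integrable (a * y)).mul_const _)]
      rw [integral_mul_const, integral_mul_const, h2_tail0_shift_integral,
        integral_sub_right_eq_self D (a * y)]
      ring
    simp only [hinner]
    rw [integral_add (hexpν.const_mul _) (h2_integrableOn_id_mul_exp_neg.const_mul a),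
      integral_const_mul, integral_const_mul, hν, integral_exp_neg_Ioi_zero,
      h2_integral_id_mul_exp_neg]
    ring

end Crest.Agent.S0423
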