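import Mathlib
import Crest.Agent.Lib.S0423.Defs

set_option autoImplicit false

/-!
S0423, package P9 (= M6, calculus): for every `t > 0` the exponential comparison tail
`E_t(s) = min 1 (exp (-(s+t)/t))` (tail of `t(X-1)`, `X ~ Exp(1)`) satisfies
`∫ ω E_t ≥ (4/9) e^{-1/3}` with `ω(s) = (s + 4/3) e^{-(s+4/3)}` on `s > -4/3`.
The auxiliary statements are definition-free and carry the prefix `h33_`; the interface theorems
`expTail_bound` and `psi_zero_le` (stated with `omega`, `expTail`, `psi` of `Defs.lean`) are at the end.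
-/

namespace Crest.Agent.S0423

open MeasureTheory Real Filter Topology Set

/-- Closed form, branch `μ ≥ c` (in fact valid for every `μ > 0`): the single-exponential value
`exp (c/μ - 1) * (μ/(1+μ))^2` with `c = 4/3` is at least `κ = (4/9) e^{-1/3}` (minimum at `μ = 2`).
The inequality is `exp v ≥ 1 + v` with `v = (2/μ - 1)/3`. -/
theorem h33_kappa_le_single (μ : ℝ) (hμ : 0 < μ) :
    (4 / 9 : ℝ) * Real.exp (-(1 / 3)) ≤ Real.exp ((4 / 3) / μ - 1) * (μ / (1 + μ)) ^ 2 := by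
  have h1μ : 0 < 1 + μ := by linarith
  set v : ℝ := (2 / μ - 1) / 3 with hv
  have hv1 : 1 + v = (2 / 3) * ((1 + μ) / μ) := by
    rw [hv]; field_simp; ring
  have hv1pos : 0 < 1 + v := by rw [hv1]; positivity
  have hexp : 1 + v ≤ Real.exp v := by linarith [Real.add_one_le_exp v]
  have hsq : (1 + v) ^ 2 ≤ Real.exp v ^ 2 := by
    apply pow_le_pow_left₀ hv1pos.le hexp
  have h2v : Real.exp v ^ 2 = Real.exp ((4 / 3) / μ - 1) * Real.exp (1 / 3) := by
    rw [← Real.exp_add, sq, ← Real.exp_add]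
    congr 1
    rw [hv]; field_simp; ring
  have hneg : Real.exp (-(1 / 3 : ℝ)) * Real.exp (1 / 3) = 1 := by
    rw [← Real.exp_add]; simp
  have he3 : 0 < Real.exp (1 / 3 : ℝ) := Real.exp_pos _
  have hkey : (4 / 9 : ℝ) * ((1 + μ) / μ) ^ 2 ≤ Real.exp ((4 / 3) / μ - 1) * Real.exp (1 / 3) := by
    rw [← h2v]
    calc (4 / 9 : ℝ) * ((1 + μ) / μ) ^ 2 = (1 + v) ^ 2 := by rw [hv1]; ring
      _ ≤ Real.exp v ^ 2 := hsq
  -- multiply by exp(-1/3) * (μ/(1+μ))^2
  have hpos : 0 < Real.exp (-(1 / 3 : ℝ)) * (μ / (1 + μ)) ^ 2 := by positivity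
  have := mul_le_mul_of_nonneg_right hkey hpos.le
  calc (4 / 9 : ℝ) * Real.exp (-(1 / 3))
      = (4 / 9 : ℝ) * ((1 + μ) / μ) ^ 2 * (Real.exp (-(1 / 3 : ℝ)) * (μ / (1 + μ)) ^ 2) := by
        field_simp
    _ ≤ Real.exp ((4 / 3) / μ - 1) * Real.exp (1 / 3) * (Real.exp (-(1 / 3 : ℝ)) * (μ / (1 + μ)) ^ 2) := this
    _ = Real.exp ((4 / 3) / μ - 1) * (μ / (1 + μ)) ^ 2 * (Real.exp (-(1 / 3 : ℝ)) * Real.exp (1 / 3)) := by ring
    _ = Real.exp ((4 / 3) / μ - 1) * (μ / (1 + μ)) ^ 2 := by rw [hneg, mul_one]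

/-- `16/49 ≥ κ`. -/
theorem h33_kappa_le_sixteen : (4 / 9 : ℝ) * Real.exp (-(1 / 3)) ≤ 16 / 49 := by
  have h : (25 / 18 : ℝ) ≤ Real.exp (1 / 3) := by
    have := Real.quadratic_le_exp_of_nonneg (x := (1 / 3 : ℝ)) (by norm_num)
    norm_num at this ⊢
    linarith
  have he : Real.exp (-(1 / 3 : ℝ)) = (Real.exp (1 / 3))⁻¹ := by rw [Real.exp_neg]
  rw [he]
  have hpos : 0 < Real.exp (1 / 3 : ℝ) := Real.exp_pos _
  rw [mul_inv_le_iff₀ hpos]
  nlinarith

theorem h33_branch_small (μ : ℝ) (hμ0 : 0 < μ) (hμc : μ ≤ 4 / 3) :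
    (16 / 49 : ℝ) ≤ 1 - Real.exp (μ - 4 / 3) * (((1 + 4 / 3) * (1 + μ) - μ ^ 2) / (1 + μ) ^ 2) := by
  set d : ℝ := 4 / 3 - μ with hd
  have hd0 : 0 ≤ d := by rw [hd]; linarith
  have hd1 : d < 4 / 3 := by rw [hd]; linarith
  have hE : 1 + d + d ^ 2 / 2 + d ^ 3 / 6 ≤ Real.exp d := by
    have := Real.sum_le_exp_of_nonneg hd0 4
    simp [Finset.sum_range_succ, Nat.factorial] at this
    linarith
  have hexp : Real.exp (μ - 4 / 3) = (Real.exp d)⁻¹ := by
    rw [← Real.exp_neg]; congr 1; rw [hd]; ring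
  rw [hexp]
  have hEpos : 0 < Real.exp d := Real.exp_pos _
  have h1μ : 0 < 1 + μ := by linarith
  have hμd : μ = 4 / 3 - d := by rw [hd]; ring
  have hnum : 0 ≤ (1 + 4 / 3) * (1 + μ) - μ ^ 2 := by nlinarith
  -- goal: (exp d)⁻¹ * (N / (1+μ)^2) ≤ 33/49
  have hgoal : (Real.exp d)⁻¹ * (((1 + 4 / 3) * (1 + μ) - μ ^ 2) / (1 + μ) ^ 2) ≤ 33 / 49 := by
    rw [inv_mul_le_iff₀ hEpos, div_le_iff₀ (by positivity)]
    have hpoly : 49 * ((1 + 4 / 3) * (1 + μ) - μ ^ 2) ≤
        33 * (1 + d + d ^ 2 / 2 + d ^ 3 / 6) * (1 + μ) ^ 2 := by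
      rw [hμd]
      have h43 : 0 ≤ 4 / 3 - d := by linarith
      nlinarith [mul_nonneg hd0 h43, mul_nonneg (mul_nonneg hd0 hd0) h43, mul_nonneg hd0 hd0,
        mul_nonneg (mul_nonneg hd0 hd0) (mul_nonneg h43 h43), mul_nonneg hd0 (mul_nonneg h43 h43),
        mul_nonneg (mul_nonneg hd0 hd0) (mul_nonneg hd0 h43), pow_nonneg hd0 3, pow_nonneg hd0 4, pow_nonneg hd0 5]
    have h2 : 33 * (1 + d + d ^ 2 / 2 + d ^ 3 / 6) * (1 + μ) ^ 2 ≤ 33 * Real.exp d * (1 + μ) ^ 2 := by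
      have : 0 ≤ (1 + μ) ^ 2 := by positivity
      nlinarith
    nlinarith
  linarith

/-- `∫_{s > a} (p + s) e^{-κ s} ds = ((p + a)/κ + 1/κ²) e^{-κ a}` for `κ > 0`, `p + a ≥ 0`. -/
theorem h33_int_lin_exp (κ p a : ℝ) (hκ : 0 < κ) (hpa : 0 ≤ p + a) :
    IntegrableOn (fun s : ℝ => (p + s) * Real.exp (-(κ * s))) (Ioi a) ∧
    ∫ s in Ioi a, (p + s) * Real.exp (-(κ * s)) = ((p + a) / κ + 1 / κ ^ 2) * Real.exp (-(κ * a)) := by
  have hderiv : ∀ x ∈ Ici a, HasDerivAt (fun s : ℝ => -((p + s) / κ + 1 / κ ^ 2) * Real.exp (-(κ * s)))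
      ((p + x) * Real.exp (-(κ * x))) x := by
    intro x _
    have h1 : HasDerivAt (fun s : ℝ => -((p + s) / κ + 1 / κ ^ 2)) (-(1 / κ)) x := by
      have : HasDerivAt (fun s : ℝ => (p + s) / κ + 1 / κ ^ 2) (1 / κ) x := by
        have h0 : HasDerivAt (fun s : ℝ => p + s) 1 x := by
          simpa using (hasDerivAt_id x).const_add p
        simpa using (h0.div_const κ).add_const (1 / κ ^ 2)
      exact this.neg
    have h2 : HasDerivAt (fun s : ℝ => Real.exp (-(κ * s))) (Real.exp (-(κ * x)) * (-κ)) x := by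
      have h0 : HasDerivAt (fun s : ℝ => -(κ * s)) (-κ) x := by
        have := ((hasDerivAt_id x).const_mul κ).neg
        simp only [mul_one] at this
        exact this
      exact h0.exp
    have hκ0 : κ ≠ 0 := hκ.ne'
    refine (h1.mul h2).congr_deriv ?_
    field_simp
    ring
  have hpos : ∀ x ∈ Ioi a, 0 ≤ (p + x) * Real.exp (-(κ * x)) := by
    intro x hx
    have : 0 ≤ p + x := by have := hx.out; linarith
    positivity
  have hlim : Tendsto (fun s : ℝ => -((p + s) / κ + 1 / κ ^ 2) * Real.exp (-(κ * s))) atTop (𝓝 0) := by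
    have h1 := tendsto_rpow_mul_exp_neg_mul_atTop_nhds_zero 1 κ hκ
    have h0 := tendsto_rpow_mul_exp_neg_mul_atTop_nhds_zero 0 κ hκ
    have h : Tendsto (fun s : ℝ => -(1 / κ) * (s ^ (1 : ℝ) * Real.exp (-κ * s))
        + -(p / κ + 1 / κ ^ 2) * (s ^ (0 : ℝ) * Real.exp (-κ * s))) atTop (𝓝 0) := by
      have := (h1.const_mul (-(1 / κ))).add (h0.const_mul (-(p / κ + 1 / κ ^ 2)))
      simpa using this
    refine h.congr' ?_
    filter_upwards [eventually_gt_atTop 0] with s hs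
    rw [Real.rpow_one, Real.rpow_zero]
    have : -κ * s = -(κ * s) := by ring
    rw [this]
    have hκ0 : κ ≠ 0 := hκ.ne'
    field_simp
    ring
  refine ⟨integrableOn_Ioi_deriv_of_nonneg' hderiv hpos hlim, ?_⟩
  rw [integral_Ioi_of_hasDerivAt_of_nonneg' hderiv hpos hlim]
  ring

/-- pointwise rewriting of the integrand on the region where the exponential tail is `< 1`. -/
theorem h33_integrand_tail (t s : ℝ) (ht : 0 < t) (hs : -t ≤ s) :
    (4 / 3 + s) * Real.exp (-(4 / 3 + s)) * min 1 (Real.exp (-(s + t) / t)) =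
      Real.exp (-(7 / 3)) * ((4 / 3 + s) * Real.exp (-((1 + 1 / t) * s))) := by
  have hle : Real.exp (-(s + t) / t) ≤ 1 := by
    rw [Real.exp_le_one_iff]
    have : 0 ≤ (s + t) / t := div_nonneg (by linarith) ht.le
    have h2 : -(s + t) / t = -((s + t) / t) := by ring
    rw [h2]; linarith
  rw [min_eq_right hle]
  have hexp : Real.exp (-(4 / 3 + s)) * Real.exp (-(s + t) / t) =
      Real.exp (-(7 / 3)) * Real.exp (-((1 + 1 / t) * s)) := by
    rw [← Real.exp_add, ← Real.exp_add]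
    congr 1
    field_simp
    ring
  calc (4 / 3 + s) * Real.exp (-(4 / 3 + s)) * Real.exp (-(s + t) / t)
      = (4 / 3 + s) * (Real.exp (-(4 / 3 + s)) * Real.exp (-(s + t) / t)) := by ring
    _ = Real.exp (-(7 / 3)) * ((4 / 3 + s) * Real.exp (-((1 + 1 / t) * s))) := by rw [hexp]; ring

/-- pointwise rewriting of the integrand on the region where the exponential tail is `1`. -/
theorem h33_integrand_head (t s : ℝ) (ht : 0 < t) (hs : s ≤ -t) :
    (4 / 3 + s) * Real.exp (-(4 / 3 + s)) * min 1 (Real.exp (-(s + t) / t)) =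
      (4 / 3 + s) * Real.exp (-(4 / 3 + s)) := by
  have hle : 1 ≤ Real.exp (-(s + t) / t) := by
    rw [Real.one_le_exp_iff]
    have : (s + t) / t ≤ 0 := div_nonpos_of_nonpos_of_nonneg (by linarith) ht.le
    have h2 : -(s + t) / t = -((s + t) / t) := by ring
    rw [h2]; linarith
  rw [min_eq_left hle, mul_one]

theorem h33_int_large (t : ℝ) (ht : 4 / 3 ≤ t) :
    ∫ s in Ioi (-(4 / 3) : ℝ), (4 / 3 + s) * Real.exp (-(4 / 3 + s)) * min 1 (Real.exp (-(s + t) / t))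
      = Real.exp ((4 / 3) / t - 1) * (t / (1 + t)) ^ 2 := by
  have ht0 : 0 < t := by linarith
  have hκ : 0 < 1 + 1 / t := by positivity
  have hcongr : ∫ s in Ioi (-(4 / 3) : ℝ), (4 / 3 + s) * Real.exp (-(4 / 3 + s)) * min 1 (Real.exp (-(s + t) / t))
      = ∫ s in Ioi (-(4 / 3) : ℝ), Real.exp (-(7 / 3)) * ((4 / 3 + s) * Real.exp (-((1 + 1 / t) * s))) := by
    apply setIntegral_congr_fun measurableSet_Ioi
    intro s hs
    exact h33_integrand_tail t s ht0 (by have := hs.out; linarith)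
  rw [hcongr, integral_const_mul, (h33_int_lin_exp (1 + 1 / t) (4 / 3) (-(4 / 3)) hκ (by norm_num)).2]
  have h1 : Real.exp (-(7 / 3)) * ((4 / 3 + -(4 / 3)) / (1 + 1 / t) + 1 / (1 + 1 / t) ^ 2) *
      Real.exp (-((1 + 1 / t) * -(4 / 3))) =
      (Real.exp (-(7 / 3)) * Real.exp (-((1 + 1 / t) * -(4 / 3)))) * (t / (1 + t)) ^ 2 := by
    field_simp
    ring
  rw [← mul_assoc, h1, ← Real.exp_add]
  congr 2
  field_simp
  ring

theorem h33_continuous (t : ℝ) :
    Continuous (fun s : ℝ => (4 / 3 + s) * Real.exp (-(4 / 3 + s)) * min 1 (Real.exp (-(s + t) / t))) := by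
  fun_prop

theorem h33_integrableOn (t : ℝ) (a : ℝ) (ha : -(4 / 3) ≤ a) :
    IntegrableOn (fun s : ℝ => (4 / 3 + s) * Real.exp (-(4 / 3 + s)) * min 1 (Real.exp (-(s + t) / t)))
      (Ioi a) := by
  have hbase := (h33_int_lin_exp 1 (4 / 3) a one_pos (by linarith)).1
  have hbase2 : IntegrableOn (fun s : ℝ => Real.exp (-(4 / 3)) * ((4 / 3 + s) * Real.exp (-(1 * s)))) (Ioi a) :=
    hbase.const_mul _
  refine Integrable.mono' hbase2 (h33_continuous t).aestronglyMeasurable ?_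
  refine ae_restrict_of_forall_mem measurableSet_Ioi ?_
  intro s hs
  have hs' : 0 ≤ 4 / 3 + s := by have := hs.out; linarith
  have hmin0 : 0 ≤ min 1 (Real.exp (-(s + t) / t)) := le_min zero_le_one (Real.exp_pos _).le
  have hmin1 : min 1 (Real.exp (-(s + t) / t)) ≤ 1 := min_le_left _ _
  rw [Real.norm_eq_abs, abs_of_nonneg (by positivity)]
  have hexp : Real.exp (-(4 / 3 + s)) = Real.exp (-(4 / 3)) * Real.exp (-(1 * s)) := by
    rw [← Real.exp_add]; congr 1; ring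
  have hnn : 0 ≤ (4 / 3 + s) * Real.exp (-(4 / 3 + s)) := by positivity
  calc (4 / 3 + s) * Real.exp (-(4 / 3 + s)) * min 1 (Real.exp (-(s + t) / t))
      ≤ (4 / 3 + s) * Real.exp (-(4 / 3 + s)) * 1 := mul_le_mul_of_nonneg_left hmin1 hnn
    _ = Real.exp (-(4 / 3)) * ((4 / 3 + s) * Real.exp (-(1 * s))) := by rw [hexp]; ring

theorem h33_int_small (t : ℝ) (ht0 : 0 < t) (ht : t ≤ 4 / 3) :
    ∫ s in Ioi (-(4 / 3) : ℝ), (4 / 3 + s) * Real.exp (-(4 / 3 + s)) * min 1 (Real.exp (-(s + t) / t))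
      = 1 - Real.exp (t - 4 / 3) * (((1 + 4 / 3) * (1 + t) - t ^ 2) / (1 + t) ^ 2) := by
  have hκ : 0 < 1 + 1 / t := by positivity
  have hle : (-(4 / 3) : ℝ) ≤ -t := by linarith
  rw [← intervalIntegral.integral_interval_add_Ioi (b := -t) (h33_integrableOn t _ le_rfl)
    (h33_integrableOn t _ hle)]
  -- head piece
  have hhead : ∫ s in (-(4 / 3) : ℝ)..(-t), (4 / 3 + s) * Real.exp (-(4 / 3 + s)) * min 1 (Real.exp (-(s + t) / t))
      = 1 - (7 / 3 - t) * Real.exp (t - 4 / 3) := by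
    have hc : ∫ s in (-(4 / 3) : ℝ)..(-t), (4 / 3 + s) * Real.exp (-(4 / 3 + s)) * min 1 (Real.exp (-(s + t) / t))
        = ∫ s in (-(4 / 3) : ℝ)..(-t), (4 / 3 + s) * Real.exp (-(4 / 3 + s)) := by
      apply intervalIntegral.integral_congr
      intro s hs
      rw [uIcc_of_le hle] at hs
      exact h33_integrand_head t s ht0 hs.2
    rw [hc]
    have hderiv : ∀ x ∈ uIcc (-(4 / 3) : ℝ) (-t),
        HasDerivAt (fun s : ℝ => -(1 + 4 / 3 + s) * Real.exp (-(4 / 3 + s)))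
          ((4 / 3 + x) * Real.exp (-(4 / 3 + x))) x := by
      intro x _
      have h1 : HasDerivAt (fun s : ℝ => -(1 + 4 / 3 + s)) (-1) x := by
        have : HasDerivAt (fun s : ℝ => 1 + 4 / 3 + s) 1 x := by
          simpa using (hasDerivAt_id x).const_add (1 + 4 / 3 : ℝ)
        exact this.neg
      have h2 : HasDerivAt (fun s : ℝ => Real.exp (-(4 / 3 + s))) (Real.exp (-(4 / 3 + x)) * (-1)) x := by
        have h0 : HasDerivAt (fun s : ℝ => -(4 / 3 + s)) (-1) x := by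
          have : HasDerivAt (fun s : ℝ => 4 / 3 + s) 1 x := by
            simpa using (hasDerivAt_id x).const_add (4 / 3 : ℝ)
          exact this.neg
        exact h0.exp
      refine (h1.mul h2).congr_deriv ?_
      ring
    have hint : IntervalIntegrable (fun s : ℝ => (4 / 3 + s) * Real.exp (-(4 / 3 + s))) volume (-(4 / 3)) (-t) := by
      apply Continuous.intervalIntegrable
      fun_prop
    rw [intervalIntegral.integral_eq_sub_of_hasDerivAt hderiv hint]
    have e1 : Real.exp (-(4 / 3 + -t)) = Real.exp (t - 4 / 3) := by congr 1; ring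
    have e2 : Real.exp (-(4 / 3 + -(4 / 3) : ℝ)) = 1 := by norm_num
    rw [e1, e2]
    ring
  -- tail piece
  have htail : ∫ s in Ioi (-t), (4 / 3 + s) * Real.exp (-(4 / 3 + s)) * min 1 (Real.exp (-(s + t) / t))
      = Real.exp (t - 4 / 3) * ((4 / 3 - t) * (t / (1 + t)) + (t / (1 + t)) ^ 2) := by
    have hcongr : ∫ s in Ioi (-t), (4 / 3 + s) * Real.exp (-(4 / 3 + s)) * min 1 (Real.exp (-(s + t) / t))
        = ∫ s in Ioi (-t), Real.exp (-(7 / 3)) * ((4 / 3 + s) * Real.exp (-((1 + 1 / t) * s))) := by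
      apply setIntegral_congr_fun measurableSet_Ioi
      intro s hs
      exact h33_integrand_tail t s ht0 (le_of_lt hs.out)
    rw [hcongr, integral_const_mul, (h33_int_lin_exp (1 + 1 / t) (4 / 3) (-t) hκ (by linarith)).2]
    have e1 : Real.exp (-(7 / 3)) * Real.exp (-((1 + 1 / t) * -t)) = Real.exp (t - 4 / 3) := by
      rw [← Real.exp_add]; congr 1; field_simp; ring
    calc Real.exp (-(7 / 3)) * (((4 / 3 + -t) / (1 + 1 / t) + 1 / (1 + 1 / t) ^ 2) * Real.exp (-((1 + 1 / t) * -t)))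
        = (Real.exp (-(7 / 3)) * Real.exp (-((1 + 1 / t) * -t))) * ((4 / 3 + -t) / (1 + 1 / t) + 1 / (1 + 1 / t) ^ 2) := by ring
      _ = Real.exp (t - 4 / 3) * ((4 / 3 - t) * (t / (1 + t)) + (t / (1 + t)) ^ 2) := by
          rw [e1]; congr 1; field_simp; ring
  rw [hhead, htail]
  have h1t : (1 + t) ≠ 0 := by positivity
  field_simp
  ring

/-- Closed form of `∫ ω E_t` and the bound: **M6**, set-integral form. -/
theorem h33_calc_Ioi (t : ℝ) (ht : 0 < t) :
    (4 / 9 : ℝ) * Real.exp (-(1 / 3)) ≤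
      ∫ s in Ioi (-(4 / 3) : ℝ), (4 / 3 + s) * Real.exp (-(4 / 3 + s)) * min 1 (Real.exp (-(s + t) / t)) := by
  rcases le_total (4 / 3) t with h | h
  · rw [h33_int_large t h]
    exact h33_kappa_le_single t ht
  · rw [h33_int_small t ht h]
    exact le_trans h33_kappa_le_sixteen (h33_branch_small t ht h)

/-- **M6**, full-line form with `ω(s) = if -(4/3) < s then (s + 4/3) * exp (-(s + 4/3)) else 0`. -/
theorem h33_calc_univ (t : ℝ) (ht : 0 < t) :
    (4 / 9 : ℝ) * Real.exp (-(1 / 3)) ≤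
      ∫ s : ℝ, (if -(4 / 3 : ℝ) < s then (s + 4 / 3) * Real.exp (-(s + 4 / 3)) else 0) *
        min 1 (Real.exp (-(s + t) / t)) := by
  have h : (fun s : ℝ => (if -(4 / 3 : ℝ) < s then (s + 4 / 3) * Real.exp (-(s + 4 / 3)) else 0) *
        min 1 (Real.exp (-(s + t) / t))) =
      (Ioi (-(4 / 3) : ℝ)).indicator
        (fun s : ℝ => (4 / 3 + s) * Real.exp (-(4 / 3 + s)) * min 1 (Real.exp (-(s + t) / t))) := by
    funext s
    by_cases hs : -(4 / 3 : ℝ) < s
    · rw [indicator_of_mem (show s ∈ Ioi (-(4 / 3) : ℝ) from hs), if_pos hs, add_comm s (4 / 3)]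
    · rw [indicator_of_notMem (show s ∉ Ioi (-(4 / 3) : ℝ) from hs), if_neg hs, zero_mul]
  rw [h, integral_indicator measurableSet_Ioi]
  exact h33_calc_Ioi t ht

/-- Integrability of the full-line integrand of `h33_calc_univ`. -/
theorem h33_integrable_univ (t : ℝ) :
    Integrable (fun s : ℝ => (if -(4 / 3 : ℝ) < s then (s + 4 / 3) * Real.exp (-(s + 4 / 3)) else 0) *
        min 1 (Real.exp (-(s + t) / t))) := by
  have h : (fun s : ℝ => (if -(4 / 3 : ℝ) < s then (s + 4 / 3) * Real.exp (-(s + 4 / 3)) else 0) *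
        min 1 (Real.exp (-(s + t) / t))) =
      (Ioi (-(4 / 3) : ℝ)).indicator
        (fun s : ℝ => (4 / 3 + s) * Real.exp (-(4 / 3 + s)) * min 1 (Real.exp (-(s + t) / t))) := by
    funext s
    by_cases hs : -(4 / 3 : ℝ) < s
    · rw [indicator_of_mem (show s ∈ Ioi (-(4 / 3) : ℝ) from hs), if_pos hs, add_comm s (4 / 3)]
    · rw [indicator_of_notMem (show s ∉ Ioi (-(4 / 3) : ℝ) from hs), if_neg hs, zero_mul]
  rw [h, integrable_indicator_iff measurableSet_Ioi]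
  exact h33_integrableOn t _ le_rfl

/-- The integrand of the interface statement, spelled with the shared definitions. -/
theorem h33_omega_mul_expTail (t : ℝ) :
    (fun s : ℝ => omega s * expTail t s) =
      fun s : ℝ => (if -(4 / 3 : ℝ) < s then (s + 4 / 3) * Real.exp (-(s + 4 / 3)) else 0) *
        min 1 (Real.exp (-(s + t) / t)) := rfl

/-- `omega * expTail t` is integrable (every `t`). -/
theorem h33_integrable_omega_mul_expTail (t : ℝ) :
    Integrable (fun s : ℝ => omega s * expTail t s) := by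
  rw [h33_omega_mul_expTail]
  exact h33_integrable_univ t

/-- Closed form for `t ≥ 4/3`. -/
theorem h33_integral_omega_mul_expTail_large (t : ℝ) (ht : 4 / 3 ≤ t) :
    ∫ s, omega s * expTail t s = Real.exp ((4 / 3) / t - 1) * (t / (1 + t)) ^ 2 := by
  rw [h33_omega_mul_expTail]
  have h : (fun s : ℝ => (if -(4 / 3 : ℝ) < s then (s + 4 / 3) * Real.exp (-(s + 4 / 3)) else 0) *
        min 1 (Real.exp (-(s + t) / t))) =
      (Ioi (-(4 / 3) : ℝ)).indicator
        (fun s : ℝ => (4 / 3 + s) * Real.exp (-(4 / 3 + s)) * min 1 (Real.exp (-(s + t) / t))) := by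
    funext s
    by_cases hs : -(4 / 3 : ℝ) < s
    · rw [indicator_of_mem (show s ∈ Ioi (-(4 / 3) : ℝ) from hs), if_pos hs, add_comm s (4 / 3)]
    · rw [indicator_of_notMem (show s ∉ Ioi (-(4 / 3) : ℝ) from hs), if_neg hs, zero_mul]
  rw [h, integral_indicator measurableSet_Ioi]
  exact h33_int_large t ht

/-- Closed form for `0 < t ≤ 4/3`. -/
theorem h33_integral_omega_mul_expTail_small (t : ℝ) (ht0 : 0 < t) (ht : t ≤ 4 / 3) :
    ∫ s, omega s * expTail t s =
      1 - Real.exp (t - 4 / 3) * (((1 + 4 / 3) * (1 + t) - t ^ 2) / (1 + t) ^ 2) := by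
  rw [h33_omega_mul_expTail]
  have h : (fun s : ℝ => (if -(4 / 3 : ℝ) < s then (s + 4 / 3) * Real.exp (-(s + 4 / 3)) else 0) *
        min 1 (Real.exp (-(s + t) / t))) =
      (Ioi (-(4 / 3) : ℝ)).indicator
        (fun s : ℝ => (4 / 3 + s) * Real.exp (-(4 / 3 + s)) * min 1 (Real.exp (-(s + t) / t))) := by
    funext s
    by_cases hs : -(4 / 3 : ℝ) < s
    · rw [indicator_of_mem (show s ∈ Ioi (-(4 / 3) : ℝ) from hs), if_pos hs, add_comm s (4 / 3)]
    · rw [indicator_of_notMem (show s ∉ Ioi (-(4 / 3) : ℝ) from hs), if_neg hs, zero_mul]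
  rw [h, integral_indicator measurableSet_Ioi]
  exact h33_int_small t ht0 ht

/-- The bound for every `t > 0` (the interface only needs `1/3 ≤ t`). -/
theorem h33_expTail_bound_pos {t : ℝ} (ht : 0 < t) :
    4 / 9 * Real.exp (-(1 / 3)) ≤ ∫ s, omega s * expTail t s := by
  rw [h33_omega_mul_expTail]
  exact h33_calc_univ t ht

/-- INTERFACE (P9): exponential tails never beat the bound. -/
theorem expTail_bound {t : ℝ} (ht : 1 / 3 ≤ t) :
    4 / 9 * Real.exp (-(1 / 3)) ≤ ∫ s, omega s * expTail t s :=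
  h33_expTail_bound_pos (by linarith)

/-- Value of `psi` at `0`. -/
theorem h33_psi_zero : psi 0 = 7 / 3 * Real.exp (-(4 / 3)) := by
  unfold psi Crest.AlgGeometry.truncExpWeight
  rw [if_neg (by norm_num)]
  norm_num

/-- INTERFACE (P9): the case `a = 0`:  `(7/3)·e^(-4/3) ≤ 1 - (4/9)·e^(-1/3)`. -/
theorem psi_zero_le : psi 0 ≤ 1 - 4 / 9 * Real.exp (-(1 / 3)) := by
  rw [h33_psi_zero]
  have h43 : Real.exp (-(4 / 3 : ℝ)) = Real.exp (-1) * Real.exp (-(1 / 3)) := by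
    rw [← Real.exp_add]; norm_num
  have he1 : Real.exp (-1 : ℝ) ≤ 10 / 27 := by
    have h2 : (27 / 10 : ℝ) ≤ Real.exp 1 := by
      have := Real.exp_one_gt_d9
      linarith
    rw [Real.exp_neg, inv_eq_one_div]
    calc 1 / Real.exp 1 ≤ 1 / (27 / 10 : ℝ) := one_div_le_one_div_of_le (by norm_num) h2
      _ = 10 / 27 := by norm_num
  have he3 : Real.exp (-(1 / 3 : ℝ)) ≤ 3 / 4 := by
    have h2 : (4 / 3 : ℝ) ≤ Real.exp (1 / 3) := by linarith [Real.add_one_le_exp (1 / 3 : ℝ)]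
    rw [Real.exp_neg, inv_eq_one_div]
    calc 1 / Real.exp (1 / 3) ≤ 1 / (4 / 3 : ℝ) := one_div_le_one_div_of_le (by norm_num) h2
      _ = 3 / 4 := by norm_num
  have hp1 : 0 < Real.exp (-1 : ℝ) := Real.exp_pos _
  have hp3 : 0 < Real.exp (-(1 / 3 : ℝ)) := Real.exp_pos _
  rw [h43]
  have hprod : Real.exp (-1 : ℝ) * Real.exp (-(1 / 3 : ℝ)) ≤ 10 / 27 * (3 / 4) :=
    mul_le_mul he1 he3 hp3.le (by norm_num)
  linarith

end Crest.Agent.S0423
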