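import Mathlib
import Crest.Agent.Lib.S0423.Defs

set_option autoImplicit false

/-!
# S0423, team module of helper38: the sign-pattern core of the comparison theorem

`G` is a tail function (antitone, values in `[0,1]`, four-point log-concave = `PF2`),
`E_t s = min 1 (exp (-(s+t)/t))` is the tail of `t (X - 1)` for a standard exponential `X`.
If `G - E_t` has integral zero on both sides of `-1/3` (the mode of the kernel
`ω s = (s + 4/3) e^{-(s+4/3)}`), then `∫ ω (G - E_t) ≥ 0`.
-/

namespace Crest.Agent.S0423.Helper38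

open MeasureTheory Set

/-! ### the kernel `ω` -/

/-- the kernel `(s + 4/3) e^{-(s + 4/3)}` on `s > -4/3`, zero elsewhere -/
noncomputable def om (s : ℝ) : ℝ :=
  if -(4/3:ℝ) < s then (s + 4/3) * Real.exp (-(s + 4/3)) else 0

lemma om_nonneg (s : ℝ) : 0 ≤ om s := by
  unfold om
  split_ifs with h
  · have : 0 < s + 4/3 := by linarith
    positivity
  · exact le_rfl

lemma mul_exp_neg_le_one (x : ℝ) : x * Real.exp (-x) ≤ 1 := by
  have h1 : x + 1 ≤ Real.exp x := Real.add_one_le_exp x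
  have h3 : 0 < Real.exp (-x) := Real.exp_pos _
  calc x * Real.exp (-x) ≤ Real.exp x * Real.exp (-x) :=
        mul_le_mul_of_nonneg_right (by linarith) h3.le
    _ = 1 := by rw [← Real.exp_add]; simp

lemma om_le_one (s : ℝ) : om s ≤ 1 := by
  unfold om
  split_ifs with h
  · exact mul_exp_neg_le_one _
  · exact zero_le_one

lemma mul_exp_neg_mono {x y : ℝ} (hx : 0 ≤ x) (hxy : x ≤ y) (hy : y ≤ 1) :
    x * Real.exp (-x) ≤ y * Real.exp (-y) := by
  have h1 : -(y - x) + 1 ≤ Real.exp (-(y - x)) := Real.add_one_le_exp _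
  have h2 : Real.exp (-y) = Real.exp (-(y - x)) * Real.exp (-x) := by
    rw [← Real.exp_add]; congr 1; ring
  have h3 : 0 < Real.exp (-x) := Real.exp_pos _
  have h4 : x ≤ y * Real.exp (-(y - x)) := by
    have h5 : y * (-(y - x) + 1) ≤ y * Real.exp (-(y - x)) :=
      mul_le_mul_of_nonneg_left h1 (by linarith)
    nlinarith [mul_nonneg (sub_nonneg.2 hxy) (sub_nonneg.2 hy)]
  calc x * Real.exp (-x) ≤ (y * Real.exp (-(y - x))) * Real.exp (-x) :=
        mul_le_mul_of_nonneg_right h4 h3.le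
    _ = y * Real.exp (-y) := by rw [h2]; ring

lemma mul_exp_neg_anti {x y : ℝ} (hx : 1 ≤ x) (hxy : x ≤ y) :
    y * Real.exp (-y) ≤ x * Real.exp (-x) := by
  have h1 : (y - x) + 1 ≤ Real.exp (y - x) := Real.add_one_le_exp _
  have h2 : Real.exp (-x) = Real.exp (y - x) * Real.exp (-y) := by
    rw [← Real.exp_add]; congr 1; ring
  have h3 : 0 < Real.exp (-y) := Real.exp_pos _
  have h4 : y ≤ x * Real.exp (y - x) := by
    have h5 : x * ((y - x) + 1) ≤ x * Real.exp (y - x) :=
      mul_le_mul_of_nonneg_left h1 (by linarith)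
    nlinarith [mul_nonneg (sub_nonneg.2 hx) (sub_nonneg.2 hxy)]
  calc y * Real.exp (-y) ≤ (x * Real.exp (y - x)) * Real.exp (-y) :=
        mul_le_mul_of_nonneg_right h4 h3.le
    _ = x * Real.exp (-x) := by rw [h2]; ring

lemma om_mono {u v : ℝ} (huv : u ≤ v) (hv : v ≤ -(1/3)) : om u ≤ om v := by
  by_cases hu : -(4/3:ℝ) < u
  · have hv' : -(4/3:ℝ) < v := lt_of_lt_of_le hu huv
    simp only [om, if_pos hu, if_pos hv']
    exact mul_exp_neg_mono (by linarith) (by linarith) (by linarith)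
  · have : om u = 0 := by simp [om, hu]
    rw [this]; exact om_nonneg v

lemma om_anti {u v : ℝ} (hu : -(1/3) ≤ u) (huv : u ≤ v) : om v ≤ om u := by
  have hu' : -(4/3:ℝ) < u := by linarith
  have hv' : -(4/3:ℝ) < v := by linarith
  simp only [om, if_pos hu', if_pos hv']
  exact mul_exp_neg_anti (by linarith) (by linarith)

lemma measurable_om : Measurable om := by
  unfold om
  exact Measurable.ite measurableSet_Ioi (by fun_prop) measurable_const

/-! ### order convexity of `{G ≥ F}` for log-linear `F` -/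

section OrderConvex

variable {G : ℝ → ℝ}

lemma midpoint_ge (h0 : ∀ s, 0 ≤ G s)
    (hpf2 : ∀ u u' d, u ≤ u' → 0 ≤ d → G u * G (u' + d) ≤ G (u + d) * G u')
    {F : ℝ → ℝ} (hFpos : ∀ x, 0 < F x)
    (hFmid : ∀ x y, F x * F y = F ((x + y) / 2) * F ((x + y) / 2))
    {u w : ℝ} (huw : u ≤ w) (hu : F u ≤ G u) (hw : F w ≤ G w) :
    F ((u + w) / 2) ≤ G ((u + w) / 2) := by
  by_contra h
  push Not at h
  have h1 : G ((u + w) / 2) * G ((u + w) / 2) < F ((u + w) / 2) * F ((u + w) / 2) :=
    mul_self_lt_mul_self (h0 _) h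
  have h2 := hpf2 u ((u + w) / 2) ((u + w) / 2 - u) (by linarith) (by linarith)
  have e1 : (u + w) / 2 + ((u + w) / 2 - u) = w := by ring
  have e2 : u + ((u + w) / 2 - u) = (u + w) / 2 := by ring
  rw [e1, e2] at h2
  have h3 : F u * F w ≤ G u * G w := mul_le_mul hu hw (hFpos w).le (h0 u)
  rw [hFmid] at h3
  linarith

lemma bisect_aux (h0 : ∀ s, 0 ≤ G s)
    (hpf2 : ∀ u u' d, u ≤ u' → 0 ≤ d → G u * G (u' + d) ≤ G (u + d) * G u')
    {F : ℝ → ℝ} (hFpos : ∀ x, 0 < F x)
    (hFmid : ∀ x y, F x * F y = F ((x + y) / 2) * F ((x + y) / 2))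
    {v ε : ℝ} (hε : 0 < ε) (hbad : ∀ x, v ≤ x → x < v + ε → G x < F x) :
    ∀ n : ℕ, ∀ u w : ℝ, u < v → v < w → F u ≤ G u → F w ≤ G w →
      w - u ≤ 2 ^ n * ε → False := by
  intro n
  induction n with
  | zero =>
    intro u w huv hvw hu hw hlen
    have hlen' : w - u ≤ ε := by simpa using hlen
    have := hbad w hvw.le (by linarith)
    linarith
  | succ n ih =>
    intro u w huv hvw hu hw hlen
    have hm := midpoint_ge h0 hpf2 hFpos hFmid (by linarith : u ≤ w) hu hw
    have hlen' : w - u ≤ 2 * (2 ^ n * ε) := by rw [pow_succ] at hlen; linarith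
    rcases lt_trichotomy ((u + w) / 2) v with h | h | h
    · exact ih ((u + w) / 2) w h hvw hm hw (by linarith)
    · have := hbad v le_rfl (by linarith)
      rw [h] at hm; linarith
    · exact ih u ((u + w) / 2) huv h hu hm (by linarith)

lemma order_convex (hanti : Antitone G) (h0 : ∀ s, 0 ≤ G s)
    (hpf2 : ∀ u u' d, u ≤ u' → 0 ≤ d → G u * G (u' + d) ≤ G (u + d) * G u')
    {F : ℝ → ℝ} (hFcont : Continuous F) (hFpos : ∀ x, 0 < F x)
    (hFmid : ∀ x y, F x * F y = F ((x + y) / 2) * F ((x + y) / 2))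
    {u v w : ℝ} (huv : u < v) (hvw : v < w) (hu : F u ≤ G u) (hw : F w ≤ G w) :
    F v ≤ G v := by
  by_contra h
  push Not at h
  have hev : ∀ᶠ x in nhds v, G v < F x := (hFcont.tendsto v).eventually (lt_mem_nhds h)
  obtain ⟨ε, hε, hball⟩ := Metric.eventually_nhds_iff.1 hev
  have hbad : ∀ x, v ≤ x → x < v + ε → G x < F x := by
    intro x hx1 hx2
    have hd : dist x v < ε := by
      rw [Real.dist_eq, abs_lt]; constructor <;> linarith
    exact lt_of_le_of_lt (hanti hx1) (hball hd)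
  obtain ⟨n, hn⟩ := pow_unbounded_of_one_lt ((w - u) / ε) (one_lt_two : (1:ℝ) < 2)
  have hlen : w - u ≤ 2 ^ n * ε := by
    have := (div_lt_iff₀ hε).1 hn
    linarith
  exact bisect_aux h0 hpf2 hFpos hFmid hε hbad n u w huv hvw hu hw hlen

end OrderConvex

/-! ### the log-linear comparison function -/

/-- log-linear comparison function `exp (-(s+t)/t)` -/
noncomputable def Fx (t s : ℝ) : ℝ := Real.exp (-(s + t) / t)

lemma Fx_pos (t s : ℝ) : 0 < Fx t s := Real.exp_pos _

lemma Fx_cont (t : ℝ) : Continuous (Fx t) := by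
  unfold Fx; fun_prop

lemma Fx_mid (t : ℝ) (x y : ℝ) :
    Fx t x * Fx t y = Fx t ((x + y) / 2) * Fx t ((x + y) / 2) := by
  unfold Fx
  rw [← Real.exp_add, ← Real.exp_add]
  congr 1
  ring

lemma min_eq_one_of_le {t s : ℝ} (ht : 0 < t) (hs : s ≤ -t) : min 1 (Fx t s) = 1 := by
  apply min_eq_left
  unfold Fx
  exact Real.one_le_exp (div_nonneg (by linarith) ht.le)

lemma min_eq_Fx_of_ge {t s : ℝ} (ht : 0 < t) (hs : -t ≤ s) : min 1 (Fx t s) = Fx t s := by
  apply min_eq_right
  unfold Fx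
  exact Real.exp_le_one_iff.2 (div_nonpos_of_nonpos_of_nonneg (by linarith) ht.le)

/-! ### integral inequalities from single crossing -/

lemma key_int {I : Set ℝ} (hI : MeasurableSet I) (Δ : ℝ → ℝ) (hΔ : IntegrableOn Δ I)
    (h0 : ∫ s in I, Δ s = 0) (c : ℝ) (hpt : ∀ s ∈ I, 0 ≤ (om s - c) * Δ s) :
    0 ≤ ∫ s in I, om s * Δ s := by
  have hint2 : IntegrableOn (fun s => om s * Δ s) I :=
    Integrable.bdd_mul (c := 1) hΔ measurable_om.aestronglyMeasurable
      (Filter.Eventually.of_forall (fun s => by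
        rw [Real.norm_eq_abs, abs_of_nonneg (om_nonneg s)]; exact om_le_one s))
  have h2 : ∫ s in I, (om s - c) * Δ s = (∫ s in I, om s * Δ s) - c * ∫ s in I, Δ s := by
    have : (fun s => (om s - c) * Δ s) = fun s => om s * Δ s - c * Δ s := by
      ext s; ring
    rw [this, integral_sub hint2 (Integrable.const_mul hΔ c), integral_const_mul]
  have h3 : 0 ≤ ∫ s in I, (om s - c) * Δ s := setIntegral_nonneg hI hpt
  rw [h2, h0] at h3
  simpa using h3

lemma left_ineq (Δ : ℝ → ℝ) (lb : ℝ) (hΔint : IntegrableOn Δ (Iic (-(1/3:ℝ))))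
    (hzero : ∫ s in Iic (-(1/3:ℝ)), Δ s = 0)
    (hlb : ∀ s, 0 < Δ s → lb ≤ s)
    (hcross : ∀ u v, u < v → v ≤ -(1/3:ℝ) → 0 < Δ u → 0 ≤ Δ v) :
    0 ≤ ∫ s in Iic (-(1/3:ℝ)), om s * Δ s := by
  set P : Set ℝ := {u | u ≤ -(1/3:ℝ) ∧ 0 < Δ u} with hP
  by_cases hne : P.Nonempty
  · have hbdd : BddBelow P := ⟨lb, fun u hu => hlb u hu.2⟩
    have hth : sInf P ≤ -(1/3:ℝ) := by
      obtain ⟨p, hp⟩ := hne
      exact le_trans (csInf_le hbdd hp) hp.1
    apply key_int measurableSet_Iic Δ hΔint hzero (om (sInf P))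
    intro s hs
    rw [mem_Iic] at hs
    rcases lt_trichotomy s (sInf P) with h | h | h
    · have hns : ¬ 0 < Δ s := fun hpos => absurd (csInf_le hbdd ⟨hs, hpos⟩) (not_le.2 h)
      exact mul_nonneg_of_nonpos_of_nonpos (sub_nonpos.2 (om_mono h.le hth)) (not_lt.1 hns)
    · rw [h]; simp
    · obtain ⟨p, hp, hps⟩ := exists_lt_of_csInf_lt hne h
      exact mul_nonneg (sub_nonneg.2 (om_mono h.le hs)) (hcross p s hps hs hp.2)
  · have hall : ∀ s, s ≤ -(1/3:ℝ) → Δ s ≤ 0 := by
      intro s hs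
      by_contra hcon
      push Not at hcon
      exact hne ⟨s, hs, hcon⟩
    apply key_int measurableSet_Iic Δ hΔint hzero 1
    intro s hs
    exact mul_nonneg_of_nonpos_of_nonpos (sub_nonpos.2 (om_le_one s)) (hall s hs)

lemma right_ineq (Δ : ℝ → ℝ) (hΔint : IntegrableOn Δ (Ioi (-(1/3:ℝ))))
    (hzero : ∫ s in Ioi (-(1/3:ℝ)), Δ s = 0)
    (hcross : ∀ u v, -(1/3:ℝ) ≤ u → u < v → 0 < Δ v → 0 ≤ Δ u) :
    0 ≤ ∫ s in Ioi (-(1/3:ℝ)), om s * Δ s := by
  set P : Set ℝ := {v | -(1/3:ℝ) < v ∧ 0 < Δ v} with hP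
  by_cases hne : P.Nonempty
  · by_cases hbdd : BddAbove P
    · have hth : -(1/3:ℝ) ≤ sSup P := by
        obtain ⟨p, hp⟩ := hne
        exact le_trans hp.1.le (le_csSup hbdd hp)
      apply key_int measurableSet_Ioi Δ hΔint hzero (om (sSup P))
      intro s hs
      rw [mem_Ioi] at hs
      rcases lt_trichotomy s (sSup P) with h | h | h
      · obtain ⟨p, hp, hps⟩ := exists_lt_of_lt_csSup hne h
        exact mul_nonneg (sub_nonneg.2 (om_anti hs.le h.le)) (hcross s p hs.le hps hp.2)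
      · rw [h]; simp
      · have hns : ¬ 0 < Δ s := fun hpos => absurd (le_csSup hbdd ⟨hs, hpos⟩) (not_le.2 h)
        exact mul_nonneg_of_nonpos_of_nonpos (sub_nonpos.2 (om_anti hth h.le)) (not_lt.1 hns)
    · apply key_int measurableSet_Ioi Δ hΔint hzero 0
      intro s hs
      rw [mem_Ioi] at hs
      obtain ⟨p, hp, hps⟩ := not_bddAbove_iff.1 hbdd s
      rw [sub_zero]
      exact mul_nonneg (om_nonneg s) (hcross s p hs.le hps hp.2)
  · have hall : ∀ s, -(1/3:ℝ) < s → Δ s ≤ 0 := by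
      intro s hs
      by_contra hcon
      push Not at hcon
      exact hne ⟨s, hs, hcon⟩
    apply key_int measurableSet_Ioi Δ hΔint hzero 1
    intro s hs
    exact mul_nonneg_of_nonpos_of_nonpos (sub_nonpos.2 (om_le_one s)) (hall s hs)

/-! ### the core comparison lemma -/

/-- **Sign-pattern core.** If `G` is antitone, `[0,1]`-valued and four-point log-concave, and
`G - E_t` integrates to zero on both sides of `-1/3` (with `t > 1/3`), then `∫ ω (G - E_t) ≥ 0`. -/
theorem core (G : ℝ → ℝ) (t : ℝ) (ht : 1/3 < t) (hanti : Antitone G) (h0 : ∀ s, 0 ≤ G s)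
    (h1 : ∀ s, G s ≤ 1)
    (hpf2 : ∀ u u' d, u ≤ u' → 0 ≤ d → G u * G (u' + d) ≤ G (u + d) * G u')
    (hint : Integrable (fun s => G s - min 1 (Real.exp (-(s + t) / t))))
    (hL : ∫ s in Iic (-(1/3:ℝ)), (G s - min 1 (Real.exp (-(s + t) / t))) = 0)
    (hR : ∫ s in Ioi (-(1/3:ℝ)), (G s - min 1 (Real.exp (-(s + t) / t))) = 0) :
    0 ≤ ∫ s, (if -(4/3:ℝ) < s then (s + 4/3) * Real.exp (-(s + 4/3)) else 0) *
        (G s - min 1 (Real.exp (-(s + t) / t))) := by
  have ht0 : 0 < t := by linarith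
  set Δ : ℝ → ℝ := fun s => G s - min 1 (Fx t s) with hΔ
  change Integrable Δ at hint
  change ∫ s in Iic (-(1/3:ℝ)), Δ s = 0 at hL
  change ∫ s in Ioi (-(1/3:ℝ)), Δ s = 0 at hR
  change 0 ≤ ∫ s, om s * Δ s
  -- basic facts on Δ
  have hΔ_le : ∀ s, s ≤ -t → Δ s ≤ 0 := by
    intro s hs
    simp only [hΔ, min_eq_one_of_le ht0 hs]
    linarith [h1 s]
  have hΔ_eq : ∀ s, -t ≤ s → Δ s = G s - Fx t s := by
    intro s hs
    simp only [hΔ, min_eq_Fx_of_ge ht0 hs]
  have hpos_gt : ∀ s, 0 < Δ s → -t < s := by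
    intro s hs
    by_contra h
    push Not at h
    linarith [hΔ_le s h]
  have hOC : ∀ u v w, u < v → v < w → -t ≤ u → 0 ≤ Δ u → 0 ≤ Δ w → 0 ≤ Δ v := by
    intro u v w huv hvw hu hΔu hΔw
    rw [hΔ_eq u hu] at hΔu
    rw [hΔ_eq w (by linarith)] at hΔw
    rw [hΔ_eq v (by linarith)]
    have := order_convex hanti h0 hpf2 (Fx_cont t) (Fx_pos t) (Fx_mid t) huv hvw
      (by linarith) (by linarith)
    linarith
  -- left sign pattern
  have hLcross : ∀ u v, u < v → v ≤ -(1/3:ℝ) → 0 < Δ u → 0 ≤ Δ v := by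
    intro u v huv hv hu
    by_contra hneg
    push Not at hneg
    have hu' := hpos_gt u hu
    have hall : ∀ w, v < w → Δ w < 0 := by
      intro w hw
      by_contra hcon
      push Not at hcon
      linarith [hOC u v w huv hw hu'.le hu.le hcon]
    have hpos : 0 < ∫ s in Ioi (-(1/3:ℝ)), -Δ s := by
      rw [setIntegral_pos_iff_support_of_nonneg_ae]
      · have hsupp : Function.support (fun s => -Δ s) ∩ Ioi (-(1/3:ℝ)) = Ioi (-(1/3:ℝ)) := by
          ext s
          simp only [mem_inter_iff, Function.mem_support, mem_Ioi]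
          constructor
          · exact fun h => h.2
          · intro hs
            have := hall s (lt_of_le_of_lt hv hs)
            exact ⟨by linarith, hs⟩
        rw [hsupp]; simp
      · exact (ae_restrict_iff' measurableSet_Ioi).2 (Filter.Eventually.of_forall (fun s hs => by
          have := hall s (lt_of_le_of_lt hv hs)
          simp only [Pi.zero_apply]; linarith))
      · exact hint.integrableOn.neg
    rw [integral_neg, hR] at hpos
    simp at hpos
  -- right sign pattern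
  have hRcross : ∀ u v, -(1/3:ℝ) ≤ u → u < v → 0 < Δ v → 0 ≤ Δ u := by
    intro u v hu huv hv
    by_contra hneg
    push Not at hneg
    have hbelow : ∀ x, -t ≤ x → x < u → Δ x < 0 := by
      intro x hx hxu
      by_contra hcon
      push Not at hcon
      linarith [hOC x u v hxu huv hx hcon hv.le]
    have hle : ∀ x, x ≤ -(1/3:ℝ) → Δ x ≤ 0 := by
      intro x hx
      rcases lt_or_ge x (-t) with h | h
      · exact hΔ_le x h.le
      · rcases lt_or_eq_of_le (le_trans hx hu) with h' | h'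
        · exact (hbelow x h h').le
        · rw [h']; exact hneg.le
    have hpos : 0 < ∫ s in Iic (-(1/3:ℝ)), -Δ s := by
      rw [setIntegral_pos_iff_support_of_nonneg_ae]
      · have hsub : Ioo (-t) (-(1/3:ℝ)) ⊆
            Function.support (fun s => -Δ s) ∩ Iic (-(1/3:ℝ)) := by
          intro s hs
          refine ⟨?_, hs.2.le⟩
          have := hbelow s hs.1.le (lt_of_lt_of_le hs.2 hu)
          simp only [Function.mem_support]
          intro h0'
          linarith
        refine lt_of_lt_of_le ?_ (measure_mono hsub)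
        rw [Real.volume_Ioo]
        simp only [ENNReal.ofReal_pos]
        linarith
      · exact (ae_restrict_iff' measurableSet_Iic).2 (Filter.Eventually.of_forall (fun s hs => by
          have := hle s hs
          simp only [Pi.zero_apply]; linarith))
      · exact hint.integrableOn.neg
    rw [integral_neg, hL] at hpos
    simp at hpos
  have hA := left_ineq Δ (-t) hint.integrableOn hL (fun s hs => (hpos_gt s hs).le) hLcross
  have hB := right_ineq Δ hint.integrableOn hR hRcross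
  have hωΔ : Integrable (fun s => om s * Δ s) :=
    Integrable.bdd_mul (c := 1) hint measurable_om.aestronglyMeasurable
      (Filter.Eventually.of_forall (fun s => by
        rw [Real.norm_eq_abs, abs_of_nonneg (om_nonneg s)]; exact om_le_one s))
  have hsplit := integral_add_compl (measurableSet_Iic (a := -(1/3:ℝ))) hωΔ
  rw [compl_Iic] at hsplit
  linarith

/-- The same statement in the vocabulary of `Crest.Agent.Lib.S0423.Defs`. -/
theorem core_defs {G : ℝ → ℝ} {t : ℝ} (ht : 1/3 < t) (hG : IsTail G) (hpf : PF2 G)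
    (hint : Integrable (fun s => G s - expTail t s))
    (hL : ∫ s in Iic (-(1/3:ℝ)), (G s - expTail t s) = 0)
    (hR : ∫ s in Ioi (-(1/3:ℝ)), (G s - expTail t s) = 0) :
    0 ≤ ∫ s, omega s * (G s - expTail t s) :=
  core G t ht hG.1 hG.2.1 hG.2.2 hpf hint hL hR

/-- Consequence: `∫ ω E_t ≤ ∫ ω G`, given integrability of the two products. -/
theorem core_le {G : ℝ → ℝ} {t : ℝ} (ht : 1/3 < t) (hG : IsTail G) (hpf : PF2 G)
    (hint : Integrable (fun s => G s - expTail t s))
    (hL : ∫ s in Iic (-(1/3:ℝ)), (G s - expTail t s) = 0)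
    (hR : ∫ s in Ioi (-(1/3:ℝ)), (G s - expTail t s) = 0)
    (hωG : Integrable (fun s => omega s * G s))
    (hωE : Integrable (fun s => omega s * expTail t s)) :
    ∫ s, omega s * expTail t s ≤ ∫ s, omega s * G s := by
  have h := core_defs ht hG hpf hint hL hR
  have e : (fun s => omega s * (G s - expTail t s))
      = fun s => omega s * G s - omega s * expTail t s := by
    ext s; ring
  rw [e, integral_sub hωG hωE] at h
  linarith

end Crest.Agent.S0423.Helper38
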