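import Mathlib
import Crest.Agent.Lib.S0423.Defs

/-!
Package P1 of the S0423 team (helper41): Fubini recursion for the `N`-dimensional integral
`J N a F = E[F(∑ a_i X_i)]` (i.i.d. mean-one exponential variables) of `Defs.lean`, integrating
out the coordinate `0`, and the resulting recursion for the tail functions `tailN`.

Interface theorems: `J_zero`, `J_succ`, `J_integrable`, `J_one`, `tailN_zero`, `tailN_succ`,
`measurable_tailN`.  Auxiliary lemmas carry the seat tag `h41_`.
-/

set_option autoImplicit false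

open MeasureTheory Set

namespace Crest.Agent.S0423

/-- Lebesgue measure restricted to the positive half line. -/
noncomputable abbrev h41_posMeas : Measure ℝ := volume.restrict (Ioi (0 : ℝ))

lemma h41_restrict_pi_Ioi (n : ℕ) :
    (volume : Measure (Fin n → ℝ)).restrict (Set.pi Set.univ (fun _ : Fin n => Set.Ioi (0 : ℝ)))
      = Measure.pi (fun _ : Fin n => h41_posMeas) := by
  rw [volume_pi]
  exact Measure.restrict_pi_pi _ _

/-- `J` as an integral against the product of the restricted measures. -/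
lemma h41_J_eq (n : ℕ) (a : Fin n → ℝ) (F : ℝ → ℝ) :
    J n a F = ∫ x, F (∑ i, a i * x i) * Real.exp (-∑ i, x i)
      ∂(Measure.pi (fun _ : Fin n => h41_posMeas)) := by
  unfold J
  rw [h41_restrict_pi_Ioi]

lemma h41_exp_neg_sum_eq_prod {n : ℕ} (x : Fin n → ℝ) :
    Real.exp (-∑ i, x i) = ∏ i, Real.exp (-(x i)) := by
  rw [← Real.exp_sum, Finset.sum_neg_distrib]

lemma h41_integrable_exp_neg_posMeas : Integrable (fun t : ℝ => Real.exp (-t)) h41_posMeas :=
  integrableOn_exp_neg_Ioi 0

lemma h41_integrable_weight (n : ℕ) :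
    Integrable (fun x : Fin n → ℝ => Real.exp (-∑ i, x i))
      (Measure.pi (fun _ : Fin n => h41_posMeas)) := by
  simp_rw [h41_exp_neg_sum_eq_prod]
  exact Integrable.fintype_prod (f := fun _ t => Real.exp (-t))
    (fun _ => h41_integrable_exp_neg_posMeas)

lemma h41_integral_weight (n : ℕ) :
    ∫ x : Fin n → ℝ, Real.exp (-∑ i, x i) ∂(Measure.pi (fun _ : Fin n => h41_posMeas)) = 1 := by
  simp_rw [h41_exp_neg_sum_eq_prod]
  rw [integral_fintype_prod_eq_prod (fun _ t => Real.exp (-t))]
  have h : ∫ t, Real.exp (-t) ∂h41_posMeas = 1 := integral_exp_neg_Ioi_zero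
  simp only [h, Finset.prod_const_one]

lemma h41_measurable_lin {n : ℕ} (a : Fin n → ℝ) :
    Measurable (fun x : Fin n → ℝ => ∑ i, a i * x i) := by
  fun_prop

/-- Integrability of the integrand for a bounded measurable `F` (product-measure form). -/
lemma h41_integrable_integrand (n : ℕ) (a : Fin n → ℝ) {F : ℝ → ℝ} (hF : Measurable F)
    (hb : ∃ C, ∀ y, |F y| ≤ C) :
    Integrable (fun x : Fin n → ℝ => F (∑ i, a i * x i) * Real.exp (-∑ i, x i))
      (Measure.pi (fun _ : Fin n => h41_posMeas)) := by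
  obtain ⟨C, hC⟩ := hb
  refine Integrable.bdd_mul (c := C) (h41_integrable_weight n) ?_ ?_
  · exact (hF.comp (h41_measurable_lin a)).aestronglyMeasurable
  · exact Filter.Eventually.of_forall fun x => by simpa using hC _

/-- Splitting off the coordinate `0`: the integral over `(0,∞)^(n+1)` as an integral over the
product `(0,∞) × (0,∞)^n`. -/
lemma h41_J_succ_prod (n : ℕ) (a : Fin (n + 1) → ℝ) (F : ℝ → ℝ) :
    J (n + 1) a F = ∫ p : ℝ × (Fin n → ℝ),
      F (a 0 * p.1 + ∑ i, a i.succ * p.2 i) * (Real.exp (-p.1) * Real.exp (-∑ i, p.2 i))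
      ∂(h41_posMeas.prod (Measure.pi (fun _ : Fin n => h41_posMeas))) := by
  rw [h41_J_eq, ← ((measurePreserving_piFinSuccAbove (fun _ : Fin (n + 1) => h41_posMeas)
    0).symm).integral_comp']
  simp only [MeasurableEquiv.piFinSuccAbove_symm_apply, Fin.insertNthEquiv, Fin.sum_univ_succ,
    Fin.insertNth_zero, Equiv.coe_fn_mk, Fin.cons_succ, Fin.zero_succAbove, Fin.cons_zero,
    neg_add, Real.exp_add, cast_eq]

lemma h41_integrable_integrand_prod (n : ℕ) (a : Fin (n + 1) → ℝ) {F : ℝ → ℝ}
    (hF : Measurable F) (hb : ∃ C, ∀ y, |F y| ≤ C) :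
    Integrable (fun p : ℝ × (Fin n → ℝ) =>
      F (a 0 * p.1 + ∑ i, a i.succ * p.2 i) * (Real.exp (-p.1) * Real.exp (-∑ i, p.2 i)))
      (h41_posMeas.prod (Measure.pi (fun _ : Fin n => h41_posMeas))) := by
  have h := h41_integrable_integrand (n + 1) a hF hb
  have mp := (measurePreserving_piFinSuccAbove (fun _ : Fin (n + 1) => h41_posMeas) 0).symm
  rw [← mp.integrable_comp_emb (MeasurableEquiv.measurableEmbedding _)] at h
  simp only [Function.comp_def, MeasurableEquiv.piFinSuccAbove_symm_apply, Fin.insertNthEquiv,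
    Fin.sum_univ_succ, Fin.insertNth_zero, Equiv.coe_fn_mk, Fin.cons_succ, Fin.zero_succAbove,
    Fin.cons_zero, neg_add, Real.exp_add, cast_eq] at h
  exact h

/-- Fubini recursion, coordinate `0` innermost (product-measure form). -/
lemma h41_J_succ_inner (n : ℕ) (a : Fin (n + 1) → ℝ) {F : ℝ → ℝ} (hF : Measurable F)
    (hb : ∃ C, ∀ y, |F y| ≤ C) :
    J (n + 1) a F = ∫ y : Fin n → ℝ,
      (∫ t in Ioi (0 : ℝ), F (a 0 * t + ∑ i, a i.succ * y i) * Real.exp (-t)) *
        Real.exp (-∑ i, y i) ∂(Measure.pi (fun _ : Fin n => h41_posMeas)) := by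
  rw [h41_J_succ_prod, integral_prod_symm _ (h41_integrable_integrand_prod n a hF hb)]
  refine integral_congr_ae (Filter.Eventually.of_forall fun y => ?_)
  simp only
  rw [← integral_mul_const]
  refine integral_congr_ae (Filter.Eventually.of_forall fun t => ?_)
  simp only
  ring

/-! ### Interface theorems of package P1 -/

/-- The empty product: `J 0 a F = F 0`. -/
theorem J_zero (a : Fin 0 → ℝ) (F : ℝ → ℝ) : J 0 a F = F 0 := by
  rw [h41_J_eq, Measure.pi_of_empty (x := fun i : Fin 0 => i.elim0), integral_dirac]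
  simp

/-- Fubini recursion, coordinate `0` outermost. -/
theorem J_succ (n : ℕ) (a : Fin (n + 1) → ℝ) (F : ℝ → ℝ) (hF : Measurable F)
    (hb : ∃ C, ∀ w, |F w| ≤ C) :
    J (n + 1) a F = ∫ t in Set.Ioi (0 : ℝ),
      J n (Fin.tail a) (fun w => F (a 0 * t + w)) * Real.exp (-t) := by
  rw [h41_J_succ_prod, integral_prod _ (h41_integrable_integrand_prod n a hF hb)]
  refine integral_congr_ae (Filter.Eventually.of_forall fun t => ?_)
  simp only [h41_J_eq]
  rw [← integral_mul_const]
  refine integral_congr_ae (Filter.Eventually.of_forall fun y => ?_)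
  simp only [Fin.tail]
  ring

/-- Integrability of the integrand of `J` for a bounded measurable `F`. -/
theorem J_integrable (N : ℕ) (a : Fin N → ℝ) (F : ℝ → ℝ) (hF : Measurable F)
    (hb : ∃ C, ∀ w, |F w| ≤ C) :
    MeasureTheory.IntegrableOn
      (fun x : Fin N → ℝ => F (∑ i, a i * x i) * Real.exp (-∑ i, x i))
      (Set.pi Set.univ fun _ => Set.Ioi 0) := by
  unfold IntegrableOn
  rw [h41_restrict_pi_Ioi]
  exact h41_integrable_integrand N a hF hb

/-- Total mass one. -/
theorem J_one (N : ℕ) (a : Fin N → ℝ) : J N a (fun _ => 1) = 1 := by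
  rw [h41_J_eq]
  simp only [one_mul]
  exact h41_integral_weight N

theorem tailN_zero (a : Fin 0 → ℝ) : tailN 0 a = tail0 := by
  funext s
  unfold tailN tail0
  rw [J_zero]

lemma h41_measurable_ind (s : ℝ) : Measurable (fun w : ℝ => if s < w then (1 : ℝ) else 0) :=
  Measurable.ite measurableSet_Ioi measurable_const measurable_const

lemma h41_ind_bdd (s : ℝ) : ∃ C, ∀ w : ℝ, |(if s < w then (1 : ℝ) else 0)| ≤ C :=
  ⟨1, fun w => by split_ifs <;> simp⟩

theorem tailN_succ (n : ℕ) (a : Fin (n + 1) → ℝ) :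
    tailN (n + 1) a = tailStep (a 0) (tailN n (Fin.tail a)) := by
  funext s
  unfold tailStep tailN
  rw [J_succ n a _ (h41_measurable_ind s) (h41_ind_bdd s)]
  refine integral_congr_ae (Filter.Eventually.of_forall fun t => ?_)
  simp only [sub_lt_iff_lt_add']

theorem measurable_tailN (N : ℕ) (a : Fin N → ℝ) : Measurable (tailN N a) := by
  have h : tailN N a = fun s => ∫ x, (if s < ∑ i, a i * x i then (1 : ℝ) else 0) *
      Real.exp (-∑ i, x i) ∂(Measure.pi (fun _ : Fin N => h41_posMeas)) := by
    funext s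
    unfold tailN
    rw [h41_J_eq]
  rw [h]
  have hm : Measurable (fun p : ℝ × (Fin N → ℝ) =>
      (if p.1 < ∑ i, a i * p.2 i then (1 : ℝ) else 0) * Real.exp (-∑ i, p.2 i)) := by
    refine Measurable.mul ?_ (by fun_prop)
    refine Measurable.ite ?_ measurable_const measurable_const
    exact measurableSet_lt measurable_fst (by fun_prop)
  exact (hm.stronglyMeasurable.integral_prod_right (ν := Measure.pi (fun _ : Fin N => h41_posMeas))).measurable

end Crest.Agent.S0423
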