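import Mathlib
import Crest.Agent.Lib.S0423.Defs
import Crest.Agent.Lib.S0423.Helper41Fubini

/-!
Package P10 of the S0423 team (helper41): the bound is approached within `ε`
(interface theorem `approach`); auxiliary lemmas carry the seat tag `h41_`.

Weights `a = (2, -2/n, ..., -2/n)`: the coordinate with weight `2` is integrated exactly, the
remaining coordinates give a product of one-dimensional exponential integrals.

Key one-dimensional fact: for every real `z`,
`∫_0^∞ g(z + 2t) e^{-t} dt ≥ 1 - (4/9) e^{z/2}` where `g = truncExpWeight`.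
-/

set_option autoImplicit false

open MeasureTheory Set Filter Topology

namespace Crest.Agent.S0423

open Crest.AlgGeometry (truncExpWeight)

lemma h41_g_of_nonpos {y : ℝ} (hy : y ≤ 0) : truncExpWeight y = 1 := by
  simp [truncExpWeight, hy]

lemma h41_g_of_pos {y : ℝ} (hy : 0 < y) : truncExpWeight y = (1 + y) * Real.exp (-y) := by
  simp [truncExpWeight, not_le.mpr hy]

lemma h41_one_add_mul_exp_neg_le_one (y : ℝ) : (1 + y) * Real.exp (-y) ≤ 1 := by
  have h1 : 1 + y ≤ Real.exp y := by linarith [Real.add_one_le_exp y]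
  have h2 : (1 + y) * Real.exp (-y) ≤ Real.exp y * Real.exp (-y) :=
    mul_le_mul_of_nonneg_right h1 (Real.exp_pos _).le
  rwa [← Real.exp_add, add_neg_cancel, Real.exp_zero] at h2

lemma h41_g_le_one (y : ℝ) : truncExpWeight y ≤ 1 := by
  rcases le_or_gt y 0 with hy | hy
  · rw [h41_g_of_nonpos hy]
  · rw [h41_g_of_pos hy]; exact h41_one_add_mul_exp_neg_le_one y

lemma h41_g_nonneg (y : ℝ) : 0 ≤ truncExpWeight y := by
  rcases le_or_gt y 0 with hy | hy
  · rw [h41_g_of_nonpos hy]; norm_num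
  · rw [h41_g_of_pos hy]; have := Real.exp_pos (-y); positivity

lemma h41_measurable_g : Measurable truncExpWeight := by
  unfold truncExpWeight
  exact Measurable.ite measurableSet_Iic measurable_const (by fun_prop)

lemma h41_g_abs_le_one (y : ℝ) : |truncExpWeight y| ≤ 1 := by
  rw [abs_of_nonneg (h41_g_nonneg y)]; exact h41_g_le_one y

/-- The primitive used for the one-dimensional computation. -/
noncomputable def h41_primB (z t : ℝ) : ℝ :=
  -Real.exp (-t) + Real.exp (-z - 3 * t) * ((1 + z + 2 * t) / 3 + 2 / 9)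

lemma h41_hasDerivAt_primB (z t : ℝ) :
    HasDerivAt (h41_primB z) ((1 - (1 + (z + 2 * t)) * Real.exp (-(z + 2 * t))) * Real.exp (-t)) t := by
  have h1 : HasDerivAt (fun t : ℝ => Real.exp (-t)) (Real.exp (-t) * (-1)) t :=
    (hasDerivAt_neg t).exp
  have h2 : HasDerivAt (fun t : ℝ => -z - 3 * t) (-3) t := by
    have := ((hasDerivAt_id t).const_mul (3 : ℝ)).const_sub (-z)
    simpa using this
  have h3 : HasDerivAt (fun t : ℝ => Real.exp (-z - 3 * t)) (Real.exp (-z - 3 * t) * (-3)) t :=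
    h2.exp
  have h4 : HasDerivAt (fun t : ℝ => (1 + z + 2 * t) / 3 + 2 / 9) (2 / 3) t := by
    have := ((((hasDerivAt_id t).const_mul (2 : ℝ)).const_add (1 + z)).div_const 3).add_const
      (2 / 9 : ℝ)
    simpa using this
  have h5 : HasDerivAt (fun t : ℝ => -Real.exp (-t) +
      Real.exp (-z - 3 * t) * ((1 + z + 2 * t) / 3 + 2 / 9))
      (-(Real.exp (-t) * -1) + (Real.exp (-z - 3 * t) * -3 * ((1 + z + 2 * t) / 3 + 2 / 9) +
        Real.exp (-z - 3 * t) * (2 / 3))) t := h1.neg.add (h3.mul h4)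
  have e : Real.exp (-(z + 2 * t)) * Real.exp (-t) = Real.exp (-z - 3 * t) := by
    rw [← Real.exp_add]; ring_nf
  refine h5.congr_deriv ?_
  linear_combination (1 + (z + 2 * t)) * e

lemma h41_tendsto_primB (z : ℝ) : Tendsto (h41_primB z) atTop (𝓝 0) := by
  have h1 : Tendsto (fun t : ℝ => Real.exp (-t)) atTop (𝓝 0) := Real.tendsto_exp_neg_atTop_nhds_zero
  have h3 : Tendsto (fun t : ℝ => 3 * t) atTop atTop :=
    tendsto_id.const_mul_atTop (by norm_num : (0 : ℝ) < 3)
  have h2 : Tendsto (fun t : ℝ => Real.exp (-(3 * t))) atTop (𝓝 0) :=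
    Real.tendsto_exp_neg_atTop_nhds_zero.comp h3
  have h4 : Tendsto (fun t : ℝ => (3 * t) ^ 1 * Real.exp (-(3 * t))) atTop (𝓝 0) :=
    (Real.tendsto_pow_mul_exp_neg_atTop_nhds_zero 1).comp h3
  have h5 : Tendsto (fun t : ℝ => -Real.exp (-t) +
      (Real.exp (-z) * ((1 + z) / 3 + 2 / 9) * Real.exp (-(3 * t)) +
        Real.exp (-z) * (2 / 9) * ((3 * t) ^ 1 * Real.exp (-(3 * t))))) atTop (𝓝 0) := by
    have := h1.neg.add ((h2.const_mul (Real.exp (-z) * ((1 + z) / 3 + 2 / 9))).add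
      (h4.const_mul (Real.exp (-z) * (2 / 9))))
    simpa using this
  refine h5.congr (fun t => ?_)
  unfold h41_primB
  have e : Real.exp (-z - 3 * t) = Real.exp (-z) * Real.exp (-(3 * t)) := by
    rw [← Real.exp_add]; ring_nf
  rw [e]
  ring

/-- The real inequality behind the case `z ≥ 0`. -/
lemma h41_key_real_ineq {z : ℝ} (hz : 0 ≤ z) :
    1 - Real.exp (-z) * ((1 + z) / 3 + 2 / 9) ≤ 4 / 9 * Real.exp (z / 2) := by
  set q := Real.exp (z / 2) with hq
  have hq1 : 1 ≤ q := by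
    rw [hq]; exact Real.one_le_exp (by linarith)
  have hqpos : 0 < q := by linarith
  have hlog : 2 * (q - 1) / ((q - 1) + 2) ≤ Real.log (1 + (q - 1)) :=
    Real.le_log_one_add_of_nonneg (by linarith)
  have hlog' : Real.log (1 + (q - 1)) = z / 2 := by
    rw [show 1 + (q - 1) = q by ring, hq, Real.log_exp]
  rw [hlog'] at hlog
  have h1 : 2 * (q - 1) ≤ z / 2 * (q + 1) := by
    rw [div_le_iff₀ (by linarith)] at hlog
    linarith
  have hq2 : q ^ 2 = Real.exp z := by
    rw [hq, ← Real.exp_nat_mul]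
    congr 1
    push_cast
    ring
  have hexp : Real.exp (-z) = 1 / q ^ 2 := by
    rw [Real.exp_neg, hq2, one_div]
  rw [hexp]
  rw [show (1 : ℝ) - 1 / q ^ 2 * ((1 + z) / 3 + 2 / 9) = (9 * q ^ 2 - 5 - 3 * z) / (9 * q ^ 2) by
    field_simp; ring]
  rw [div_le_iff₀ (by positivity)]
  have h2 : 0 ≤ (q - 1) ^ 3 * (4 * q + 7) := by
    have : 0 ≤ q - 1 := by linarith
    positivity
  nlinarith [h1, h2, mul_nonneg (by linarith : (0:ℝ) ≤ q - 1) (by linarith : (0:ℝ) ≤ q + 1)]

lemma h41_psi_measurable : Measurable psi := by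
  unfold psi
  exact h41_measurable_g.comp (by fun_prop)

lemma h41_psi_bdd : ∃ C, ∀ w, |psi w| ≤ C := ⟨1, fun _ => h41_g_abs_le_one _⟩

/-- One-dimensional computation: `∫_0^∞ (1 - g(z + 2t)) e^{-t} dt ≤ (4/9) e^{z/2}`. -/
lemma h41_integral_one_sub_g_le (z : ℝ) :
    ∫ t in Ioi (0 : ℝ), (1 - truncExpWeight (z + 2 * t)) * Real.exp (-t)
      ≤ 4 / 9 * Real.exp (z / 2) := by
  set m : ℝ := max 0 (-z / 2) with hm
  have hm0 : 0 ≤ m := le_max_left _ _
  have hmz : 0 ≤ z + 2 * m := by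
    have : -z / 2 ≤ m := le_max_right _ _
    linarith
  have h1 : ∫ t in Ioi (0 : ℝ), (1 - truncExpWeight (z + 2 * t)) * Real.exp (-t)
      = ∫ t in Ioi m, (1 - truncExpWeight (z + 2 * t)) * Real.exp (-t) := by
    refine setIntegral_eq_of_subset_of_forall_sdiff_eq_zero measurableSet_Ioi
      (Ioi_subset_Ioi hm0) ?_
    intro t ht
    obtain ⟨ht0, htm⟩ := ht
    simp only [mem_Ioi, not_lt] at ht0 htm
    have hmz' : m = -z / 2 := by
      rcases max_choice 0 (-z / 2) with h | h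
      · rw [hm, h] at htm; linarith
      · rw [hm, h]
    have : z + 2 * t ≤ 0 := by rw [hmz'] at htm; linarith
    rw [h41_g_of_nonpos this]; ring
  have h2 : ∫ t in Ioi m, (1 - truncExpWeight (z + 2 * t)) * Real.exp (-t)
      = ∫ t in Ioi m, (1 - (1 + (z + 2 * t)) * Real.exp (-(z + 2 * t))) * Real.exp (-t) := by
    refine setIntegral_congr_fun measurableSet_Ioi (fun t ht => ?_)
    have : 0 < z + 2 * t := by
      have : m < t := ht
      linarith
    simp only [h41_g_of_pos this]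
  have h3 : ∫ t in Ioi m, (1 - (1 + (z + 2 * t)) * Real.exp (-(z + 2 * t))) * Real.exp (-t)
      = 0 - h41_primB z m := by
    refine integral_Ioi_of_hasDerivAt_of_nonneg' (fun t _ => h41_hasDerivAt_primB z t)
      (fun t _ => ?_) (h41_tendsto_primB z)
    have := h41_one_add_mul_exp_neg_le_one (z + 2 * t)
    have h' := Real.exp_pos (-t)
    exact mul_nonneg (by linarith) h'.le
  rw [h1, h2, h3]
  unfold h41_primB
  rcases lt_or_ge z 0 with hz | hz
  · have hmz' : m = -z / 2 := by rw [hm]; exact max_eq_right (by linarith)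
    rw [hmz']
    have e1 : Real.exp (-(-z / 2)) = Real.exp (z / 2) := by congr 1; ring
    have e2 : Real.exp (-z - 3 * (-z / 2)) = Real.exp (z / 2) := by congr 1; ring
    rw [e1, e2]
    have : (1 + z + 2 * (-z / 2)) = 1 := by ring
    rw [this]
    apply le_of_eq; ring
  · have hmz' : m = 0 := by rw [hm]; exact max_eq_left (by linarith)
    rw [hmz']
    have := h41_key_real_ineq hz
    simp only [mul_zero, sub_zero, neg_zero, Real.exp_zero, add_zero]
    linarith

/-- One-dimensional computation: `∫_0^∞ g(z + 2t) e^{-t} dt ≥ 1 - (4/9) e^{z/2}`. -/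
lemma h41_integral_g_ge (z : ℝ) :
    1 - 4 / 9 * Real.exp (z / 2)
      ≤ ∫ t in Ioi (0 : ℝ), truncExpWeight (z + 2 * t) * Real.exp (-t) := by
  have hi1 : IntegrableOn (fun t : ℝ => Real.exp (-t)) (Ioi 0) := integrableOn_exp_neg_Ioi 0
  have hi2 : IntegrableOn (fun t : ℝ => (1 - truncExpWeight (z + 2 * t)) * Real.exp (-t))
      (Ioi 0) := by
    refine Integrable.bdd_mul (c := 1) hi1 ?_ ?_
    · exact (measurable_const.sub (h41_measurable_g.comp (by fun_prop))).aestronglyMeasurable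
    · refine Filter.Eventually.of_forall fun t => ?_
      rw [Real.norm_eq_abs, abs_le]
      constructor <;> linarith [h41_g_nonneg (z + 2 * t), h41_g_le_one (z + 2 * t)]
  have h : ∫ t in Ioi (0 : ℝ), truncExpWeight (z + 2 * t) * Real.exp (-t)
      = (∫ t in Ioi (0 : ℝ), Real.exp (-t))
        - ∫ t in Ioi (0 : ℝ), (1 - truncExpWeight (z + 2 * t)) * Real.exp (-t) := by
    rw [← integral_sub hi1 hi2]
    refine integral_congr_ae (Filter.Eventually.of_forall fun t => ?_)
    simp only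
    ring
  rw [h, integral_exp_neg_Ioi_zero]
  linarith [h41_integral_one_sub_g_le z]

/-- The near-extremal weights `(2, -2/n, ..., -2/n)`. -/
noncomputable def h41_wt (n : ℕ) : Fin (n + 1) → ℝ := Fin.cons 2 (fun _ => -(2 / (n : ℝ)))

lemma h41_wt_zero (n : ℕ) : h41_wt n 0 = 2 := by simp [h41_wt]

lemma h41_wt_succ (n : ℕ) (i : Fin n) : h41_wt n i.succ = -(2 / (n : ℝ)) := by simp [h41_wt]

lemma h41_wt_sum (n : ℕ) (hn : n ≠ 0) : ∑ i, h41_wt n i = 0 := by
  rw [Fin.sum_univ_succ]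
  simp only [h41_wt_zero, h41_wt_succ, Finset.sum_const, Finset.card_univ, Fintype.card_fin,
    nsmul_eq_mul]
  have : (n : ℝ) ≠ 0 := Nat.cast_ne_zero.mpr hn
  field_simp
  ring

/-- Lower bound for the near-extremal weights. -/
lemma h41_J_wt_ge (n : ℕ) :
    1 - 4 / 9 * Real.exp (2 / 3) * (1 / (1 + 1 / (n : ℝ))) ^ n ≤ J (n + 1) (h41_wt n) psi := by
  rw [h41_J_succ_inner n (h41_wt n) h41_psi_measurable h41_psi_bdd]
  simp only [h41_wt_zero, h41_wt_succ]
  set c : ℝ := 1 + 1 / (n : ℝ) with hc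
  have hcpos : 0 < c := by positivity
  have hprod_int : Integrable (fun y : Fin n → ℝ => ∏ i, Real.exp (-c * y i))
      (Measure.pi (fun _ : Fin n => h41_posMeas)) :=
    Integrable.fintype_prod (f := fun _ t => Real.exp (-c * t))
      (fun _ => integrableOn_exp_mul_Ioi (by linarith) 0)
  have hlow_int : Integrable (fun y : Fin n → ℝ => Real.exp (-∑ i, y i)
      - 4 / 9 * Real.exp (2 / 3) * ∏ i, Real.exp (-c * y i))
      (Measure.pi (fun _ : Fin n => h41_posMeas)) :=
    (h41_integrable_weight n).sub (hprod_int.const_mul _)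
  have hlow_val : ∫ y : Fin n → ℝ, (Real.exp (-∑ i, y i)
      - 4 / 9 * Real.exp (2 / 3) * ∏ i, Real.exp (-c * y i))
      ∂(Measure.pi (fun _ : Fin n => h41_posMeas))
      = 1 - 4 / 9 * Real.exp (2 / 3) * (1 / c) ^ n := by
    rw [integral_sub (h41_integrable_weight n) (hprod_int.const_mul _), h41_integral_weight,
      integral_const_mul, integral_fintype_prod_eq_prod (fun _ t => Real.exp (-c * t))]
    have h : ∫ t, Real.exp (-c * t) ∂h41_posMeas = 1 / c := by
      have := integral_exp_mul_Ioi (a := -c) (by linarith) 0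
      rw [this]
      simp only [mul_zero, Real.exp_zero]
      field_simp
    simp only [h, Finset.prod_const, Finset.card_univ, Fintype.card_fin]
  rw [← hlow_val]
  refine integral_mono hlow_int ?_ (fun y => ?_)
  · have h := (h41_integrable_integrand_prod n (h41_wt n) h41_psi_measurable
      h41_psi_bdd).integral_prod_right
    simp only [h41_wt_zero, h41_wt_succ] at h
    refine h.congr (Filter.Eventually.of_forall fun y => ?_)
    simp only
    rw [← integral_mul_const]
    refine integral_congr_ae (Filter.Eventually.of_forall fun t => ?_)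
    simp only
    ring
  · simp only
    have h := h41_integral_g_ge (4 / 3 + ∑ i, -(2 / (n : ℝ)) * y i)
    have e : ∀ t : ℝ, psi (2 * t + ∑ i, -(2 / (n : ℝ)) * y i)
        = truncExpWeight (4 / 3 + ∑ i, -(2 / (n : ℝ)) * y i + 2 * t) := by
      intro t
      unfold psi
      congr 1
      ring
    simp only [e]
    have e2 : Real.exp ((4 / 3 + ∑ i, -(2 / (n : ℝ)) * y i) / 2) * Real.exp (-∑ i, y i)
        = Real.exp (2 / 3) * ∏ i, Real.exp (-c * y i) := by
      rw [← Real.exp_sum, ← Real.exp_add, ← Real.exp_add]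
      congr 1
      rw [← Finset.mul_sum, ← Finset.mul_sum, hc]
      ring
    have hexp := Real.exp_pos (-∑ i, y i)
    calc Real.exp (-∑ i, y i) - 4 / 9 * Real.exp (2 / 3) * ∏ i, Real.exp (-c * y i)
        = (1 - 4 / 9 * Real.exp ((4 / 3 + ∑ i, -(2 / (n : ℝ)) * y i) / 2))
            * Real.exp (-∑ i, y i) := by
          linear_combination (4 / 9 : ℝ) * e2
      _ ≤ _ := mul_le_mul_of_nonneg_right h hexp.le

/-- `e ≤ (1 + 1/n)^(n+1)`, in the form used below. -/
lemma h41_exp_mul_pow_le (n : ℕ) (hn : n ≠ 0) :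
    Real.exp (2 / 3) * (1 / (1 + 1 / (n : ℝ))) ^ n
      ≤ Real.exp (-(1 / 3)) * (1 + 1 / (n : ℝ)) := by
  have hnpos : (0 : ℝ) < n := Nat.cast_pos.mpr (Nat.pos_of_ne_zero hn)
  set c : ℝ := 1 + 1 / (n : ℝ) with hc
  have hcpos : 0 < c := by positivity
  -- `1/c = n/(n+1) = 1 - 1/(n+1) ≤ exp (-1/(n+1))`
  have h1 : 1 / c ≤ Real.exp (-(1 / ((n : ℝ) + 1))) := by
    have h := Real.add_one_le_exp (-(1 / ((n : ℝ) + 1)))
    have e : 1 / c = -(1 / ((n : ℝ) + 1)) + 1 := by
      rw [hc]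
      field_simp
      ring
    rw [e]
    exact h
  have h2 : (1 / c) ^ (n + 1) ≤ Real.exp (-1) := by
    have h := pow_le_pow_left₀ (by positivity : (0 : ℝ) ≤ 1 / c) h1 (n + 1)
    rw [← Real.exp_nat_mul] at h
    have e : ((n + 1 : ℕ) : ℝ) * -(1 / ((n : ℝ) + 1)) = -1 := by
      push_cast
      field_simp
    rw [e] at h
    exact h
  -- multiply by `c * exp (2/3)`
  have h3 : (1 / c) ^ n = c * (1 / c) ^ (n + 1) := by
    rw [pow_succ]
    field_simp
  rw [h3]
  have h4 : Real.exp (2 / 3) * Real.exp (-1) = Real.exp (-(1 / 3)) := by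
    rw [← Real.exp_add]
    congr 1
    norm_num
  calc Real.exp (2 / 3) * (c * (1 / c) ^ (n + 1))
      ≤ Real.exp (2 / 3) * (c * Real.exp (-1)) := by
        have := Real.exp_pos (2 / 3)
        gcongr
    _ = Real.exp (-(1 / 3)) * c := by rw [← h4]; ring

/-- Interface theorem of package P10: the bound `1 - (4/9) e^{-1/3}` is approached. -/
theorem approach (ε : ℝ) (hε : 0 < ε) : ∃ (N : ℕ) (a : Fin N → ℝ),
    1 ≤ N ∧ ∑ i, a i = 0 ∧ 1 - 4 / 9 * Real.exp (-(1 / 3)) - ε < J N a psi := by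
  obtain ⟨n, hn⟩ := exists_nat_gt (1 / ε)
  have hnpos : (0 : ℝ) < n := lt_trans (by positivity) hn
  have hn0 : n ≠ 0 := by
    rintro rfl
    simp at hnpos
  refine ⟨n + 1, h41_wt n, Nat.le_add_left 1 n, h41_wt_sum n hn0, ?_⟩
  have h1 := h41_J_wt_ge n
  have h2 := h41_exp_mul_pow_le n hn0
  have h3 : 1 / (n : ℝ) < ε := by
    rw [div_lt_iff₀ hnpos]
    rw [div_lt_iff₀ hε] at hn
    linarith
  have h4 : Real.exp (-(1 / 3)) ≤ 1 := by
    rw [← Real.exp_zero]
    exact Real.exp_le_exp.mpr (by norm_num)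
  have h5 : 0 < Real.exp (-(1 / 3)) := Real.exp_pos _
  have h6 : 0 < 1 / (n : ℝ) := by positivity
  have h7 : Real.exp (-(1 / 3)) * (1 / (n : ℝ)) ≤ 1 / (n : ℝ) := by
    nlinarith
  nlinarith

/-- The integral of the statement is `J N a psi`. -/
lemma h41_statement_integral_eq (N : ℕ) (a : Fin N → ℝ) :
    ∫ x in Set.pi Set.univ (fun _ : Fin N => Set.Ioi (0 : ℝ)),
        Crest.AlgGeometry.truncExpWeight (4 / 3 + ∑ i, a i * x i) * Real.exp (-∑ i, x i)
      = J N a psi := rfl

/-- The constant of the statement: `(e^{4/3}/(4/3)) (1 - (4/9) e^{-1/3}) = (3/4) e^{4/3} - e/3`. -/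
lemma h41_const_eq :
    Real.exp (4 / 3) / (4 / 3) * (1 - 4 / 9 * Real.exp (-(1 / 3)))
      = 3 / 4 * Real.exp (4 / 3) - Real.exp 1 / 3 := by
  have e : Real.exp (4 / 3) * Real.exp (-(1 / 3)) = Real.exp 1 := by
    rw [← Real.exp_add]
    norm_num
  linear_combination (-(1 / 3) : ℝ) * e

/-- The second half of the statement S0423, verbatim. -/
theorem h41_second_half :
    ∀ ε : ℝ, 0 < ε → ∃ (N : ℕ) (a : Fin N → ℝ), 1 ≤ N ∧ ∑ i, a i = 0 ∧
      3 / 4 * Real.exp (4 / 3) - Real.exp 1 / 3 - ε <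
        Real.exp (4 / 3) / (4 / 3) *
          ∫ x in Set.pi Set.univ (fun _ : Fin N => Set.Ioi (0 : ℝ)),
            Crest.AlgGeometry.truncExpWeight (4 / 3 + ∑ i, a i * x i) * Real.exp (-∑ i, x i) := by
  intro ε hε
  have hK : 0 < Real.exp (4 / 3) / (4 / 3) := by positivity
  obtain ⟨N, a, hN, ha, h⟩ := approach (ε / (Real.exp (4 / 3) / (4 / 3))) (by positivity)
  refine ⟨N, a, hN, ha, ?_⟩
  rw [h41_statement_integral_eq]
  have h' := mul_lt_mul_of_pos_left h hK
  rw [mul_sub, h41_const_eq, mul_div_cancel₀ _ hK.ne'] at h'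
  exact h'

/-- First half of the statement S0423 from the bound `J N a psi ≤ 1 - (4/9) e^{-1/3}`
(bridge for the assembly). -/
theorem h41_first_half_of_bound
    (hb : ∀ (N : ℕ) (a : Fin N → ℝ), 1 ≤ N → ∑ i, a i = 0 →
      J N a psi ≤ 1 - 4 / 9 * Real.exp (-(1 / 3))) :
    ∀ (N : ℕ) (a : Fin N → ℝ), 1 ≤ N → ∑ i, a i = 0 →
      Real.exp (4 / 3) / (4 / 3) *
          ∫ x in Set.pi Set.univ (fun _ : Fin N => Set.Ioi (0 : ℝ)),
            Crest.AlgGeometry.truncExpWeight (4 / 3 + ∑ i, a i * x i) * Real.exp (-∑ i, x i)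
        ≤ 3 / 4 * Real.exp (4 / 3) - Real.exp 1 / 3 := by
  intro N a hN ha
  have hK : 0 < Real.exp (4 / 3) / (4 / 3) := by positivity
  rw [h41_statement_integral_eq, ← h41_const_eq]
  exact mul_le_mul_of_nonneg_left (hb N a hN ha) hK.le

end Crest.Agent.S0423
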