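import Mathlib
import Crest.Agent.Lib.S0423.Defs

/-!
# S0423 package P5 (helper4): propagation of the four-point log-concavity invariant `PF2`
through one exponential convolution step `tailStep`.

Interface theorems (exact names of package P5):
* `pf2_tail0 : PF2 tail0`
* `pf2_tailStep (a) (hS : IsTail S) (hpf : PF2 S) : PF2 (tailStep a S)`

Auxiliary lemmas carry the seat tag `h4_`.

Proof for `a > 0`: with `u' = u + δ`, the splitting identity
`tailStep a G (s + δ) = exp (-(δ/a)) * tailStep a G s + ∫ x in 0..δ/a, G (s + δ - a x) exp (-x)`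
reduces the four-point inequality for `tailStep a G` to the cross term, which follows by
integrating the four-point inequality of `G` twice.  `a < 0` by reflection, `a = 0` trivial.
-/

set_option autoImplicit false

open MeasureTheory Set

namespace Crest.Agent.S0423

theorem h4_pf2_indicator : PF2 (fun s : ℝ => if s < 0 then (1:ℝ) else 0) := by
  intro u u' d huu' hd
  by_cases h1 : u' + d < 0
  · have h2 : u < 0 := by linarith
    have h3 : u + d < 0 := by linarith
    have h4 : u' < 0 := by linarith
    simp [h1, h2, h3, h4]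
  · simp only [h1, if_false, mul_zero]
    positivity

/-- `PF2` is invariant under reflection. -/
theorem h4_pf2_comp_neg {G : ℝ → ℝ} (h : PF2 G) : PF2 (fun s => G (-s)) := by
  intro u u' d huu' hd
  have key := h (-(u' + d)) (-(u + d)) d (by linarith) hd
  have e1 : -(u + d) + d = -u := by ring
  have e2 : -(u' + d) + d = -u' := by ring
  rw [e1, e2] at key
  show G (-u) * G (-(u' + d)) ≤ G (-(u + d)) * G (-u')
  linarith [mul_comm (G (-u)) (G (-(u' + d)))]

theorem h4_integral_Ioi_comp_add (f : ℝ → ℝ) (b c : ℝ) :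
    ∫ x in Ioi b, f (x + c) = ∫ x in Ioi (b + c), f x := by
  have A : MeasurableEmbedding fun x : ℝ => x + c :=
    (Homeomorph.addRight c).isClosedEmbedding.measurableEmbedding
  have := MeasurableEmbedding.setIntegral_map (μ := volume) A f (Ioi (b + c))
  rw [map_add_right_eq_self] at this
  rw [this]
  congr 1
  ext x
  simp

section

variable {G : ℝ → ℝ}

theorem h4_tailStep_integrableOn (hm : Measurable G) (h0 : ∀ s, 0 ≤ G s) (h1 : ∀ s, G s ≤ 1)
    (a s c : ℝ) : IntegrableOn (fun x => G (s - a * x) * Real.exp (-x)) (Ioi c) := by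
  refine Integrable.mono' (integrableOn_exp_neg_Ioi c) ?_ ?_
  · exact ((hm.comp (by fun_prop)).mul (by fun_prop)).aestronglyMeasurable
  · refine Filter.Eventually.of_forall fun x => ?_
    rw [Real.norm_eq_abs, abs_mul, abs_of_nonneg (h0 _), abs_of_pos (Real.exp_pos _)]
    exact mul_le_of_le_one_left (Real.exp_pos _).le (h1 _)

theorem h4_tailStep_nonneg (h0 : ∀ s, 0 ≤ G s) (a s : ℝ) : 0 ≤ tailStep a G s :=
  setIntegral_nonneg measurableSet_Ioi fun _ _ => mul_nonneg (h0 _) (Real.exp_pos _).le

theorem h4_tailStep_le_one (hm : Measurable G) (h0 : ∀ s, 0 ≤ G s) (h1 : ∀ s, G s ≤ 1)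
    (a s : ℝ) : tailStep a G s ≤ 1 := by
  have := setIntegral_mono_on (h4_tailStep_integrableOn hm h0 h1 a s 0) (integrableOn_exp_neg_Ioi 0)
    measurableSet_Ioi (fun x _ => mul_le_of_le_one_left (Real.exp_pos (-x)).le (h1 (s - a * x)))
  rw [integral_exp_neg_Ioi_zero] at this
  exact this

theorem h4_tailStep_antitone (hm : Measurable G) (h0 : ∀ s, 0 ≤ G s) (h1 : ∀ s, G s ≤ 1)
    (hanti : Antitone G) (a : ℝ) : Antitone (tailStep a G) := by
  intro s s' hss'
  exact setIntegral_mono_on (h4_tailStep_integrableOn hm h0 h1 a s' 0)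
    (h4_tailStep_integrableOn hm h0 h1 a s 0) measurableSet_Ioi
    (fun x _ => mul_le_mul_of_nonneg_right (hanti (by linarith)) (Real.exp_pos _).le)

theorem h4_tailStep_zero (G : ℝ → ℝ) (s : ℝ) : tailStep 0 G s = G s := by
  unfold tailStep
  simp only [zero_mul, sub_zero]
  rw [integral_const_mul, integral_exp_neg_Ioi_zero, mul_one]

theorem h4_tailStep_neg (a : ℝ) (G : ℝ → ℝ) (s : ℝ) :
    tailStep a G s = tailStep (-a) (fun w => G (-w)) (-s) := by
  unfold tailStep
  congr 1
  ext x
  congr 2
  ring

/-- The splitting identity behind the propagation of `PF2`. -/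
theorem h4_tailStep_split (hm : Measurable G) (h0 : ∀ s, 0 ≤ G s) (h1 : ∀ s, G s ≤ 1)
    {a : ℝ} (ha : 0 < a) {δ : ℝ} (hδ : 0 ≤ δ) (s : ℝ) :
    tailStep a G (s + δ) = Real.exp (-(δ / a)) * tailStep a G s
      + ∫ x in (0:ℝ)..(δ / a), G (s + δ - a * x) * Real.exp (-x) := by
  have hc0 : 0 ≤ δ / a := div_nonneg hδ ha.le
  have hac : a * (δ / a) = δ := by field_simp
  have e1 := intervalIntegral.integral_interval_add_Ioi
    (h4_tailStep_integrableOn hm h0 h1 a (s + δ) 0) (h4_tailStep_integrableOn hm h0 h1 a (s + δ) (δ / a))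
  have e2 : ∫ x in Ioi (δ / a), G (s + δ - a * x) * Real.exp (-x)
      = Real.exp (-(δ / a)) * tailStep a G s := by
    have := h4_integral_Ioi_comp_add (fun x => G (s + δ - a * x) * Real.exp (-x)) 0 (δ / a)
    rw [zero_add] at this
    rw [← this]
    unfold tailStep
    rw [← integral_const_mul]
    congr 1
    ext x
    have : s + δ - a * (x + δ / a) = s - a * x := by rw [mul_add, hac]; ring
    rw [this, neg_add, Real.exp_add]
    ring
  rw [e2] at e1
  have e3 : tailStep a G (s + δ) = ∫ x in Ioi (0:ℝ), G (s + δ - a * x) * Real.exp (-x) := rfl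
  rw [e3, ← e1]
  ring

/-- `PF2` propagates through a convolution step with positive coefficient. -/
theorem h4_pf2_tailStep_pos (hm : Measurable G) (h0 : ∀ s, 0 ≤ G s) (h1 : ∀ s, G s ≤ 1)
    (hG : PF2 G) {a : ℝ} (ha : 0 < a) : PF2 (tailStep a G) := by
  intro u u' d huu' hd
  obtain ⟨δ, hδ, rfl⟩ : ∃ δ, 0 ≤ δ ∧ u' = u + δ := ⟨u' - u, by linarith, by ring⟩
  have hc0 : 0 ≤ δ / a := div_nonneg hδ ha.le
  have hac : a * (δ / a) = δ := by field_simp
  have e : u + δ + d = (u + d) + δ := by ring
  rw [e, h4_tailStep_split hm h0 h1 ha hδ u, h4_tailStep_split hm h0 h1 ha hδ (u + d)]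
  -- reduce to the cross terms
  suffices hkey : tailStep a G u * ∫ x in (0:ℝ)..(δ / a), G (u + d + δ - a * x) * Real.exp (-x)
      ≤ tailStep a G (u + d) * ∫ x in (0:ℝ)..(δ / a), G (u + δ - a * x) * Real.exp (-x) by
    have := hkey
    nlinarith [this]
  rw [← intervalIntegral.integral_const_mul, ← intervalIntegral.integral_const_mul]
  have hint : ∀ t : ℝ, IntervalIntegrable (fun x => G (t - a * x) * Real.exp (-x)) volume 0 (δ / a) := by
    intro t
    rw [intervalIntegrable_iff_integrableOn_Ioc_of_le hc0]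
    exact (h4_tailStep_integrableOn hm h0 h1 a t 0).mono_set Ioc_subset_Ioi_self
  refine intervalIntegral.integral_mono_on hc0 ((hint _).const_mul _) ((hint _).const_mul _) ?_
  intro x hx
  -- pointwise in x : H u * G (v + d) ≤ H (u + d) * G v, v = u + δ - a x ≥ u
  have hxv : u ≤ u + δ - a * x := by
    have : a * x ≤ a * (δ / a) := mul_le_mul_of_nonneg_left hx.2 ha.le
    linarith
  have e3 : u + d + δ - a * x = (u + δ - a * x) + d := by ring
  rw [e3]
  set v := u + δ - a * x with hv
  have hinner : tailStep a G u * G (v + d) ≤ tailStep a G (u + d) * G v := by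
    unfold tailStep
    rw [← integral_mul_const, ← integral_mul_const]
    refine setIntegral_mono_on ((h4_tailStep_integrableOn hm h0 h1 a u 0).mul_const _)
      ((h4_tailStep_integrableOn hm h0 h1 a (u + d) 0).mul_const _) measurableSet_Ioi ?_
    intro y hy
    have hy0 : (0:ℝ) < y := hy
    have huy : u - a * y ≤ v := by nlinarith
    have := hG (u - a * y) v d huy hd
    have e4 : u - a * y + d = u + d - a * y := by ring
    rw [e4] at this
    have hexp := (Real.exp_pos (-y)).le
    calc G (u - a * y) * Real.exp (-y) * G (v + d)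
        = (G (u - a * y) * G (v + d)) * Real.exp (-y) := by ring
      _ ≤ (G (u + d - a * y) * G v) * Real.exp (-y) := mul_le_mul_of_nonneg_right this hexp
      _ = G (u + d - a * y) * Real.exp (-y) * G v := by ring
  have hexp := (Real.exp_pos (-x)).le
  calc tailStep a G u * (G (v + d) * Real.exp (-x))
      = (tailStep a G u * G (v + d)) * Real.exp (-x) := by ring
    _ ≤ (tailStep a G (u + d) * G v) * Real.exp (-x) := mul_le_mul_of_nonneg_right hinner hexp
    _ = tailStep a G (u + d) * (G v * Real.exp (-x)) := by ring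

/-- `PF2` propagates through a convolution step with an arbitrary real coefficient. -/
theorem h4_pf2_tailStep (hm : Measurable G) (h0 : ∀ s, 0 ≤ G s) (h1 : ∀ s, G s ≤ 1)
    (hG : PF2 G) (a : ℝ) : PF2 (tailStep a G) := by
  rcases lt_trichotomy a 0 with ha | ha | ha
  · have h := h4_pf2_tailStep_pos (G := fun w => G (-w)) (hm.comp measurable_neg)
      (fun s => h0 _) (fun s => h1 _) (h4_pf2_comp_neg hG) (a := -a) (by linarith)
    have h2 := (h4_pf2_comp_neg h)
    have : tailStep a G = fun s => tailStep (-a) (fun w => G (-w)) (-s) := by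
      ext s; exact h4_tailStep_neg a G s
    rw [this]
    exact h2
  · subst ha
    have : tailStep 0 G = G := by ext s; exact h4_tailStep_zero G s
    rw [this]; exact hG
  · exact h4_pf2_tailStep_pos hm h0 h1 hG ha

end

/-- Interface (package P5): the tail of the constant `0` is `PF2`. -/
theorem pf2_tail0 : PF2 tail0 := by
  have : tail0 = fun s : ℝ => if s < 0 then (1:ℝ) else 0 := rfl
  rw [this]
  exact h4_pf2_indicator

/-- Interface (package P5): `PF2` propagates through one exponential convolution step. -/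
theorem pf2_tailStep (a : ℝ) {S : ℝ → ℝ} (hS : IsTail S) (hpf : PF2 S) : PF2 (tailStep a S) :=
  h4_pf2_tailStep hS.1.measurable hS.2.1 hS.2.2 hpf a

end Crest.Agent.S0423
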