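import Mathlib
import Crest.Agent.Lib.S0423.Defs
import Crest.Agent.Lib.S0423.Helper41Fubini
import Crest.Agent.Lib.S0423.Helper41Approach
import Crest.Agent.Lib.S0423.Helper2Step
import Crest.Agent.Lib.S0423.Helper2Mean
import Crest.Agent.Lib.S0423.Helper4PF2
import Crest.Agent.Lib.S0423.Helper74Layer
import Crest.Agent.Lib.S0423.Helper33Calc

/-!
S0423 (helper41): assembly of the packages P1-P5, P9, P10 into the full statement, with the
comparison theorem of package P6 as an explicit hypothesis (`h41_CompareStmt`).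

`h41_result_of_compare : h41_CompareStmt → <statement of S0423>`.
-/

set_option autoImplicit false

open MeasureTheory Set

namespace Crest.Agent.S0423

/-- The statement of package P6 (comparison with a mean-zero exponential tail). -/
def h41_CompareStmt : Prop :=
  ∀ (G : ℝ → ℝ), IsTail G → PF2 G → MeasureTheory.Integrable (fun s => G s - tail0 s) →
    ∫ s, (G s - tail0 s) = 0 → (∃ s, s < -(1 / 3 : ℝ) ∧ G s < 1) →
    ∃ t : ℝ, 1 / 3 < t ∧ ∫ s, omega s * expTail t s ≤ ∫ s, omega s * G s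

/-- The weaker statement of the backup package B1, which is all the assembly needs. -/
def h41_TailBoundStmt : Prop :=
  ∀ (G : ℝ → ℝ), IsTail G → PF2 G → MeasureTheory.Integrable (fun s => G s - tail0 s) →
    ∫ s, (G s - tail0 s) = 0 → (∃ s, s < -(1 / 3 : ℝ) ∧ G s < 1) →
    4 / 9 * Real.exp (-(1 / 3)) ≤ ∫ s, omega s * G s

lemma h41_tailBound_of_compare (h : h41_CompareStmt) : h41_TailBoundStmt := by
  intro G hG hpf hint hmean hlt
  obtain ⟨t, ht, hle⟩ := h G hG hpf hint hmean hlt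
  exact le_trans (expTail_bound ht.le) hle

lemma h41_isTail_tailN : ∀ (N : ℕ) (a : Fin N → ℝ), IsTail (tailN N a)
  | 0, a => by rw [tailN_zero]; exact isTail_tail0
  | n + 1, a => by
    rw [tailN_succ]
    exact isTail_tailStep (a 0) (h41_isTail_tailN n (Fin.tail a))

lemma h41_pf2_tailN : ∀ (N : ℕ) (a : Fin N → ℝ), PF2 (tailN N a)
  | 0, a => by rw [tailN_zero]; exact pf2_tail0
  | n + 1, a => by
    rw [tailN_succ]
    exact pf2_tailStep (a 0) (h41_isTail_tailN n (Fin.tail a)) (h41_pf2_tailN n (Fin.tail a))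

lemma h41_mean_tailN : ∀ (N : ℕ) (a : Fin N → ℝ),
    MeasureTheory.Integrable (fun s => tailN N a s - tail0 s) ∧
      ∫ s, (tailN N a s - tail0 s) = ∑ i, a i
  | 0, a => by
    rw [tailN_zero]
    simp
  | n + 1, a => by
    rw [tailN_succ]
    obtain ⟨hi, hv⟩ := h41_mean_tailN n (Fin.tail a)
    obtain ⟨hi', hv'⟩ := tailStep_mean (a 0) (h41_isTail_tailN n (Fin.tail a)) hi
    refine ⟨hi', ?_⟩
    rw [hv', hv, Fin.sum_univ_succ, add_comm]
    rfl

lemma h41_exists_lt_one_tailN : ∀ (N : ℕ) (a : Fin N → ℝ), ∃ s, tailN N a s < 1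
  | 0, a => by rw [tailN_zero]; exact tail0_exists_lt_one
  | n + 1, a => by
    rw [tailN_succ]
    exact tailStep_exists_lt_one (a 0) (h41_isTail_tailN n (Fin.tail a))
      (h41_exists_lt_one_tailN n (Fin.tail a))

lemma h41_lt_one_tailN : ∀ (N : ℕ) (a : Fin N → ℝ), (∃ i, a i < 0) → ∀ s, tailN N a s < 1
  | 0, a => fun h => by
    obtain ⟨i, _⟩ := h
    exact i.elim0
  | n + 1, a => fun h => by
    rw [tailN_succ]
    rcases lt_or_ge (a 0) 0 with h0 | h0
    · exact tailStep_lt_one_of_neg h0 (h41_isTail_tailN n (Fin.tail a))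
        (h41_exists_lt_one_tailN n (Fin.tail a))
    · obtain ⟨i, hi⟩ := h
      have hi0 : i ≠ 0 := by
        rintro rfl
        linarith
      obtain ⟨j, rfl⟩ := Fin.exists_succ_eq.mpr hi0
      exact tailStep_lt_one (a 0) (h41_isTail_tailN n (Fin.tail a))
        (h41_lt_one_tailN n (Fin.tail a) ⟨j, hi⟩)

/-- `J N a F = F 0` when all weights vanish. -/
lemma h41_J_of_zero (N : ℕ) (a : Fin N → ℝ) (F : ℝ → ℝ) (ha : ∀ i, a i = 0) :
    J N a F = F 0 := by
  have h1 := J_one N a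
  unfold J at h1 ⊢
  simp only [ha, zero_mul, Finset.sum_const_zero] at h1 ⊢
  simp only [one_mul] at h1
  rw [integral_const_mul, h1, mul_one]

/-- The upper bound of S0423 in terms of `J`, from the tail bound. -/
theorem h41_J_psi_le (h : h41_TailBoundStmt) (N : ℕ) (a : Fin N → ℝ) (_hN : 1 ≤ N)
    (ha : ∑ i, a i = 0) : J N a psi ≤ 1 - 4 / 9 * Real.exp (-(1 / 3)) := by
  by_cases hz : ∀ i, a i = 0
  · rw [h41_J_of_zero N a psi hz]
    exact psi_zero_le
  · have hneg : ∃ i, a i < 0 := by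
      by_contra hcon
      simp only [not_exists, not_lt] at hcon
      exact hz fun i => (Finset.sum_eq_zero_iff_of_nonneg (fun j _ => hcon j)).mp ha i
        (Finset.mem_univ i)
    obtain ⟨hint, hmean⟩ := h41_mean_tailN N a
    rw [ha] at hmean
    have hb := h (tailN N a) (h41_isTail_tailN N a) (h41_pf2_tailN N a) hint hmean
      ⟨-1, by norm_num, h41_lt_one_tailN N a hneg (-1)⟩
    rw [J_psi]
    linarith

/-- The full statement of S0423 from the tail bound (package B1). -/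
theorem h41_result_of_tailBound (h : h41_TailBoundStmt) :
    (∀ (N : ℕ) (a : Fin N → ℝ), 1 ≤ N → ∑ i, a i = 0 →
      Real.exp (4 / 3) / (4 / 3) *
          ∫ x in Set.pi Set.univ (fun _ : Fin N => Set.Ioi (0 : ℝ)),
            Crest.AlgGeometry.truncExpWeight (4 / 3 + ∑ i, a i * x i) * Real.exp (-∑ i, x i)
        ≤ 3 / 4 * Real.exp (4 / 3) - Real.exp 1 / 3) ∧
    (∀ ε : ℝ, 0 < ε → ∃ (N : ℕ) (a : Fin N → ℝ), 1 ≤ N ∧ ∑ i, a i = 0 ∧
      3 / 4 * Real.exp (4 / 3) - Real.exp 1 / 3 - ε <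
        Real.exp (4 / 3) / (4 / 3) *
          ∫ x in Set.pi Set.univ (fun _ : Fin N => Set.Ioi (0 : ℝ)),
            Crest.AlgGeometry.truncExpWeight (4 / 3 + ∑ i, a i * x i) * Real.exp (-∑ i, x i)) :=
  ⟨h41_first_half_of_bound (h41_J_psi_le h), h41_second_half⟩

/-- The full statement of S0423 from the comparison theorem (package P6). -/
theorem h41_result_of_compare (h : h41_CompareStmt) :
    (∀ (N : ℕ) (a : Fin N → ℝ), 1 ≤ N → ∑ i, a i = 0 →
      Real.exp (4 / 3) / (4 / 3) *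
          ∫ x in Set.pi Set.univ (fun _ : Fin N => Set.Ioi (0 : ℝ)),
            Crest.AlgGeometry.truncExpWeight (4 / 3 + ∑ i, a i * x i) * Real.exp (-∑ i, x i)
        ≤ 3 / 4 * Real.exp (4 / 3) - Real.exp 1 / 3) ∧
    (∀ ε : ℝ, 0 < ε → ∃ (N : ℕ) (a : Fin N → ℝ), 1 ≤ N ∧ ∑ i, a i = 0 ∧
      3 / 4 * Real.exp (4 / 3) - Real.exp 1 / 3 - ε <
        Real.exp (4 / 3) / (4 / 3) *
          ∫ x in Set.pi Set.univ (fun _ : Fin N => Set.Ioi (0 : ℝ)),
            Crest.AlgGeometry.truncExpWeight (4 / 3 + ∑ i, a i * x i) * Real.exp (-∑ i, x i)) :=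
  h41_result_of_tailBound (h41_tailBound_of_compare h)

end Crest.Agent.S0423
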