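import Mathlib
import Crest.Agent.Lib.S0423.Defs

/-!
# S0423, package B1 (helper46): backup comparison theorem via second-order tails

For a tail function `G` (antitone, values in `[0,1]`, `PF2`, mean zero) we compare with the
mean-zero exponential tail `expTail t`, where `t` is fixed by `U G s0 = ∫_{Ioi s0} expTail t`,
`U G x = ∫_{Ioi x} G` and `s0 = -1/3`.  The second-order tail `U G` is continuous, antitone,
`≥ -x`, and inherits the four-point inequality from `G`; an extremal (compactness) argument on
`R x = U G x * exp (x / t)` shows `U G ≥ Ũ_t` on `Iic s0` and `U G ≤ Ũ_t` on `Ici s0`, and one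
application of Fubini turns this into `∫ omega * (G - expTail t) ≥ 0`.
-/

namespace Crest.Agent.S0423.Helper46

open MeasureTheory Set Filter Topology

/-- Upper integrated tail. -/
noncomputable def U (G : ℝ → ℝ) (x : ℝ) : ℝ := ∫ s in Ioi x, G s

lemma tail0_eq_indicator : tail0 = (Iio (0:ℝ)).indicator (fun _ => (1:ℝ)) := by
  funext s
  by_cases h : s < 0 <;> simp [tail0, indicator, h]

lemma integrableOn_tail0_Ioi (x : ℝ) : IntegrableOn tail0 (Ioi x) := by
  rw [tail0_eq_indicator, IntegrableOn, integrable_indicator_iff measurableSet_Iio, IntegrableOn,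
    Measure.restrict_restrict measurableSet_Iio, Iio_inter_Ioi]
  exact integrableOn_const (by simp)

lemma integral_tail0_Ioi {x : ℝ} (hx : x ≤ 0) : ∫ s in Ioi x, tail0 s = -x := by
  rw [tail0_eq_indicator, setIntegral_indicator measurableSet_Iio, Ioi_inter_Iio]
  simp [hx]

section tail
variable {G : ℝ → ℝ}

lemma integrableOn_Ioi (hint : Integrable (fun s => G s - tail0 s)) (x : ℝ) :
    IntegrableOn G (Ioi x) := by
  have h := hint.integrableOn.add (integrableOn_tail0_Ioi x)
  refine h.congr_fun (fun s _ => ?_) measurableSet_Ioi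
  simp

lemma U_nonneg (hG : IsTail G) (x : ℝ) : 0 ≤ U G x :=
  setIntegral_nonneg measurableSet_Ioi (fun s _ => hG.2.1 s)

lemma U_sub (hint : Integrable (fun s => G s - tail0 s)) {x y : ℝ} (hxy : x ≤ y) :
    U G x = U G y + ∫ s in x..y, G s := by
  unfold U
  rw [intervalIntegral.integral_of_le hxy, ← Ioc_union_Ioi_eq_Ioi hxy,
    setIntegral_union (Ioc_disjoint_Ioi le_rfl) measurableSet_Ioi
      ((integrableOn_Ioi hint x).mono_set Ioc_subset_Ioi_self) (integrableOn_Ioi hint y)]
  ring

lemma intervalIntegral_nonneg' (hG : IsTail G) {x y : ℝ} (hxy : x ≤ y) : 0 ≤ ∫ s in x..y, G s :=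
  intervalIntegral.integral_nonneg hxy (fun s _ => hG.2.1 s)

lemma intervalIntegral_le (hG : IsTail G) {x y : ℝ} (hxy : x ≤ y) : ∫ s in x..y, G s ≤ y - x := by
  have h1 : ∫ s in x..y, G s ≤ ∫ _s in x..y, (1:ℝ) :=
    intervalIntegral.integral_mono_on hxy hG.1.intervalIntegrable intervalIntegrable_const
      (fun s _ => hG.2.2 s)
  simpa using h1

lemma U_antitone (hG : IsTail G) (hint : Integrable (fun s => G s - tail0 s)) : Antitone (U G) := by
  intro x y hxy
  rw [U_sub hint hxy]
  linarith [intervalIntegral_nonneg' hG hxy]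

lemma U_continuous (hG : IsTail G) (hint : Integrable (fun s => G s - tail0 s)) :
    Continuous (U G) := by
  refine (LipschitzWith.of_le_add_mul 1 (fun x y => ?_)).continuous
  rcases le_total x y with h | h
  · rw [U_sub hint h, Real.dist_eq, abs_of_nonpos (by linarith)]
    have := intervalIntegral_le hG h
    simp only [NNReal.coe_one, one_mul]
    linarith
  · have := U_antitone hG hint h
    have := dist_nonneg (x := x) (y := y)
    simp only [NNReal.coe_one, one_mul]
    linarith

/-- Mean zero gives `U G x ≥ -x` (for `x < 0`), with an exact formula. -/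
lemma U_eq_of_neg (hint : Integrable (fun s => G s - tail0 s))
    (hmean : ∫ s, (G s - tail0 s) = 0) {x : ℝ} (hx : x < 0) :
    U G x = -x - ∫ s in Iic x, (G s - tail0 s) := by
  have h1 : U G x = (∫ s in Ioi x, (G s - tail0 s)) + ∫ s in Ioi x, tail0 s := by
    rw [← integral_add hint.integrableOn (integrableOn_tail0_Ioi x)]
    unfold U
    congr 1
    funext s
    ring
  have h2 : ∫ s in Ioi x, (G s - tail0 s) = 0 - ∫ s in Iic x, (G s - tail0 s) := by
    rw [← hmean, ← compl_Iic]
    exact setIntegral_compl measurableSet_Iic hint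
  rw [h1, h2, integral_tail0_Ioi hx.le]
  ring

lemma integral_Iic_nonpos (hG : IsTail G) {x : ℝ} (hx : x < 0) :
    ∫ s in Iic x, (G s - tail0 s) ≤ 0 := by
  refine setIntegral_nonpos measurableSet_Iic (fun s hs => ?_)
  have hs0 : s < 0 := lt_of_le_of_lt hs hx
  have := hG.2.2 s
  simp only [tail0, hs0, if_true]
  linarith

lemma U_ge_neg (hG : IsTail G) (hint : Integrable (fun s => G s - tail0 s))
    (hmean : ∫ s, (G s - tail0 s) = 0) {x : ℝ} (hx : x < 0) : -x ≤ U G x := by
  rw [U_eq_of_neg hint hmean hx]
  linarith [integral_Iic_nonpos hG hx]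

/-- Strictness: if `G s₁ < 1` for some `s₁ < b < 0`, then `U G b > -b`. -/
lemma U_gt_neg (hG : IsTail G) (hint : Integrable (fun s => G s - tail0 s))
    (hmean : ∫ s, (G s - tail0 s) = 0) {b s₁ : ℝ} (hb : b < 0) (hs : s₁ < b) (h1 : G s₁ < 1) :
    -b < U G b := by
  rw [U_eq_of_neg hint hmean hb]
  have hsplit : ∫ s in Iic b, (G s - tail0 s)
      = (∫ s in Iic s₁, (G s - tail0 s)) + ∫ s in Ioc s₁ b, (G s - tail0 s) := by
    rw [← Iic_union_Ioc_eq_Iic hs.le]
    exact setIntegral_union (Iic_disjoint_Ioc le_rfl) measurableSet_Ioc hint.integrableOn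
      hint.integrableOn
  have hA : ∫ s in Iic s₁, (G s - tail0 s) ≤ 0 := integral_Iic_nonpos hG (hs.trans hb)
  have hB : ∫ s in Ioc s₁ b, (G s - tail0 s) ≤ ∫ _s in Ioc s₁ b, (G s₁ - 1) := by
    refine setIntegral_mono_on hint.integrableOn (integrableOn_const (by simp)) measurableSet_Ioc
      (fun s hs' => ?_)
    have hs0 : s < 0 := lt_of_le_of_lt hs'.2 hb
    have := hG.1 hs'.1.le
    simp only [tail0, hs0, if_true]
    linarith
  have hC : ∫ _s in Ioc s₁ b, (G s₁ - 1) = (b - s₁) * (G s₁ - 1) := by
    simp [hs.le]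
  have : (b - s₁) * (G s₁ - 1) < 0 := mul_neg_of_pos_of_neg (by linarith) (by linarith)
  linarith

/-- Shift of an integral over a right half-line. -/
lemma integral_Ioi_shift (f : ℝ → ℝ) (a d : ℝ) :
    ∫ w in Ioi (a + d), f w = ∫ w in Ioi a, f (w + d) := by
  rw [← integral_indicator measurableSet_Ioi, ← integral_indicator measurableSet_Ioi,
    ← integral_add_right_eq_self _ d]
  congr 1
  funext w
  simp [indicator]

lemma integrableOn_shift (hG : IsTail G) (hint : Integrable (fun s => G s - tail0 s))
    (a : ℝ) {d : ℝ} (hd : 0 ≤ d) : IntegrableOn (fun w => G (w + d)) (Ioi a) := by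
  refine Integrable.mono' (integrableOn_Ioi hint a)
    ((hG.1.measurable.comp (measurable_id.add_const d)).aestronglyMeasurable) ?_
  refine Filter.Eventually.of_forall (fun w => ?_)
  rw [Real.norm_of_nonneg (hG.2.1 _)]
  exact hG.1 (by linarith)

/-- The four-point inequality passes from `G` to its upper primitive `U G`. -/
lemma U_pf2 (hG : IsTail G) (hpf : PF2 G) (hint : Integrable (fun s => G s - tail0 s)) :
    PF2 (U G) := by
  intro u u' d huu' hd
  -- step 1: pointwise in `v ≤ u'`
  have step1 : ∀ v, v ≤ u' → G v * U G (u' + d) ≤ G (v + d) * U G u' := by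
    intro v hv
    have e1 : G v * U G (u' + d) = ∫ w in Ioi u', G v * G (w + d) := by
      unfold U
      rw [integral_Ioi_shift G u' d, integral_const_mul]
    have e2 : G (v + d) * U G u' = ∫ w in Ioi u', G (v + d) * G w := by
      unfold U
      rw [integral_const_mul]
    rw [e1, e2]
    refine setIntegral_mono_on ((integrableOn_shift hG hint u' hd).const_mul _)
      ((integrableOn_Ioi hint u').const_mul _) measurableSet_Ioi (fun w hw => ?_)
    exact hpf v w d (hv.trans hw.le) hd
  -- step 2: integrate in `v` over `[u, u']`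
  have step2 : (∫ v in u..u', G v) * U G (u' + d) ≤ (∫ v in (u + d)..(u' + d), G v) * U G u' := by
    have e1 : (∫ v in u..u', G v) * U G (u' + d) = ∫ v in u..u', G v * U G (u' + d) := by
      rw [intervalIntegral.integral_mul_const]
    have e2 : (∫ v in (u + d)..(u' + d), G v) * U G u' = ∫ v in u..u', G (v + d) * U G u' := by
      rw [intervalIntegral.integral_mul_const, intervalIntegral.integral_comp_add_right]
    rw [e1, e2]
    have hanti : Antitone (fun v => G (v + d)) := fun a b hab => hG.1 (by linarith)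
    exact intervalIntegral.integral_mono_on huu' (hG.1.intervalIntegrable.mul_const _)
      (hanti.intervalIntegrable.mul_const _) (fun v hv => step1 v hv.2)
  rw [U_sub hint huu', U_sub hint (show u + d ≤ u' + d by linarith)]
  nlinarith [step2]

end tail

section extremal
variable {R : ℝ → ℝ}

/-- Quasi-concavity from the midpoint inequality: on `[a, b]` the function stays above any
common lower bound of its two endpoint values. -/
lemma mid_ge {a b c : ℝ} (hab : a ≤ b) (hcont : ContinuousOn R (Icc a b))
    (hpos : ∀ x ∈ Icc a b, 0 < R x)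
    (hmid : ∀ x δ, 0 ≤ δ → R (x - δ) * R (x + δ) ≤ R x * R x)
    (ha : c ≤ R a) (hb : c ≤ R b) : ∀ x ∈ Icc a b, c ≤ R x := by
  obtain ⟨z, hz, hmin⟩ := isCompact_Icc.exists_isMinOn (nonempty_Icc.2 hab) hcont
  have hminz : ∀ x ∈ Icc a b, R z ≤ R x := fun x hx => hmin hx
  suffices h : c ≤ R z from fun x hx => h.trans (hminz x hx)
  by_contra hlt
  push Not at hlt
  have hzpos : 0 < R z := hpos z hz
  have hza : a < z := by
    rcases eq_or_lt_of_le hz.1 with h | h
    · rw [← h] at hlt; linarith
    · exact h
  have hzb : z < b := by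
    rcases eq_or_lt_of_le hz.2 with h | h
    · rw [h] at hlt; linarith
    · exact h
  rcases le_total (z - a) (b - z) with h | h
  · have h1 := hmid z (z - a) (by linarith)
    rw [sub_sub_cancel] at h1
    have h2 : R z ≤ R (z + (z - a)) := hminz _ ⟨by linarith, by linarith⟩
    have h3 : R z < R a := by linarith
    nlinarith [mul_lt_mul_of_pos_right h3 hzpos, mul_le_mul_of_nonneg_left h2 (hpos a ⟨le_rfl, hab⟩).le]
  · have h1 := hmid z (b - z) (by linarith)
    rw [add_sub_cancel] at h1
    have h2 : R z ≤ R (z - (b - z)) := hminz _ ⟨by linarith, by linarith⟩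
    have h3 : R z < R b := by linarith
    nlinarith [mul_lt_mul_of_pos_right h3 hzpos, mul_le_mul_of_nonneg_left h2 (hpos b ⟨hab, le_rfl⟩).le]

/-- No increase to the right of `b` once `R b ≤ R a` for some `a < b`. -/
lemma after_le {a b y : ℝ} (hab : a < b) (hby : b < y) (hcont : ContinuousOn R (Icc a y))
    (hpos : ∀ x ∈ Icc a y, 0 < R x)
    (hmid : ∀ x δ, 0 ≤ δ → R (x - δ) * R (x + δ) ≤ R x * R x)
    (ha : R b ≤ R a) : R y ≤ R b := by
  by_contra hlt
  push Not at hlt
  have hay : a ≤ y := by linarith
  obtain ⟨z0, hz0, hmin⟩ := isCompact_Icc.exists_isMinOn (nonempty_Icc.2 hay) hcont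
  have hminz : ∀ x ∈ Icc a y, R z0 ≤ R x := fun x hx => hmin hx
  -- the (compact, nonempty) set of minimisers
  set M : Set ℝ := Icc a y ∩ R ⁻¹' {R z0} with hM
  have hMclosed : IsClosed M := hcont.preimage_isClosed_of_isClosed isClosed_Icc isClosed_singleton
  have hMcompact : IsCompact M := isCompact_Icc.of_isClosed_subset hMclosed inter_subset_left
  have hMne : M.Nonempty := ⟨z0, hz0, rfl⟩
  have hzM : sSup M ∈ M := hMcompact.sSup_mem hMne
  set z := sSup M with hzdef
  have hz : z ∈ Icc a y := hzM.1
  have hRz : R z = R z0 := hzM.2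
  have hgt : ∀ x ∈ Icc a y, z < x → R z < R x := by
    intro x hx hzx
    have h1 : R z0 ≤ R x := hminz x hx
    rcases eq_or_lt_of_le h1 with h | h
    · exfalso
      have hxM : x ∈ M := ⟨hx, h.symm⟩
      have : x ≤ z := le_csSup hMcompact.bddAbove hxM
      linarith
    · rw [hRz]; exact h
  have hbI : b ∈ Icc a y := ⟨hab.le, hby.le⟩
  have hzpos : 0 < R z := hpos z hz
  have hzy : z < y := by
    rcases eq_or_lt_of_le hz.2 with h | h
    · exfalso
      have h1 : R z0 ≤ R b := hminz b hbI
      rw [h] at hRz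
      linarith
    · exact h
  have hza : a < z := by
    rcases eq_or_lt_of_le hz.1 with h | h
    · exfalso
      have h1 : R z < R b := hgt b hbI (by rw [← h]; exact hab)
      rw [← h] at h1
      linarith
    · exact h
  set δ := min (z - a) (y - z) with hδ
  have hδpos : 0 < δ := lt_min (by linarith) (by linarith)
  have hδ1 : δ ≤ z - a := min_le_left _ _
  have hδ2 : δ ≤ y - z := min_le_right _ _
  have h1 := hmid z δ hδpos.le
  have h2 : R z ≤ R (z - δ) := by
    rw [hRz]; exact hminz _ ⟨by linarith, by linarith⟩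
  have h3 : R z < R (z + δ) := hgt _ ⟨by linarith, by linarith⟩ (by linarith)
  nlinarith [mul_lt_mul_of_pos_left h3 hzpos, mul_le_mul_of_nonneg_right h2 (hzpos.trans h3).le]

end extremal

section expTailFacts
variable {t : ℝ}

lemma expTail_of_le (ht : 0 < t) {s : ℝ} (h : s ≤ -t) : expTail t s = 1 := by
  unfold expTail
  apply min_eq_left
  rw [Real.one_le_exp_iff]
  exact div_nonneg (by linarith) ht.le

lemma expTail_of_ge (ht : 0 < t) {s : ℝ} (h : -t ≤ s) :
    expTail t s = Real.exp (-(s + t) / t) := by
  unfold expTail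
  apply min_eq_right
  rw [Real.exp_le_one_iff]
  exact div_nonpos_of_nonpos_of_nonneg (by linarith) ht.le

lemma continuous_expTail : Continuous (expTail t) := by
  unfold expTail
  exact continuous_const.min (Real.continuous_exp.comp (by fun_prop))

lemma expTail_nonneg (s : ℝ) : 0 ≤ expTail t s := le_min zero_le_one (Real.exp_pos _).le

lemma expTail_le_one (s : ℝ) : expTail t s ≤ 1 := min_le_left _ _

lemma exp_split (ht : 0 < t) (s : ℝ) :
    Real.exp (-(s + t) / t) = Real.exp (-1) * Real.exp ((-1 / t) * s) := by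
  rw [← Real.exp_add]
  congr 1
  field_simp
  ring

lemma integrableOn_expTail (ht : 0 < t) (x : ℝ) : IntegrableOn (expTail t) (Ioi x) := by
  have hneg : -1 / t < 0 := div_neg_of_neg_of_pos (by norm_num) ht
  refine Integrable.mono' ((integrableOn_exp_mul_Ioi hneg x).const_mul (Real.exp (-1)))
    continuous_expTail.aestronglyMeasurable ?_
  refine Filter.Eventually.of_forall (fun s => ?_)
  rw [Real.norm_of_nonneg (expTail_nonneg s), ← exp_split ht]
  exact min_le_right _ _

lemma integral_expTail_of_ge (ht : 0 < t) {x : ℝ} (hx : -t ≤ x) :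
    ∫ s in Ioi x, expTail t s = t * Real.exp (-(x + t) / t) := by
  have hneg : -1 / t < 0 := div_neg_of_neg_of_pos (by norm_num) ht
  have h1 : ∫ s in Ioi x, expTail t s
      = ∫ s in Ioi x, Real.exp (-1) * Real.exp ((-1 / t) * s) := by
    refine setIntegral_congr_fun measurableSet_Ioi (fun s hs => ?_)
    rw [expTail_of_ge ht (hx.trans (le_of_lt hs)), exp_split ht]
  rw [h1, integral_const_mul, integral_exp_mul_Ioi hneg, exp_split ht]
  field_simp

lemma integral_expTail_of_le (ht : 0 < t) {x : ℝ} (hx : x ≤ -t) :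
    ∫ s in Ioi x, expTail t s = -x := by
  rw [← Ioc_union_Ioi_eq_Ioi hx,
    setIntegral_union (Ioc_disjoint_Ioi le_rfl) measurableSet_Ioi
      ((integrableOn_expTail ht x).mono_set Ioc_subset_Ioi_self) (integrableOn_expTail ht (-t)),
    integral_expTail_of_ge ht le_rfl]
  have h1 : ∫ s in Ioc x (-t), expTail t s = ∫ _s in Ioc x (-t), (1:ℝ) :=
    setIntegral_congr_fun measurableSet_Ioc (fun s hs => expTail_of_le ht hs.2)
  rw [h1]
  simp [hx]
  ring

lemma integrable_expTail_sub (ht : 0 < t) : Integrable (fun s => expTail t s - tail0 s) := by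
  have h1 : Integrable ((Ioi (-t)).indicator (expTail t)) :=
    (integrableOn_expTail ht (-t)).integrable_indicator measurableSet_Ioi
  have h2 : Integrable ((Ioo (-t) 0).indicator (fun _ : ℝ => (1:ℝ))) :=
    (integrableOn_const (by simp)).integrable_indicator measurableSet_Ioo
  refine (h1.sub h2).congr (Filter.Eventually.of_forall (fun s => ?_))
  simp only [Pi.sub_apply, indicator, mem_Ioi, mem_Ioo, tail0]
  by_cases hs1 : -t < s
  · by_cases hs2 : s < 0
    · simp [hs1, hs2]
    · simp [hs1, hs2]
  · have hs2 : s < 0 := by linarith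
    simp [hs1, hs2, expTail_of_le ht (not_lt.mp hs1)]

end expTailFacts

section choose
variable {G : ℝ → ℝ}

/-- Choice of the scale `t > 1/3` by the intermediate value theorem. -/
lemma exists_t (hG : IsTail G) (hint : Integrable (fun s => G s - tail0 s))
    (hmean : ∫ s, (G s - tail0 s) = 0) (hlt : ∃ s, s < -(1/3 : ℝ) ∧ G s < 1) :
    ∃ t : ℝ, 1/3 < t ∧ U G (-(1/3)) = t * Real.exp (-(-(1/3) + t) / t) := by
  obtain ⟨s₁, hs₁, hG1⟩ := hlt
  have hu0 : 1/3 < U G (-(1/3)) := by
    have := U_gt_neg hG hint hmean (b := -(1/3)) (by norm_num) hs₁ hG1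
    linarith
  set u0 := U G (-(1/3)) with hu0def
  set T := u0 * Real.exp 1 with hT
  have hexp1 : 1 ≤ Real.exp 1 := Real.one_le_exp (by norm_num)
  have hT13 : 1/3 ≤ T := by nlinarith
  have hTpos : 0 < T := by linarith
  let f : ℝ → ℝ := fun t => t * Real.exp (-(-(1/3) + t) / t)
  have hcont : ContinuousOn f (Icc (1/3) T) := by
    refine ContinuousOn.mul continuousOn_id ?_
    refine Real.continuous_exp.comp_continuousOn ?_
    refine ContinuousOn.div (by fun_prop) continuousOn_id ?_
    intro t ht
    have := ht.1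
    have : (0:ℝ) < t := by linarith
    exact this.ne'
  have hf13 : f (1/3) = 1/3 := by simp [f]
  have hfT : u0 ≤ f T := by
    have h1 : Real.exp (-1) ≤ Real.exp (-(-(1/3) + T) / T) := by
      apply Real.exp_le_exp.mpr
      rw [le_div_iff₀ hTpos]
      linarith
    have h2 : u0 = T * Real.exp (-1) := by
      rw [hT, mul_assoc, ← Real.exp_add]
      simp
    calc u0 = T * Real.exp (-1) := h2
      _ ≤ T * Real.exp (-(-(1/3) + T) / T) := mul_le_mul_of_nonneg_left h1 hTpos.le
  obtain ⟨t, ht, hft⟩ := intermediate_value_Icc hT13 hcont ⟨by rw [hf13]; exact hu0.le, hfT⟩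
  refine ⟨t, ?_, hft.symm⟩
  rcases eq_or_lt_of_le ht.1 with h | h
  · exfalso
    rw [← h, hf13] at hft
    linarith
  · exact h

/-- Sign pattern of the second-order tails. -/
lemma U_sign (hG : IsTail G) (hpf : PF2 G) (hint : Integrable (fun s => G s - tail0 s))
    (hmean : ∫ s, (G s - tail0 s) = 0) {t : ℝ} (ht : 1/3 < t)
    (hU : U G (-(1/3)) = t * Real.exp (-(-(1/3) + t) / t)) :
    (∀ x, x ≤ -(1/3 : ℝ) → ∫ s in Ioi x, expTail t s ≤ U G x) ∧
    (∀ x, -(1/3 : ℝ) ≤ x → U G x ≤ ∫ s in Ioi x, expTail t s) := by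
  have ht0 : 0 < t := by linarith
  set R : ℝ → ℝ := fun x => U G x * Real.exp (x / t) with hR
  have hRcont : Continuous R :=
    (U_continuous hG hint).mul (Real.continuous_exp.comp (continuous_id.div_const t))
  have hmid : ∀ x δ, 0 ≤ δ → R (x - δ) * R (x + δ) ≤ R x * R x := by
    intro x δ hδ
    have h := U_pf2 hG hpf hint (x - δ) x δ (by linarith) hδ
    rw [sub_add_cancel] at h
    have hexp : Real.exp ((x - δ) / t) * Real.exp ((x + δ) / t)
        = Real.exp (x / t) * Real.exp (x / t) := by
      rw [← Real.exp_add, ← Real.exp_add]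
      congr 1
      ring
    simp only [hR]
    calc U G (x - δ) * Real.exp ((x - δ) / t) * (U G (x + δ) * Real.exp ((x + δ) / t))
        = (U G (x - δ) * U G (x + δ)) * (Real.exp ((x - δ) / t) * Real.exp ((x + δ) / t)) := by
          ring
      _ ≤ (U G x * U G x) * (Real.exp (x / t) * Real.exp (x / t)) := by
          rw [hexp]
          exact mul_le_mul_of_nonneg_right h (by positivity)
      _ = U G x * Real.exp (x / t) * (U G x * Real.exp (x / t)) := by ring
  have hRs0 : R (-(1/3)) = t * Real.exp (-1) := by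
    simp only [hR]
    rw [hU, mul_assoc, ← Real.exp_add]
    congr 2
    field_simp
    ring
  have hRa : t * Real.exp (-1) ≤ R (-t) := by
    simp only [hR]
    have h1 : -(-t) ≤ U G (-t) := U_ge_neg hG hint hmean (by linarith)
    have h2 : (-t) / t = -1 := by field_simp
    rw [h2]
    exact mul_le_mul_of_nonneg_right (by linarith) (Real.exp_pos _).le
  have hUpos : 0 < U G (-(1/3)) := by
    rw [hU]
    positivity
  have hUR : ∀ x, U G x = R x * Real.exp (-(x / t)) := by
    intro x
    simp only [hR]
    rw [mul_assoc, ← Real.exp_add]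
    simp
  have hform : ∀ x, t * Real.exp (-(x + t) / t) = (t * Real.exp (-1)) * Real.exp (-(x / t)) := by
    intro x
    rw [mul_assoc, ← Real.exp_add]
    congr 2
    field_simp
    ring
  constructor
  · intro x hx
    rcases le_total x (-t) with hxt | hxt
    · rw [integral_expTail_of_le ht0 hxt]
      exact U_ge_neg hG hint hmean (by linarith)
    · rw [integral_expTail_of_ge ht0 hxt, hform, hUR]
      refine mul_le_mul_of_nonneg_right ?_ (Real.exp_pos _).le
      have hpos : ∀ z ∈ Icc (-t) (-(1/3 : ℝ)), 0 < R z := by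
        intro z hz
        have : U G (-(1/3)) ≤ U G z := U_antitone hG hint hz.2
        simp only [hR]
        exact mul_pos (by linarith) (Real.exp_pos _)
      exact mid_ge (by linarith) hRcont.continuousOn hpos hmid hRa hRs0.ge x ⟨hxt, hx⟩
  · intro x hx
    have hxt : -t ≤ x := by linarith
    rw [integral_expTail_of_ge ht0 hxt, hform, hUR]
    refine mul_le_mul_of_nonneg_right ?_ (Real.exp_pos _).le
    rcases eq_or_lt_of_le hx with h | h
    · rw [← h, hRs0]
    · rw [← hRs0]
      by_cases hUx : 0 < U G x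
      · have hpos : ∀ z ∈ Icc (-t) x, 0 < R z := by
          intro z hz
          have : U G x ≤ U G z := U_antitone hG hint hz.2
          simp only [hR]
          exact mul_pos (by linarith) (Real.exp_pos _)
        exact after_le (by linarith) h hRcont.continuousOn hpos hmid (by rw [hRs0]; exact hRa)
      · have h0 : U G x = 0 := le_antisymm (not_lt.mp hUx) (U_nonneg hG x)
        have hR0 : R x = 0 := by
          simp only [hR]
          rw [h0, zero_mul]
        rw [hR0, hRs0]
        positivity

end choose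

section fubini

/-- The derivative of `omega` (away from the kink at `-4/3`). -/
noncomputable def omega' (x : ℝ) : ℝ :=
  if -(4 / 3 : ℝ) < x then -(x + 1 / 3) * Real.exp (-(x + 4 / 3)) else 0

lemma omega_eq_indicator :
    omega = (Ioi (-(4 / 3 : ℝ))).indicator (fun s => (s + 4 / 3) * Real.exp (-(s + 4 / 3))) := by
  funext s
  by_cases h : -(4 / 3 : ℝ) < s <;> simp [omega, indicator, h]

lemma integrable_omega : Integrable omega := by
  rw [omega_eq_indicator, integrable_indicator_iff measurableSet_Ioi]
  -- antiderivative `g x = -(x + 7/3) * exp (-(x + 4/3))`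
  have hderiv : ∀ x ∈ Ici (-(4 / 3 : ℝ)),
      HasDerivAt (fun x : ℝ => -((x + 7 / 3) * Real.exp (-(x + 4 / 3))))
        ((x + 4 / 3) * Real.exp (-(x + 4 / 3))) x := by
    intro x _
    have h1 : HasDerivAt (fun x : ℝ => x + 7 / 3) 1 x := (hasDerivAt_id x).add_const _
    have h2 : HasDerivAt (fun x : ℝ => Real.exp (-(x + 4 / 3)))
        (Real.exp (-(x + 4 / 3)) * (-1)) x := (((hasDerivAt_id x).add_const _).neg).exp
    have h3 : HasDerivAt (fun x : ℝ => -((x + 7 / 3) * Real.exp (-(x + 4 / 3))))
        (-(1 * Real.exp (-(x + 4 / 3)) + (x + 7 / 3) * (Real.exp (-(x + 4 / 3)) * (-1)))) x :=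
      (h1.mul h2).neg
    exact h3.congr_deriv (by ring)
  have hlim : Tendsto (fun x : ℝ => -((x + 7 / 3) * Real.exp (-(x + 4 / 3)))) atTop (𝓝 0) := by
    have hA : Tendsto (fun y : ℝ => y * Real.exp (-y)) atTop (𝓝 0) := by
      simpa using Real.tendsto_pow_mul_exp_neg_atTop_nhds_zero 1
    have hB : Tendsto (fun y : ℝ => Real.exp (-y)) atTop (𝓝 0) :=
      Real.tendsto_exp_neg_atTop_nhds_zero
    have hC : Tendsto (fun y : ℝ => -(y * Real.exp (-y) + Real.exp (-y))) atTop (𝓝 0) := by
      simpa using (hA.add hB).neg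
    have hshift : Tendsto (fun x : ℝ => x + 4 / 3) atTop atTop :=
      tendsto_atTop_add_const_right _ _ tendsto_id
    refine (hC.comp hshift).congr (fun x => ?_)
    simp only [Function.comp]
    ring
  refine integrableOn_Ioi_deriv_of_nonneg' hderiv (fun x hx => ?_) hlim
  have hx' : -(4 / 3 : ℝ) < x := hx
  exact mul_nonneg (by linarith) (Real.exp_pos _).le

lemma integrable_omega' : Integrable omega' := by
  have h0 : IntegrableOn (fun x : ℝ => Real.exp (-(4 / 3)) * Real.exp (-x)) (Ioi (-(4 / 3 : ℝ))) :=
    (integrableOn_exp_neg_Ioi _).const_mul _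
  have h1 : Integrable ((Ioi (-(4 / 3 : ℝ))).indicator
      (fun x : ℝ => Real.exp (-(4 / 3)) * Real.exp (-x))) :=
    h0.integrable_indicator measurableSet_Ioi
  refine (h1.sub integrable_omega).congr (Filter.Eventually.of_forall (fun x => ?_))
  by_cases h : -(4 / 3 : ℝ) < x
  · simp only [Pi.sub_apply, indicator, mem_Ioi, h, if_true, omega, omega']
    rw [← Real.exp_add]
    have : -(4 / 3 : ℝ) + -x = -(x + 4 / 3) := by ring
    rw [this]
    ring
  · simp [indicator, omega, omega', h]

lemma omega_eq_integral (s : ℝ) : omega s = ∫ x in Iio s, omega' x := by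
  by_cases hs : -(4 / 3 : ℝ) < s
  · have hzero : ∫ x in Iic (-(4 / 3 : ℝ)), omega' x = 0 := by
      refine setIntegral_eq_zero_of_forall_eq_zero (fun x hx => ?_)
      have : ¬ (-(4 / 3 : ℝ) < x) := not_lt.mpr hx
      simp [omega', this]
    have hderiv : ∀ x ∈ uIcc (-(4 / 3 : ℝ)) s,
        HasDerivAt (fun x : ℝ => (x + 4 / 3) * Real.exp (-(x + 4 / 3)))
          (-(x + 1 / 3) * Real.exp (-(x + 4 / 3))) x := by
      intro x _
      have h1 : HasDerivAt (fun x : ℝ => x + 4 / 3) 1 x := (hasDerivAt_id x).add_const _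
      have h2 : HasDerivAt (fun x : ℝ => Real.exp (-(x + 4 / 3)))
          (Real.exp (-(x + 4 / 3)) * (-1)) x := (((hasDerivAt_id x).add_const _).neg).exp
      have h3 : HasDerivAt (fun x : ℝ => (x + 4 / 3) * Real.exp (-(x + 4 / 3)))
          (1 * Real.exp (-(x + 4 / 3)) + (x + 4 / 3) * (Real.exp (-(x + 4 / 3)) * (-1))) x :=
        h1.mul h2
      exact h3.congr_deriv (by ring)
    have hcont : Continuous (fun x : ℝ => -(x + 1 / 3) * Real.exp (-(x + 4 / 3))) := by
      fun_prop
    have hftc := intervalIntegral.integral_eq_sub_of_hasDerivAt hderiv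
      (hcont.intervalIntegrable _ _)
    have hIoc : ∫ x in Ioc (-(4 / 3 : ℝ)) s, omega' x
        = ∫ x in Ioc (-(4 / 3 : ℝ)) s, -(x + 1 / 3) * Real.exp (-(x + 4 / 3)) := by
      refine setIntegral_congr_fun measurableSet_Ioc (fun x hx => ?_)
      simp [omega', hx.1]
    rw [← Iic_union_Ioo_eq_Iio hs,
      setIntegral_union ((Iic_disjoint_Ioi le_rfl).mono_right Ioo_subset_Ioi_self) measurableSet_Ioo integrable_omega'.integrableOn
        integrable_omega'.integrableOn, hzero, zero_add, ← integral_Ioc_eq_integral_Ioo, hIoc,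
      ← intervalIntegral.integral_of_le hs.le, hftc]
    simp [omega, hs]
  · have hzero : ∫ x in Iio s, omega' x = 0 := by
      refine setIntegral_eq_zero_of_forall_eq_zero (fun x hx => ?_)
      have hx' : x < s := hx
      have : ¬ (-(4 / 3 : ℝ) < x) := by
        intro h
        exact hs (h.trans hx')
      simp [omega', this]
    rw [hzero]
    simp [omega, hs]

/-- Integration by parts in Fubini form. -/
lemma integral_omega_mul {f : ℝ → ℝ} (hf : Integrable f) :
    ∫ s, omega s * f s = ∫ x, omega' x * ∫ s in Ioi x, f s := by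
  let k : ℝ → ℝ → ℝ := fun x s =>
    ({p : ℝ × ℝ | p.1 < p.2}).indicator (fun p => omega' p.1 * f p.2) (x, s)
  have hk : Integrable (Function.uncurry k) (volume.prod volume) := by
    have h := (integrable_omega'.mul_prod hf).indicator
      (measurableSet_lt measurable_fst measurable_snd)
    exact h
  have hswap := integral_integral_swap hk
  have hL : ∀ x, ∫ s, k x s = omega' x * ∫ s in Ioi x, f s := by
    intro x
    rw [← integral_const_mul, ← integral_indicator measurableSet_Ioi]
    refine integral_congr_ae (Filter.Eventually.of_forall (fun s => ?_))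
    by_cases h : x < s <;> simp [k, indicator, h]
  have hR : ∀ s, ∫ x, k x s = omega s * f s := by
    intro s
    rw [omega_eq_integral s, ← integral_mul_const, ← integral_indicator measurableSet_Iio]
    refine integral_congr_ae (Filter.Eventually.of_forall (fun x => ?_))
    by_cases h : x < s <;> simp [k, indicator, h]
  simp only [hL, hR] at hswap
  exact hswap.symm

end fubini

section main
variable {G : ℝ → ℝ}

/-- **Comparison theorem** (same statement as package P6): a mean-zero `PF2` tail is beaten,
against the kernel `omega`, by a mean-zero exponential tail with scale `t > 1/3`. -/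
theorem compare_expTail (hG : IsTail G) (hpf : PF2 G)
    (hint : MeasureTheory.Integrable (fun s => G s - tail0 s))
    (hmean : ∫ s, (G s - tail0 s) = 0) (hlt : ∃ s, s < -(1/3 : ℝ) ∧ G s < 1) :
    ∃ t : ℝ, 1/3 < t ∧ ∫ s, omega s * expTail t s ≤ ∫ s, omega s * G s := by
  obtain ⟨t, ht, hU⟩ := exists_t hG hint hmean hlt
  obtain ⟨hleft, hright⟩ := U_sign hG hpf hint hmean ht hU
  refine ⟨t, ht, ?_⟩
  have ht0 : 0 < t := by linarith
  set f : ℝ → ℝ := fun s => G s - expTail t s with hfdef
  have hf : Integrable f := by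
    refine (hint.sub (integrable_expTail_sub ht0)).congr (Filter.Eventually.of_forall (fun s => ?_))
    simp [hfdef]
  have hF : ∀ x, ∫ s in Ioi x, f s = U G x - ∫ s in Ioi x, expTail t s := fun x =>
    integral_sub (integrableOn_Ioi hint x) (integrableOn_expTail ht0 x)
  have key : 0 ≤ ∫ s, omega s * f s := by
    rw [integral_omega_mul hf]
    refine integral_nonneg (fun x => ?_)
    show 0 ≤ omega' x * ∫ s in Ioi x, f s
    rw [hF]
    unfold omega'
    split_ifs with h
    · rcases le_total x (-(1/3 : ℝ)) with hx | hx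
      · exact mul_nonneg (mul_nonneg (by linarith) (Real.exp_pos _).le)
          (by linarith [hleft x hx])
      · exact mul_nonneg_of_nonpos_of_nonpos
          (mul_nonpos_of_nonpos_of_nonneg (by linarith) (Real.exp_pos _).le)
          (by linarith [hright x hx])
    · simp
  have hωG : Integrable (fun s => omega s * G s) :=
    integrable_omega.mul_bdd (c := 1) hG.1.measurable.aestronglyMeasurable
      (Filter.Eventually.of_forall (fun s => by
        rw [Real.norm_of_nonneg (hG.2.1 s)]
        exact hG.2.2 s))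
  have hωE : Integrable (fun s => omega s * expTail t s) :=
    integrable_omega.mul_bdd (c := 1) continuous_expTail.aestronglyMeasurable
      (Filter.Eventually.of_forall (fun s => by
        rw [Real.norm_of_nonneg (expTail_nonneg s)]
        exact expTail_le_one s))
  have hsplit : ∫ s, omega s * f s = (∫ s, omega s * G s) - ∫ s, omega s * expTail t s := by
    rw [← integral_sub hωG hωE]
    congr 1
    funext s
    simp only [hfdef]
    ring
  linarith

end main

end Crest.Agent.S0423.Helper46
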