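import Mathlib
import Crest.Agent.Lib.S0423.Defs

/-!
S0423 (row 280), package P5: PF2 propagation.  BACKUP copy by helper69.

The primary implementation with the interface names `pf2_tail0`, `pf2_tailStep` is
`Crest.Agent.Lib.S0423.Helper4PF2`; the same statements are proved here independently under the
names `h69_pf2_tail0`, `h69_pf2_tailStep` (renamed so that the two modules can be imported together).

Idea for `a > 0`:
`tailStep a S s = a⁻¹ * exp (-a⁻¹ * s) * ∫ v in Iic s, S v * exp (a⁻¹ * v)`;
`PF2` is stable under multiplication by `c * exp (k * s)` and under lower primitives.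
The case `a < 0` follows by the reflection `s ↦ -s`, and `tailStep 0 S = S`.
-/

namespace Crest.Agent.S0423

open MeasureTheory Set

theorem h69_pf2_tail0 : PF2 tail0 := by
  intro u u' d huu' hd
  unfold tail0
  by_cases h : u' + d < 0
  · have h1 : u < 0 := by linarith
    have h2 : u + d < 0 := by linarith
    have h3 : u' < 0 := by linarith
    simp [h, h1, h2, h3]
  · have h1 : (0:ℝ) ≤ (if u + d < 0 then (1:ℝ) else 0) * (if u' < 0 then (1:ℝ) else 0) := by
      split_ifs <;> norm_num
    simp only [h, if_false, mul_zero]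
    exact h1

/-- Translation of an integral over a lower half-line. -/
theorem h69_integral_Iic_add_right (f : ℝ → ℝ) (c d : ℝ) :
    ∫ w in Iic c, f (w + d) = ∫ v in Iic (c + d), f v := by
  have h := (measurePreserving_add_right volume d).setIntegral_preimage_emb
    (measurableEmbedding_addRight d) f (Iic (c + d))
  simpa using h

/-- Translation preserves integrability over a lower half-line. -/
theorem h69_integrableOn_Iic_add_right {f : ℝ → ℝ} {c d : ℝ}
    (hf : IntegrableOn f (Iic (c + d))) : IntegrableOn (fun w => f (w + d)) (Iic c) := by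
  have h := ((measurePreserving_add_right volume d).integrableOn_comp_preimage
    (measurableEmbedding_addRight d) (f := f) (s := Iic (c + d))).mpr hf
  simpa [Function.comp_def] using h

/-- `PF2` is stable under multiplication by `c * exp (k * s)`. -/
theorem h69_pf2_exp_mul {G : ℝ → ℝ} (c k : ℝ) (hG : PF2 G) :
    PF2 (fun s => c * Real.exp (k * s) * G s) := by
  intro u u' d huu' hd
  have h := hG u u' d huu' hd
  have hE : Real.exp (k * u) * Real.exp (k * (u' + d))
      = Real.exp (k * (u + d)) * Real.exp (k * u') := by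
    rw [← Real.exp_add, ← Real.exp_add]; ring_nf
  have hpos : 0 ≤ c * c * (Real.exp (k * u) * Real.exp (k * (u' + d))) :=
    mul_nonneg (mul_self_nonneg c) (by positivity)
  calc c * Real.exp (k * u) * G u * (c * Real.exp (k * (u' + d)) * G (u' + d))
      = c * c * (Real.exp (k * u) * Real.exp (k * (u' + d))) * (G u * G (u' + d)) := by ring
    _ ≤ c * c * (Real.exp (k * u) * Real.exp (k * (u' + d))) * (G (u + d) * G u') :=
        mul_le_mul_of_nonneg_left h hpos
    _ = c * Real.exp (k * (u + d)) * G (u + d) * (c * Real.exp (k * u') * G u') := by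
        rw [hE]; ring

/-- `PF2` is invariant under the reflection `s ↦ -s`. -/
theorem h69_pf2_comp_neg {G : ℝ → ℝ} (hG : PF2 G) : PF2 (fun s => G (-s)) := by
  intro u u' d huu' hd
  have h := hG (-u' - d) (-u - d) d (by linarith) hd
  have e1 : -u - d + d = -u := by ring
  have e2 : -u' - d + d = -u' := by ring
  have e3 : -(u' + d) = -u' - d := by ring
  have e4 : -(u + d) = -u - d := by ring
  rw [e1, e2] at h
  show G (-u) * G (-(u' + d)) ≤ G (-(u + d)) * G (-u')
  rw [e3, e4]
  linarith

/-- `PF2` is stable under lower primitives. -/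
theorem h69_pf2_primitive {φ : ℝ → ℝ} (hφ : PF2 φ) (hint : ∀ s, IntegrableOn φ (Iic s)) :
    PF2 (fun s => ∫ v in Iic s, φ v) := by
  intro u u' d huu' hd
  show (∫ v in Iic u, φ v) * (∫ v in Iic (u' + d), φ v)
      ≤ (∫ v in Iic (u + d), φ v) * (∫ v in Iic u', φ v)
  have hintd : ∀ s, IntegrableOn (fun w => φ (w + d)) (Iic s) := fun s =>
    h69_integrableOn_Iic_add_right (hint (s + d))
  have hA' : (∫ v in Iic u', φ v) = (∫ v in Iic u, φ v) + ∫ v in u..u', φ v := by
    have := intervalIntegral.integral_Iic_sub_Iic (hint u) (hint u')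
    linarith
  have hB : (∫ v in Iic (u + d), φ v) = ∫ w in Iic u, φ (w + d) :=
    (h69_integral_Iic_add_right φ u d).symm
  have hB' : (∫ v in Iic (u' + d), φ v)
      = (∫ w in Iic u, φ (w + d)) + ∫ v in u..u', φ (v + d) := by
    have := intervalIntegral.integral_Iic_sub_Iic (hint (u + d)) (hint (u' + d))
    rw [intervalIntegral.integral_comp_add_right, ← hB]
    linarith
  rw [hA', hB', hB]
  -- pointwise comparison
  have key : ∀ v ∈ Icc u u', (∫ w in Iic u, φ w) * φ (v + d)
      ≤ (∫ w in Iic u, φ (w + d)) * φ v := by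
    intro v hv
    rw [← integral_mul_const, ← integral_mul_const]
    refine setIntegral_mono_on ((hint u).mul_const _) ((hintd u).mul_const _)
      measurableSet_Iic (fun w hw => ?_)
    exact hφ w v d (le_trans hw hv.1) hd
  have hI0 : IntervalIntegrable φ volume u u' :=
    (intervalIntegrable_iff_integrableOn_Ioc_of_le huu').mpr
      ((hint u').mono_set Ioc_subset_Iic_self)
  have hI1 : IntervalIntegrable (fun v => φ (v + d)) volume u u' :=
    (intervalIntegrable_iff_integrableOn_Ioc_of_le huu').mpr
      ((hintd u').mono_set Ioc_subset_Iic_self)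
  have hmain : (∫ w in Iic u, φ w) * (∫ v in u..u', φ (v + d))
      ≤ (∫ w in Iic u, φ (w + d)) * (∫ v in u..u', φ v) := by
    rw [← intervalIntegral.integral_const_mul, ← intervalIntegral.integral_const_mul]
    exact intervalIntegral.integral_mono_on huu' (hI1.const_mul _) (hI0.const_mul _) key
  nlinarith [hmain]

/-- Closed form of `tailStep a S` for `a > 0`. -/
theorem h69_tailStep_pos {a : ℝ} (ha : 0 < a) (S : ℝ → ℝ) (s : ℝ) :
    tailStep a S s
      = a⁻¹ * Real.exp (-a⁻¹ * s) * ∫ v in Iic s, 1 * Real.exp (a⁻¹ * v) * S v := by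
  unfold tailStep
  -- step 1: scaling `x = a * y`
  have h1 : (∫ y in Ioi (0:ℝ), S (s - a * y) * Real.exp (-y))
      = a⁻¹ * ∫ x in Ioi (0:ℝ), S (s - x) * Real.exp (-(a⁻¹ * x)) := by
    have h := integral_comp_mul_left_Ioi (fun x => S (s - x) * Real.exp (-(a⁻¹ * x))) 0 ha
    simp only [mul_zero, smul_eq_mul] at h
    rw [← h]
    refine setIntegral_congr_fun measurableSet_Ioi (fun y hy => ?_)
    rw [← mul_assoc, inv_mul_cancel₀ ha.ne', one_mul]
  -- step 2: reflection and translation `v = s - x`
  have h2 : (∫ x in Ioi (0:ℝ), S (s - x) * Real.exp (-(a⁻¹ * x)))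
      = ∫ v in Iic s, S v * Real.exp (a⁻¹ * (v - s)) := by
    have e1 := integral_comp_neg_Ioi (0:ℝ) (fun x => S (x + s) * Real.exp (a⁻¹ * x))
    have e2 := h69_integral_Iic_add_right (fun v => S v * Real.exp (a⁻¹ * (v - s))) 0 s
    simp only [neg_zero] at e1
    simp only [zero_add, add_sub_cancel_right] at e2
    rw [← e2, ← e1]
    refine setIntegral_congr_fun measurableSet_Ioi (fun x hx => ?_)
    rw [show s - x = -x + s by ring, show -(a⁻¹ * x) = a⁻¹ * -x by ring]
  -- step 3: pull out the constant
  have h3 : (∫ v in Iic s, S v * Real.exp (a⁻¹ * (v - s)))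
      = Real.exp (-a⁻¹ * s) * ∫ v in Iic s, 1 * Real.exp (a⁻¹ * v) * S v := by
    rw [← integral_const_mul]
    refine setIntegral_congr_fun measurableSet_Iic (fun v hv => ?_)
    rw [show a⁻¹ * (v - s) = -a⁻¹ * s + a⁻¹ * v by ring, Real.exp_add]
    ring
  rw [h1, h2, h3]
  ring

/-- `PF2` propagation for `a > 0`; only measurability and boundedness of `S` are used. -/
theorem h69_pf2_tailStep_pos {a : ℝ} (ha : 0 < a) {S : ℝ → ℝ} (hm : Measurable S)
    (hb : ∀ s, |S s| ≤ 1) (hpf : PF2 S) : PF2 (tailStep a S) := by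
  have hφ : PF2 (fun v => 1 * Real.exp (a⁻¹ * v) * S v) := h69_pf2_exp_mul 1 a⁻¹ hpf
  have hint : ∀ s, IntegrableOn (fun v => 1 * Real.exp (a⁻¹ * v) * S v) (Iic s) := by
    intro s
    have h1 := integrableOn_exp_mul_Iic (inv_pos.mpr ha) s
    refine Integrable.mono' h1 ?_ ?_
    · have hmeas : Measurable (fun v => 1 * Real.exp (a⁻¹ * v) * S v) := by
        have he : Measurable (fun v : ℝ => Real.exp (a⁻¹ * v)) := by fun_prop
        exact (measurable_const.mul he).mul hm
      exact hmeas.aestronglyMeasurable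
    · refine Filter.Eventually.of_forall (fun v => ?_)
      rw [Real.norm_eq_abs, one_mul, abs_mul, abs_of_pos (Real.exp_pos _)]
      exact mul_le_of_le_one_right (Real.exp_pos _).le (hb v)
  have hΦ := h69_pf2_primitive hφ hint
  have hT := h69_pf2_exp_mul a⁻¹ (-a⁻¹) hΦ
  have heq : tailStep a S = fun s => a⁻¹ * Real.exp (-a⁻¹ * s)
      * ∫ v in Iic s, 1 * Real.exp (a⁻¹ * v) * S v := by
    funext s; exact h69_tailStep_pos ha S s
  rw [heq]; exact hT

/-- Reflection identity for `tailStep`. -/
theorem h69_tailStep_neg (a : ℝ) (S : ℝ → ℝ) (s : ℝ) :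
    tailStep a S s = tailStep (-a) (fun v => S (-v)) (-s) := by
  unfold tailStep
  refine integral_congr_ae (Filter.Eventually.of_forall fun y => ?_)
  simp only
  rw [show -(-s - -a * y) = s - a * y by ring]

theorem h69_pf2_tailStep (a : ℝ) {S : ℝ → ℝ} (hS : IsTail S) (hpf : PF2 S) :
    PF2 (tailStep a S) := by
  obtain ⟨hanti, h0, h1⟩ := hS
  have hm : Measurable S := hanti.measurable
  have hb : ∀ s, |S s| ≤ 1 := fun s => by rw [abs_of_nonneg (h0 s)]; exact h1 s
  rcases lt_trichotomy a 0 with ha | ha | ha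
  · have hm' : Measurable (fun v => S (-v)) := hm.comp measurable_neg
    have hb' : ∀ s, |S (-s)| ≤ 1 := fun s => hb (-s)
    have h := h69_pf2_tailStep_pos (neg_pos.mpr ha) hm' hb' (h69_pf2_comp_neg hpf)
    have h' := h69_pf2_comp_neg h
    have heq : (fun s => tailStep (-a) (fun v => S (-v)) (-s)) = tailStep a S := by
      funext s; exact (h69_tailStep_neg a S s).symm
    rw [heq] at h'; exact h'
  · subst ha
    have heq : tailStep 0 S = S := by
      funext s
      unfold tailStep
      simp only [zero_mul, sub_zero]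
      rw [integral_const_mul, integral_exp_neg_Ioi_zero, mul_one]
    rw [heq]; exact hpf
  · exact h69_pf2_tailStep_pos ha hm hb hpf

end Crest.Agent.S0423
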